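import Mathlib

/-! Row 211 (S0324--S0329): area toolkit (owner: helper3).
Areas (`μHE[2]`) of affine images of planar sets, parallelograms and triangles. -/

set_option autoImplicit false

namespace Crest.Agent.Cyl

open MeasureTheory Set
open scoped ENNReal

abbrev E2 := EuclideanSpace ℝ (Fin 2)
abbrev E3 := EuclideanSpace ℝ (Fin 3)

section General

variable {V : Type*} [NormedAddCommGroup V] [InnerProductSpace ℝ V]

/-- the linear map `x ↦ x 0 • a + x 1 • b`. -/
noncomputable def lin2 (a b : V) : E2 →ₗ[ℝ] V where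
  toFun x := x 0 • a + x 1 • b
  map_add' x y := by simp only [PiLp.add_apply, add_smul]; abel
  map_smul' c x := by simp only [PiLp.smul_apply, smul_eq_mul, mul_smul, RingHom.id_apply, smul_add]

@[simp] theorem lin2_apply (a b : V) (x : E2) : lin2 a b x = x 0 • a + x 1 • b := rfl

/-- the Gram determinant of two vectors. -/
noncomputable def gram2 (a b : V) : ℝ := ‖a‖ ^ 2 * ‖b‖ ^ 2 - inner ℝ a b ^ 2

theorem gram2_nonneg (a b : V) : 0 ≤ gram2 a b := by
  have h := abs_real_inner_le_norm a b
  have h2 : inner ℝ a b ^ 2 ≤ (‖a‖ * ‖b‖) ^ 2 := by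
    rw [← sq_abs]; exact pow_le_pow_left₀ (abs_nonneg _) h 2
  unfold gram2; nlinarith

theorem normDet_lin2 (a b : V) : (lin2 a b).normDet = Real.sqrt (gram2 a b) := by
  have h := LinearMap.normDet_sq_eq_det_gram (lin2 a b) (EuclideanSpace.basisFun (Fin 2) ℝ)
  rw [Matrix.det_fin_two] at h
  simp only [Matrix.gram_apply, lin2_apply, EuclideanSpace.basisFun_apply] at h
  simp at h
  rw [eq_comm, Real.sqrt_eq_iff_mul_self_eq (gram2_nonneg a b) (LinearMap.normDet_nonneg _)]
  unfold gram2
  rw [← sq, h, real_inner_comm a b]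
  ring

variable [MeasurableSpace V] [BorelSpace V]

/-- AREA FORMULA for affine images of planar sets. -/
theorem area_affine_image (c a b : V) (S : Set E2) :
    μHE[2] ((fun x : E2 => c + (x 0 • a + x 1 • b)) '' S)
      = ENNReal.ofReal (Real.sqrt (gram2 a b)) * volume S := by
  have h1 : (fun x : E2 => c + (x 0 • a + x 1 • b)) '' S
      = (IsometryEquiv.addLeft c) '' (lin2 a b '' S) := by
    rw [Set.image_image]; rfl
  rw [h1, (IsometryEquiv.addLeft c).isometry.euclideanHausdorffMeasure_image]
  have h2 := LinearMap.euclideanHausdorffMeasure_image_eq_normDet_mul_volume (lin2 a b) S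
  rw [finrank_euclideanSpace_fin, normDet_lin2] at h2
  exact h2

end General

/-! ### planar volumes -/

/-- the coordinates map `E2 → ℝ × ℝ` is measure preserving. -/
theorem measurePreserving_coords :
    MeasurePreserving (fun x : E2 => (x 0, x 1)) volume volume :=
  (volume_preserving_finTwoArrow ℝ).comp (PiLp.volume_preserving_ofLp (Fin 2))

theorem volume_coords_preimage {T : Set (ℝ × ℝ)} (hT : MeasurableSet T) :
    volume {x : E2 | (x 0, x 1) ∈ T} = volume T :=
  measurePreserving_coords.measure_preimage hT.nullMeasurableSet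

/-- the unit square in `E2`. -/
def sq2 : Set E2 := {x | x 0 ∈ Icc (0 : ℝ) 1 ∧ x 1 ∈ Icc (0 : ℝ) 1}

/-- the standard triangle in `E2`. -/
def tri2 : Set E2 := {x | 0 ≤ x 0 ∧ 0 ≤ x 1 ∧ x 0 + x 1 ≤ 1}

theorem volume_sq2 : volume sq2 = 1 := by
  have h : sq2 = {x : E2 | (x 0, x 1) ∈ Icc (0 : ℝ) 1 ×ˢ Icc (0 : ℝ) 1} := by
    ext x; simp [sq2]; tauto
  rw [h, volume_coords_preimage (measurableSet_Icc.prod measurableSet_Icc),
    Measure.volume_eq_prod, Measure.prod_prod]
  simp

theorem volume_tri2 : volume tri2 = ENNReal.ofReal (1 / 2) := by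
  set T : Set (ℝ × ℝ) := {p | 0 ≤ p.1 ∧ 0 ≤ p.2 ∧ p.1 + p.2 ≤ 1} with hT
  have hTm : MeasurableSet T := by
    refine (measurableSet_le measurable_const measurable_fst).inter
      ((measurableSet_le measurable_const measurable_snd).inter
        (measurableSet_le (measurable_fst.add measurable_snd) measurable_const))
  have h : tri2 = {x : E2 | (x 0, x 1) ∈ T} := by
    ext x; simp [tri2, hT]
  rw [h, volume_coords_preimage hTm, Measure.volume_eq_prod, Measure.prod_apply hTm]
  have hslice : ∀ s : ℝ, volume (Prod.mk s ⁻¹' T)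
      = (Icc (0 : ℝ) 1).indicator (fun s => ENNReal.ofReal (1 - s)) s := by
    intro s
    by_cases hs : s ∈ Icc (0 : ℝ) 1
    · rw [indicator_of_mem hs]
      have : Prod.mk s ⁻¹' T = Icc 0 (1 - s) := by
        ext t
        simp only [hT, mem_preimage, mem_ofPred_eq, mem_Icc]
        constructor
        · rintro ⟨_, h2, h3⟩; exact ⟨h2, by linarith⟩
        · rintro ⟨h2, h3⟩; exact ⟨hs.1, h2, by linarith⟩
      rw [this, Real.volume_Icc, sub_zero]
    · rw [indicator_of_notMem hs]
      have : Prod.mk s ⁻¹' T = ∅ := by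
        ext t
        simp only [hT, mem_preimage, mem_ofPred_eq, mem_empty_iff_false, iff_false, not_and, not_le]
        intro h1 h2
        by_contra h3
        exact hs ⟨h1, by linarith⟩
      rw [this, measure_empty]
  simp_rw [hslice]
  rw [lintegral_indicator measurableSet_Icc,
    ← ofReal_integral_eq_lintegral_ofReal]
  · congr 1
    rw [integral_Icc_eq_integral_Ioc, ← intervalIntegral.integral_of_le zero_le_one]
    rw [intervalIntegral.integral_sub (by simp) (by simp)]
    simp
    norm_num
  · exact (continuous_const.sub continuous_id).integrableOn_Icc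
  · refine (ae_restrict_iff' measurableSet_Icc).mpr (Filter.Eventually.of_forall ?_)
    intro s hs
    simp only [Pi.zero_apply]
    linarith [hs.2]

/-! ### parallelograms and triangles -/

section Shapes

variable {V : Type*} [NormedAddCommGroup V] [InnerProductSpace ℝ V]

theorem parallelogram_eq_image (c a b : V) :
    {x : V | ∃ s ∈ Icc (0 : ℝ) 1, ∃ t ∈ Icc (0 : ℝ) 1, x = c + s • a + t • b}
      = (fun x : E2 => c + (x 0 • a + x 1 • b)) '' sq2 := by
  ext x
  constructor
  · rintro ⟨s, hs, t, ht, rfl⟩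
    exact ⟨!₂[s, t], ⟨by simpa using hs, by simpa using ht⟩, by simp [add_assoc]⟩
  · rintro ⟨y, ⟨h0, h1⟩, rfl⟩
    exact ⟨y 0, h0, y 1, h1, by simp [add_assoc]⟩

theorem triangle_eq_image (p q r : V) :
    convexHull ℝ {p, q, r} = (fun x : E2 => p + (x 0 • (q - p) + x 1 • (r - p))) '' tri2 := by
  apply Set.Subset.antisymm
  · apply convexHull_min
    · intro z hz
      simp only [mem_insert_iff, mem_singleton_iff] at hz
      rcases hz with rfl | rfl | rfl
      · exact ⟨!₂[0, 0], by simp [tri2], by simp⟩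
      · exact ⟨!₂[1, 0], by simp [tri2], by simp⟩
      · exact ⟨!₂[0, 1], by simp [tri2], by simp⟩
    · have hc : Convex ℝ tri2 := by
        intro x hx y hy α β hα hβ hαβ
        obtain ⟨x0, x1, x2⟩ := hx
        obtain ⟨y0, y1, y2⟩ := hy
        refine ⟨?_, ?_, ?_⟩
        · simp only [PiLp.add_apply, PiLp.smul_apply, smul_eq_mul]; positivity
        · simp only [PiLp.add_apply, PiLp.smul_apply, smul_eq_mul]; positivity
        · simp only [PiLp.add_apply, PiLp.smul_apply, smul_eq_mul]; nlinarith
      have himg : (fun x : E2 => p + (x 0 • (q - p) + x 1 • (r - p))) '' tri2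
          = (fun z => p + z) '' (lin2 (q - p) (r - p) '' tri2) := by
        rw [Set.image_image]; rfl
      rw [himg]
      exact (hc.linear_image _).translate p
  · rintro _ ⟨x, ⟨h0, h1, h2⟩, rfl⟩
    have hconv := convex_convexHull ℝ ({p, q, r} : Set V)
    have hp : p ∈ convexHull ℝ ({p, q, r} : Set V) := subset_convexHull ℝ _ (by simp)
    have hq : q ∈ convexHull ℝ ({p, q, r} : Set V) := subset_convexHull ℝ _ (by simp)
    have hr : r ∈ convexHull ℝ ({p, q, r} : Set V) := subset_convexHull ℝ _ (by simp)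
    have := hconv.sum_mem (t := (Finset.univ : Finset (Fin 3)))
      (w := ![1 - x 0 - x 1, x 0, x 1]) (z := ![p, q, r])
      (by intro i _; fin_cases i <;> simp <;> linarith)
      (by simp only [Fin.sum_univ_three, Matrix.cons_val_zero, Matrix.cons_val_one, Matrix.cons_val_two, Matrix.head_cons, Matrix.tail_cons]; ring)
      (by intro i _; fin_cases i <;> simp [hp, hq, hr])
    simp only [Fin.sum_univ_three, Matrix.cons_val_zero, Matrix.cons_val_one,
      Matrix.cons_val_two, Matrix.head_cons, Matrix.tail_cons] at this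
    convert this using 1
    simp only [smul_sub, sub_smul, one_smul]
    abel

variable [MeasurableSpace V] [BorelSpace V]

/-- (A1) area of a parallelogram. -/
theorem area_parallelogram (c a b : V) :
    μHE[2] {x : V | ∃ s ∈ Icc (0 : ℝ) 1, ∃ t ∈ Icc (0 : ℝ) 1, x = c + s • a + t • b}
      = ENNReal.ofReal (Real.sqrt (gram2 a b)) := by
  rw [parallelogram_eq_image, area_affine_image, volume_sq2, mul_one]

/-- (A2) area of a triangle. -/
theorem area_triangle (p q r : V) :
    μHE[2] (convexHull ℝ {p, q, r}) = ENNReal.ofReal (Real.sqrt (gram2 (q - p) (r - p)) / 2) := by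
  rw [triangle_eq_image, area_affine_image, volume_tri2,
    ← ENNReal.ofReal_mul (Real.sqrt_nonneg _)]
  congr 1; ring

theorem area_triangle_toReal (p q r : V) :
    (μHE[2] (convexHull ℝ {p, q, r})).toReal = Real.sqrt (gram2 (q - p) (r - p)) / 2 := by
  rw [area_triangle, ENNReal.toReal_ofReal (by positivity)]

theorem area_parallelogram_toReal (c a b : V) :
    (μHE[2] {x : V | ∃ s ∈ Icc (0 : ℝ) 1, ∃ t ∈ Icc (0 : ℝ) 1, x = c + s • a + t • b}).toReal
      = Real.sqrt (gram2 a b) := by
  rw [area_parallelogram, ENNReal.toReal_ofReal (by positivity)]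

/-- a line has zero area. -/
theorem area_line (c a : V) : μHE[2] {x : V | ∃ s : ℝ, x = c + s • a} = 0 := by
  have h : {x : V | ∃ s : ℝ, x = c + s • a}
      = (fun x : E2 => c + (x 0 • a + x 1 • (0 : V))) '' Set.univ := by
    ext x
    constructor
    · rintro ⟨s, rfl⟩
      exact ⟨!₂[s, 0], trivial, by simp⟩
    · rintro ⟨y, -, rfl⟩
      exact ⟨y 0, by simp⟩
  rw [h, area_affine_image]
  simp [gram2]

/-- (A3) comparison of the un-normalised `μH[2]` with `μHE[2]`. -/
theorem exists_hausdorff_factor :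
    ∃ κ : ℝ, 0 < κ ∧ ∀ S : Set V, (μH[(2 : ℝ)] S).toReal = κ * (μHE[2] S).toReal := by
  set k := Measure.addHaarScalarFactor (volume : Measure (EuclideanSpace ℝ (Fin 2))) μH[((2 : ℕ) : ℝ)]
    with hk
  have hk0 : k ≠ 0 := Measure.addHaarScalarFactor_volume_hausdorffMeasure_ne_zero 2
  have hkpos : 0 < (k : ℝ) := by
    exact_mod_cast pos_iff_ne_zero.mpr hk0
  refine ⟨(k : ℝ)⁻¹, inv_pos.mpr hkpos, fun S => ?_⟩
  have h : (μHE[2] S) = (k : ℝ≥0∞) * μH[(2 : ℝ)] S := by
    rw [Measure.euclideanHausdorffMeasure_def, Measure.smul_apply]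
    simp only [Nat.cast_ofNat, ENNReal.smul_def, smul_eq_mul, hk]
  rw [h, ENNReal.toReal_mul, ENNReal.coe_toReal, ← mul_assoc, inv_mul_cancel₀ hkpos.ne', one_mul]

end Shapes

end Crest.Agent.Cyl
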