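import Crest.Agent.Cyl.Defs

/-! T1b: linear algebra in `E3` around Gram determinants and projections. -/

set_option autoImplicit false
open MeasureTheory
open scoped ENNReal

namespace Crest.Agent.Cyl

theorem inner_E3 (x y : E3) : inner ℝ x y = x 0 * y 0 + x 1 * y 1 + x 2 * y 2 := by
  simp [PiLp.inner_apply, Fin.sum_univ_three]
  ring

theorem normsq_E3 (x : E3) : ‖x‖ ^ 2 = x 0 ^ 2 + x 1 ^ 2 + x 2 ^ 2 := by
  rw [← real_inner_self_eq_norm_sq, inner_E3]; ring

/-- three vectors orthogonal to a nonzero vector have vanishing determinant. -/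
theorem det3_eq_zero (e x y z : E3) (he : e ≠ 0) (hx : inner ℝ x e = 0) (hy : inner ℝ y e = 0)
    (hz : inner ℝ z e = 0) :
    x 0 * (y 1 * z 2 - y 2 * z 1) - x 1 * (y 0 * z 2 - y 2 * z 0)
      + x 2 * (y 0 * z 1 - y 1 * z 0) = 0 := by
  rw [inner_E3] at hx hy hz
  set D := x 0 * (y 1 * z 2 - y 2 * z 1) - x 1 * (y 0 * z 2 - y 2 * z 0)
      + x 2 * (y 0 * z 1 - y 1 * z 0) with hD
  have h0 : D * e 0 = 0 := by
    rw [hD]
    linear_combination (y 1 * z 2 - y 2 * z 1) * hx - (x 1 * z 2 - x 2 * z 1) * hy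
      + (x 1 * y 2 - x 2 * y 1) * hz
  have h1 : D * e 1 = 0 := by
    rw [hD]
    linear_combination -(y 0 * z 2 - y 2 * z 0) * hx + (x 0 * z 2 - x 2 * z 0) * hy
      - (x 0 * y 2 - x 2 * y 0) * hz
  have h2 : D * e 2 = 0 := by
    rw [hD]
    linear_combination (y 0 * z 1 - y 1 * z 0) * hx - (x 0 * z 1 - x 1 * z 0) * hy
      + (x 0 * y 1 - x 1 * y 0) * hz
  by_contra hne
  apply he
  have e0 : e 0 = 0 := by rcases mul_eq_zero.1 h0 with h | h; exact absurd h hne; exact h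
  have e1 : e 1 = 0 := by rcases mul_eq_zero.1 h1 with h | h; exact absurd h hne; exact h
  have e2 : e 2 = 0 := by rcases mul_eq_zero.1 h2 with h | h; exact absurd h hne; exact h
  ext i
  fin_cases i <;> simp [e0, e1, e2]

/-- `gram2 a b > 0` iff independent. -/
theorem gram2_pos_iff (a b : E3) : 0 < gram2 a b ↔ LinearIndependent ℝ ![a, b] := by
  rw [LinearIndependent.pair_iff]
  constructor
  · intro hG s t hst
    have h1 : s * ‖a‖ ^ 2 + t * inner ℝ a b = 0 := by
      have := congrArg (fun z => inner ℝ a z) hst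
      simp only [inner_add_right, inner_smul_right, inner_zero_right,
        real_inner_self_eq_norm_sq] at this
      linarith
    have h2 : s * inner ℝ a b + t * ‖b‖ ^ 2 = 0 := by
      have := congrArg (fun z => inner ℝ z b) hst
      simp only [inner_add_left, inner_smul_left, inner_zero_left,
        real_inner_self_eq_norm_sq, RCLike.conj_to_real] at this
      linarith
    have hs : s * gram2 a b = 0 := by
      unfold gram2
      linear_combination ‖b‖ ^ 2 * h1 - inner ℝ a b * h2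
    have ht : t * gram2 a b = 0 := by
      unfold gram2
      linear_combination ‖a‖ ^ 2 * h2 - inner ℝ a b * h1
    exact ⟨(mul_eq_zero.1 hs).resolve_right hG.ne', (mul_eq_zero.1 ht).resolve_right hG.ne'⟩
  · intro h
    rcases (gram2_nonneg a b).lt_or_eq with hpos | h0
    · exact hpos
    · exfalso
      have hz : ‖(‖b‖ ^ 2) • a + (-(inner ℝ a b)) • b‖ ^ 2 = 0 := by
        rw [← real_inner_self_eq_norm_sq]
        simp only [inner_add_left, inner_add_right, inner_smul_left, inner_smul_right,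
          real_inner_self_eq_norm_sq, RCLike.conj_to_real, real_inner_comm a b]
        have : ‖a‖ ^ 2 * ‖b‖ ^ 2 - inner ℝ a b ^ 2 = 0 := h0.symm
        linear_combination ‖b‖ ^ 2 * this
      have hz' : (‖b‖ ^ 2) • a + (-(inner ℝ a b)) • b = 0 := by
        have := pow_eq_zero_iff (two_ne_zero) |>.1 hz
        exact norm_eq_zero.1 this
      have hb : ‖b‖ ^ 2 = 0 := (h _ _ hz').1
      have hb0 : b = 0 := norm_eq_zero.1 (pow_eq_zero_iff (two_ne_zero) |>.1 hb)
      have := (h 0 1 (by simp [hb0])).2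
      exact one_ne_zero this

/-- A plane `e^⊥` in `E3` is spanned by any two independent vectors in it. -/
theorem exists_coords (e a b : E3) (he : e ≠ 0) (ha : inner ℝ a e = 0) (hb : inner ℝ b e = 0)
    (hab : LinearIndependent ℝ ![a, b]) (ξ : E3) (hξ : inner ℝ ξ e = 0) :
    ∃ X Y : ℝ, ξ = X • a + Y • b := by
  have hG : 0 < gram2 a b := (gram2_pos_iff a b).2 hab
  have hdet := det3_eq_zero e a b ξ he ha hb hξ
  -- Cramer coordinates
  refine ⟨(inner ℝ ξ a * ‖b‖ ^ 2 - inner ℝ ξ b * inner ℝ a b) / gram2 a b,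
    (inner ℝ ξ b * ‖a‖ ^ 2 - inner ℝ ξ a * inner ℝ a b) / gram2 a b, ?_⟩
  have hG' : gram2 a b ≠ 0 := hG.ne'
  have key : gram2 a b • ξ = (inner ℝ ξ a * ‖b‖ ^ 2 - inner ℝ ξ b * inner ℝ a b) • a
      + (inner ℝ ξ b * ‖a‖ ^ 2 - inner ℝ ξ a * inner ℝ a b) • b := by
    unfold gram2
    simp only [inner_E3, normsq_E3]
    ext i
    fin_cases i
    · simp
      linear_combination (a 1 * b 2 - a 2 * b 1) * hdet
    · simp
      linear_combination (a 2 * b 0 - a 0 * b 2) * hdet
    · simp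
      linear_combination (a 0 * b 1 - a 1 * b 0) * hdet
  calc ξ = (gram2 a b)⁻¹ • (gram2 a b • ξ) := by rw [smul_smul, inv_mul_cancel₀ hG', one_smul]
    _ = _ := by
      rw [key, smul_add, smul_smul, smul_smul]
      congr 2 <;> field_simp

/-- Gram determinant of three vectors in coordinates. -/
theorem gram3_eq_det_sq (a b v : E3) :
    ‖a‖ ^ 2 * ‖b‖ ^ 2 * ‖v‖ ^ 2 + 2 * inner ℝ a b * inner ℝ a v * inner ℝ b v
      - ‖a‖ ^ 2 * inner ℝ b v ^ 2 - ‖b‖ ^ 2 * inner ℝ a v ^ 2 - ‖v‖ ^ 2 * inner ℝ a b ^ 2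
      = (a 0 * (b 1 * v 2 - b 2 * v 1) - a 1 * (b 0 * v 2 - b 2 * v 0)
      + a 2 * (b 0 * v 1 - b 1 * v 0)) ^ 2 := by
  simp only [inner_E3, normsq_E3]
  ring

theorem gram2_sub_smul (u x y : E3) (α β : ℝ) :
    gram2 (x - α • u) (y - β • u) =
      (‖x‖ ^ 2 - 2 * α * inner ℝ x u + α ^ 2 * ‖u‖ ^ 2)
        * (‖y‖ ^ 2 - 2 * β * inner ℝ y u + β ^ 2 * ‖u‖ ^ 2)
      - (inner ℝ x y - β * inner ℝ x u - α * inner ℝ y u + α * β * ‖u‖ ^ 2) ^ 2 := by
  unfold gram2
  have h1 : ‖x - α • u‖ ^ 2 = ‖x‖ ^ 2 - 2 * α * inner ℝ x u + α ^ 2 * ‖u‖ ^ 2 := by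
    rw [norm_sub_sq_real, inner_smul_right, norm_smul, mul_pow, Real.norm_eq_abs, sq_abs]; ring
  have h2 : ‖y - β • u‖ ^ 2 = ‖y‖ ^ 2 - 2 * β * inner ℝ y u + β ^ 2 * ‖u‖ ^ 2 := by
    rw [norm_sub_sq_real, inner_smul_right, norm_smul, mul_pow, Real.norm_eq_abs, sq_abs]; ring
  have h3 : inner ℝ (x - α • u) (y - β • u)
      = inner ℝ x y - β * inner ℝ x u - α * inner ℝ y u + α * β * ‖u‖ ^ 2 := by
    simp only [inner_sub_left, inner_sub_right, inner_smul_left, inner_smul_right,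
      real_inner_self_eq_norm_sq, RCLike.conj_to_real, real_inner_comm y u]
    ring
  rw [h1, h2, h3]

/-- Projecting a planar figure in `e^⊥` along `e + w` (`w ⊥ e`) divides the Gram determinant by
`1 + ‖w‖²`. -/
theorem gram2_prjN (e w x y : E3) (he : ‖e‖ = 1) (hw : inner ℝ w e = 0) (hx : inner ℝ x e = 0)
    (hy : inner ℝ y e = 0) :
    gram2 (prjN (e + w) x) (prjN (e + w) y) = gram2 x y / (1 + ‖w‖ ^ 2) := by
  have he0 : e ≠ 0 := by
    intro h; rw [h, norm_zero] at he; exact zero_ne_one he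
  have hN : ‖e + w‖ ^ 2 = 1 + ‖w‖ ^ 2 := by
    rw [norm_add_sq_real, he, real_inner_comm, hw]; ring
  have hxu : inner ℝ x (e + w) = inner ℝ x w := by rw [inner_add_right, hx, zero_add]
  have hyu : inner ℝ y (e + w) = inner ℝ y w := by rw [inner_add_right, hy, zero_add]
  have hpos : (0 : ℝ) < 1 + ‖w‖ ^ 2 := by positivity
  have hdet := det3_eq_zero e x y w he0 hx hy hw
  have hg := gram3_eq_det_sq x y w
  rw [hdet] at hg
  unfold prjN
  rw [gram2_sub_smul, hN, hxu, hyu]
  unfold gram2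
  field_simp
  linear_combination (1 + ‖w‖ ^ 2) * hg

/-- For a unit vector `v`: Gram determinant of the projections = (triple product)². -/
theorem gram2_prj (v a b : E3) (hv : ‖v‖ = 1) :
    gram2 (prj v a) (prj v b) =
      (Matrix.det !![a 0, a 1, a 2; b 0, b 1, b 2; v 0, v 1, v 2]) ^ 2 := by
  have hg := gram3_eq_det_sq a b v
  unfold prj
  rw [gram2_sub_smul, Matrix.det_fin_three, hv]
  rw [hv] at hg
  simp only [Matrix.of_apply, Matrix.cons_val', Matrix.cons_val_zero, Matrix.cons_val_one,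
    Matrix.cons_val_two, Matrix.head_cons, Matrix.tail_cons]
  linear_combination hg

end Crest.Agent.Cyl
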