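import Crest.Agent.Cyl.AreaAlg

/-! T7: bookkeeping for covers by triangle cylinders. -/

set_option autoImplicit false
open MeasureTheory
open scoped ENNReal

namespace Crest.Agent.Cyl

/-- `S` is covered by `m` cylinders over nondegenerate triangles, of total base area `≤ A`. -/
def TriCover (S : Set E3) (m : ℕ) (A : ℝ) : Prop :=
  ∃ u p q r : Fin m → E3, (∀ i, ‖u i‖ = 1) ∧
    (∀ i, inner ℝ (p i) (u i) = 0 ∧ inner ℝ (q i) (u i) = 0 ∧ inner ℝ (r i) (u i) = 0) ∧
    (∀ i, AffineIndependent ℝ ![p i, q i, r i]) ∧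
    S ⊆ ⋃ i, cyl (tri (p i) (q i) (r i)) (u i) ∧
    ∑ i, (μHE[2] (tri (p i) (q i) (r i))).toReal ≤ A


/-! ### helper lemmas (helper4) -/

theorem area_tri_toReal (p q r : E3) :
    (μHE[2] (tri p q r)).toReal = Real.sqrt (gram2 (q - p) (r - p)) / 2 :=
  area_triangle_toReal p q r

theorem cyl_mono {B B' : Set E3} (h : B ⊆ B') (u : E3) : cyl B u ⊆ cyl B' u := by
  rintro x ⟨y, hy, t, rfl⟩
  exact ⟨y, h hy, t, rfl⟩

/-- the similarity `x ↦ d + κ • W x` as an affine map. -/
noncomputable def simMap (W : E3 ≃ₗᵢ[ℝ] E3) (κ : ℝ) (d : E3) : E3 →ᵃ[ℝ] E3 where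
  toFun := fun x => d + κ • W x
  linear := κ • W.toLinearEquiv.toLinearMap
  map_vadd' := by
    intro p v
    simp only [vadd_eq_add, map_add, smul_add, LinearMap.smul_apply, LinearEquiv.coe_coe,
      LinearIsometryEquiv.coe_toLinearEquiv]
    abel

@[simp] theorem simMap_apply (W : E3 ≃ₗᵢ[ℝ] E3) (κ : ℝ) (d x : E3) :
    simMap W κ d x = d + κ • W x := rfl

theorem simMap_injective (W : E3 ≃ₗᵢ[ℝ] E3) {κ : ℝ} (hκ : κ ≠ 0) (d : E3) :
    Function.Injective (simMap W κ d) := by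
  intro x y h
  simp only [simMap_apply, add_right_inj] at h
  exact W.injective (smul_right_injective E3 hκ h)

theorem simMap_affineIndependent (W : E3 ≃ₗᵢ[ℝ] E3) {κ : ℝ} (hκ : κ ≠ 0) (d : E3) {p q r : E3}
    (h : AffineIndependent ℝ ![p, q, r]) :
    AffineIndependent ℝ ![simMap W κ d p, simMap W κ d q, simMap W κ d r] := by
  have h1 := h.map' (simMap W κ d) (simMap_injective W hκ d)
  convert h1 using 1
  ext i
  fin_cases i <;> rfl

theorem simMap_image_tri (W : E3 ≃ₗᵢ[ℝ] E3) (κ : ℝ) (d p q r : E3) :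
    simMap W κ d '' tri p q r = tri (simMap W κ d p) (simMap W κ d q) (simMap W κ d r) := by
  unfold tri
  rw [AffineMap.image_convexHull, Set.image_insert_eq, Set.image_pair]

theorem gram2_smul_isometry (W : E3 ≃ₗᵢ[ℝ] E3) (κ : ℝ) (a b : E3) :
    gram2 (κ • W a) (κ • W b) = (κ ^ 2) ^ 2 * gram2 a b := by
  unfold gram2
  rw [norm_smul, norm_smul, inner_smul_left, inner_smul_right, W.norm_map, W.norm_map,
    W.inner_map_map, Real.norm_eq_abs, mul_pow, mul_pow, sq_abs]
  simp only [conj_trivial]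
  ring

theorem simMap_area (W : E3 ≃ₗᵢ[ℝ] E3) (κ : ℝ) (d p q r : E3) :
    (μHE[2] (tri (simMap W κ d p) (simMap W κ d q) (simMap W κ d r))).toReal
      = κ ^ 2 * (μHE[2] (tri p q r)).toReal := by
  rw [area_tri_toReal, area_tri_toReal]
  have e1 : simMap W κ d q - simMap W κ d p = κ • W (q - p) := by
    simp only [simMap_apply, map_sub, smul_sub]; abel
  have e2 : simMap W κ d r - simMap W κ d p = κ • W (r - p) := by
    simp only [simMap_apply, map_sub, smul_sub]; abel
  rw [e1, e2, gram2_smul_isometry, Real.sqrt_mul (by positivity), Real.sqrt_sq (by positivity)]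
  ring

/-- a nondegenerate triangle has positive Gram determinant. -/
theorem gram2_pos_of_affineIndependent {p q r : E3} (h : AffineIndependent ℝ ![p, q, r]) :
    0 < gram2 (q - p) (r - p) := by
  rcases (gram2_nonneg (q - p) (r - p)).eq_or_lt with h0 | h0
  swap
  · exact h0
  exfalso
  rw [affineIndependent_iff_not_collinear_set] at h
  apply h
  set a := q - p with ha
  set b := r - p with hb
  have hq : q = a + p := by rw [ha]; abel
  have hr : r = b + p := by rw [hb]; abel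
  have hw : ‖a‖ ^ 2 • b - inner ℝ a b • a = 0 := by
    rw [← norm_eq_zero, ← sq_eq_zero_iff, norm_sub_sq_real, norm_smul, norm_smul,
      inner_smul_left, inner_smul_right, real_inner_comm a b]
    simp only [conj_trivial, Real.norm_eq_abs, mul_pow, sq_abs]
    have : ‖a‖ ^ 2 * ‖b‖ ^ 2 - inner ℝ a b ^ 2 = 0 := h0.symm
    have h2 : ‖a‖ ^ 2 * ‖b‖ ^ 2 = inner ℝ a b ^ 2 := by linarith
    calc (‖a‖ ^ 2) ^ 2 * ‖b‖ ^ 2 - 2 * (‖a‖ ^ 2 * (inner ℝ a b * inner ℝ a b))
          + inner ℝ a b ^ 2 * ‖a‖ ^ 2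
        = ‖a‖ ^ 2 * (‖a‖ ^ 2 * ‖b‖ ^ 2 - inner ℝ a b ^ 2) := by ring
      _ = 0 := by rw [h2]; ring
  rw [collinear_iff_of_mem (p₀ := p) (by simp)]
  by_cases ha0 : a = 0
  · refine ⟨b, ?_⟩
    intro x hx
    simp only [Set.mem_insert_iff, Set.mem_singleton_iff] at hx
    rcases hx with rfl | rfl | rfl
    · exact ⟨0, by simp⟩
    · exact ⟨0, by rw [hq, ha0]; simp⟩
    · exact ⟨1, by rw [hr]; simp⟩
  · refine ⟨a, ?_⟩
    have hna : ‖a‖ ^ 2 ≠ 0 := by
      have := norm_pos_iff.mpr ha0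
      positivity
    intro x hx
    simp only [Set.mem_insert_iff, Set.mem_singleton_iff] at hx
    rcases hx with rfl | rfl | rfl
    · exact ⟨0, by simp⟩
    · exact ⟨1, by rw [hq]; simp⟩
    · refine ⟨inner ℝ a b / ‖a‖ ^ 2, ?_⟩
      have hb' : b = (inner ℝ a b / ‖a‖ ^ 2) • a := by
        have h3 : ‖a‖ ^ 2 • b = inner ℝ a b • a := sub_eq_zero.mp hw
        rw [div_eq_inv_mul, mul_smul, ← h3, smul_smul, inv_mul_cancel₀ hna, one_smul]
      rw [hr, vadd_eq_add, ← hb']

theorem area_tri_pos {p q r : E3} (h : AffineIndependent ℝ ![p, q, r]) :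
    0 < (μHE[2] (tri p q r)).toReal := by
  rw [area_tri_toReal]
  have := Real.sqrt_pos.mpr (gram2_pos_of_affineIndependent h)
  positivity

theorem TriCover.mono {S S' : Set E3} {m : ℕ} {A A' : ℝ} (h : TriCover S m A) (hS : S' ⊆ S)
    (hA : A ≤ A') : TriCover S' m A' := by
  obtain ⟨u, p, q, r, h1, h2, h3, h4, h5⟩ := h
  exact ⟨u, p, q, r, h1, h2, h3, hS.trans h4, h5.trans hA⟩

theorem TriCover.union {S S' : Set E3} {m m' : ℕ} {A A' : ℝ} (h : TriCover S m A)
    (h' : TriCover S' m' A') : TriCover (S ∪ S') (m + m') (A + A') := by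
  obtain ⟨u, p, q, r, h1, h2, h3, h4, h5⟩ := h
  obtain ⟨u', p', q', r', h1', h2', h3', h4', h5'⟩ := h'
  refine ⟨Fin.append u u', Fin.append p p', Fin.append q q', Fin.append r r', ?_, ?_, ?_, ?_, ?_⟩
  · intro i
    refine Fin.addCases (fun i => ?_) (fun i => ?_) i
    · rw [Fin.append_left]; exact h1 i
    · rw [Fin.append_right]; exact h1' i
  · intro i
    refine Fin.addCases (fun i => ?_) (fun i => ?_) i
    · simp only [Fin.append_left]; exact h2 i
    · simp only [Fin.append_right]; exact h2' i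
  · intro i
    refine Fin.addCases (fun i => ?_) (fun i => ?_) i
    · simp only [Fin.append_left]; exact h3 i
    · simp only [Fin.append_right]; exact h3' i
  · rintro x (hx | hx)
    · obtain ⟨i, hi⟩ := Set.mem_iUnion.mp (h4 hx)
      refine Set.mem_iUnion.mpr ⟨Fin.castAdd m' i, ?_⟩
      simp only [Fin.append_left]; exact hi
    · obtain ⟨i, hi⟩ := Set.mem_iUnion.mp (h4' hx)
      refine Set.mem_iUnion.mpr ⟨Fin.natAdd m i, ?_⟩
      simp only [Fin.append_right]; exact hi
  · rw [Fin.sum_univ_add]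
    simp only [Fin.append_left, Fin.append_right]
    exact add_le_add h5 h5'

/-- transport under a similarity `x ↦ c₀ + k • U x`. -/
theorem TriCover.image {S : Set E3} {m : ℕ} {A : ℝ} (h : TriCover S m A)
    (U : E3 ≃ₗᵢ[ℝ] E3) (k : ℝ) (hk : 0 < k) (c₀ : E3) :
    TriCover ((fun x => c₀ + k • U x) '' S) m (k ^ 2 * A) := by
  obtain ⟨u, p, q, r, h1, h2, h3, h4, h5⟩ := h
  -- the translation part, projected to the plane perpendicular to the new direction
  set d : Fin m → E3 := fun i => c₀ - inner ℝ c₀ (U (u i)) • U (u i) with hd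
  have hUu : ∀ i, ‖U (u i)‖ = 1 := fun i => by rw [U.norm_map]; exact h1 i
  have hdperp : ∀ i, inner ℝ (d i) (U (u i)) = 0 := by
    intro i
    simp only [hd]
    rw [inner_sub_left, inner_smul_left, real_inner_self_eq_norm_sq, hUu i]
    simp
  have hperp : ∀ i (x : E3), inner ℝ x (u i) = 0 →
      inner ℝ (simMap U k (d i) x) (U (u i)) = 0 := by
    intro i x hx
    rw [simMap_apply, inner_add_left, hdperp i, inner_smul_left, U.inner_map_map, hx]
    simp
  refine ⟨fun i => U (u i), fun i => simMap U k (d i) (p i), fun i => simMap U k (d i) (q i),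
    fun i => simMap U k (d i) (r i), hUu, ?_, ?_, ?_, ?_⟩
  · intro i
    exact ⟨hperp i _ (h2 i).1, hperp i _ (h2 i).2.1, hperp i _ (h2 i).2.2⟩
  · intro i
    exact simMap_affineIndependent U hk.ne' (d i) (h3 i)
  · rintro _ ⟨x, hx, rfl⟩
    obtain ⟨i, y, hy, t, rfl⟩ := Set.mem_iUnion.mp (h4 hx)
    refine Set.mem_iUnion.mpr ⟨i, simMap U k (d i) y, ?_, inner ℝ c₀ (U (u i)) + k * t, ?_⟩
    · rw [← simMap_image_tri]; exact ⟨y, hy, rfl⟩
    · simp only [simMap_apply, hd, map_add, map_smul, smul_add, add_smul, smul_smul]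
      abel
  · simp only [simMap_area]
    rw [← Finset.mul_sum]
    exact mul_le_mul_of_nonneg_left h5 (by positivity)

/-- the total area can be increased to any prescribed value (enlarge one triangle from a vertex). -/
theorem TriCover.exact {S : Set E3} {m : ℕ} {A : ℝ} (h : TriCover S m A) (hm : 0 < m) :
    ∃ u p q r : Fin m → E3, (∀ i, ‖u i‖ = 1) ∧
    (∀ i, inner ℝ (p i) (u i) = 0 ∧ inner ℝ (q i) (u i) = 0 ∧ inner ℝ (r i) (u i) = 0) ∧
    (∀ i, AffineIndependent ℝ ![p i, q i, r i]) ∧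
    S ⊆ ⋃ i, cyl (tri (p i) (q i) (r i)) (u i) ∧
    ∑ i, (μHE[2] (tri (p i) (q i) (r i))).toReal = A := by
  obtain ⟨u, p, q, r, h1, h2, h3, h4, h5⟩ := h
  set i₀ : Fin m := ⟨0, hm⟩ with hi₀
  set a : Fin m → ℝ := fun i => (μHE[2] (tri (p i) (q i) (r i))).toReal with ha
  have ha0 : 0 < a i₀ := area_tri_pos (h3 i₀)
  have hsplit : a i₀ + ∑ i ∈ Finset.univ.erase i₀, a i = ∑ i, a i :=
    Finset.add_sum_erase _ _ (Finset.mem_univ i₀)
  set rest := ∑ i ∈ Finset.univ.erase i₀, a i with hrest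
  set lam := Real.sqrt ((A - rest) / a i₀) with hlam
  have hge : 1 ≤ (A - rest) / a i₀ := by
    rw [le_div_iff₀ ha0]
    have : ∑ i, a i ≤ A := h5
    linarith
  have hlam1 : 1 ≤ lam := by
    rw [hlam]; exact Real.one_le_sqrt.mpr hge
  have hlam0 : 0 < lam := by linarith
  have hlamsq : lam ^ 2 = (A - rest) / a i₀ := Real.sq_sqrt (by linarith)
  -- the homothety with centre `p i₀`
  set F := simMap (LinearIsometryEquiv.refl ℝ E3) lam ((1 - lam) • p i₀) with hF
  have hFapp : ∀ x, F x = (1 - lam) • p i₀ + lam • x := fun x => rfl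
  have hFp : F (p i₀) = p i₀ := by
    rw [hFapp, ← add_smul]; simp
  have hsub : tri (p i₀) (q i₀) (r i₀) ⊆ tri (p i₀) (F (q i₀)) (F (r i₀)) := by
    unfold tri
    apply convexHull_min _ (convex_convexHull ℝ _)
    have hmemp : p i₀ ∈ convexHull ℝ {p i₀, F (q i₀), F (r i₀)} :=
      subset_convexHull ℝ _ (by simp)
    have hmemq : F (q i₀) ∈ convexHull ℝ {p i₀, F (q i₀), F (r i₀)} :=
      subset_convexHull ℝ _ (by simp)
    have hmemr : F (r i₀) ∈ convexHull ℝ {p i₀, F (q i₀), F (r i₀)} :=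
      subset_convexHull ℝ _ (by simp)
    have hinv : 0 ≤ 1 - lam⁻¹ := by
      have : lam⁻¹ ≤ 1 := inv_le_one_of_one_le₀ hlam1
      linarith
    have hcomb : ∀ x, x = (1 - lam⁻¹) • p i₀ + lam⁻¹ • F x := by
      intro x
      rw [hFapp, smul_add, smul_smul, smul_smul, inv_mul_cancel₀ hlam0.ne', one_smul,
        ← add_assoc, ← add_smul]
      have : 1 - lam⁻¹ + lam⁻¹ * (1 - lam) = 0 := by
        field_simp; ring
      rw [this]; simp
    intro x hx
    simp only [Set.mem_insert_iff, Set.mem_singleton_iff] at hx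
    rcases hx with rfl | rfl | rfl
    · exact hmemp
    · have h9 := convex_convexHull ℝ _ hmemp hmemq hinv (inv_nonneg.mpr hlam0.le) (by ring)
      rw [← hcomb (q i₀)] at h9
      exact h9
    · have h9 := convex_convexHull ℝ _ hmemp hmemr hinv (inv_nonneg.mpr hlam0.le) (by ring)
      rw [← hcomb (r i₀)] at h9
      exact h9
  have hperp : ∀ x : E3, inner ℝ x (u i₀) = 0 → inner ℝ (F x) (u i₀) = 0 := by
    intro x hx
    rw [hFapp, inner_add_left, inner_smul_left, inner_smul_left, (h2 i₀).1, hx]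
    simp
  refine ⟨u, p, Function.update q i₀ (F (q i₀)), Function.update r i₀ (F (r i₀)), h1,
    ?_, ?_, ?_, ?_⟩
  · intro i
    by_cases hi : i = i₀
    · subst hi
      simp only [Function.update_self]
      exact ⟨(h2 _).1, hperp _ (h2 _).2.1, hperp _ (h2 _).2.2⟩
    · simp only [Function.update_of_ne hi]
      exact h2 i
  · intro i
    by_cases hi : i = i₀
    · subst hi
      simp only [Function.update_self]
      have := simMap_affineIndependent (LinearIsometryEquiv.refl ℝ E3) hlam0.ne'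
        ((1 - lam) • p i₀) (h3 i₀)
      rw [← hF, hFp] at this
      exact this
    · simp only [Function.update_of_ne hi]
      exact h3 i
  · intro x hx
    obtain ⟨i, hi⟩ := Set.mem_iUnion.mp (h4 hx)
    refine Set.mem_iUnion.mpr ⟨i, ?_⟩
    by_cases hii : i = i₀
    · subst hii
      simp only [Function.update_self]
      exact cyl_mono hsub _ hi
    · simp only [Function.update_of_ne hii]
      exact hi
  · rw [← Finset.add_sum_erase _ _ (Finset.mem_univ i₀)]
    simp only [Function.update_self]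
    have h6 : ∑ i ∈ Finset.univ.erase i₀, (μHE[2] (tri (p i) (Function.update q i₀ (F (q i₀)) i)
        (Function.update r i₀ (F (r i₀)) i))).toReal = rest := by
      apply Finset.sum_congr rfl
      intro i hi
      have hne : i ≠ i₀ := Finset.ne_of_mem_erase hi
      simp only [Function.update_of_ne hne, ha]
    rw [h6]
    have h7 := simMap_area (LinearIsometryEquiv.refl ℝ E3) lam ((1 - lam) • p i₀)
      (p i₀) (q i₀) (r i₀)
    rw [← hF, hFp] at h7
    rw [h7, hlamsq]
    have : (A - rest) / a i₀ * a i₀ = A - rest := div_mul_cancel₀ _ ha0.ne'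
    have h8 : (A - rest) / a i₀ * (μHE[2] (tri (p i₀) (q i₀) (r i₀))).toReal = A - rest := this
    rw [h8]; ring

/-- `S` is covered by `m` cylinders over nondegenerate parallelograms, total base area `≤ A`. -/
def ParCover (S : Set E3) (m : ℕ) (A : ℝ) : Prop :=
  ∃ u c a b : Fin m → E3, (∀ i, ‖u i‖ = 1) ∧
    (∀ i, inner ℝ (c i) (u i) = 0 ∧ inner ℝ (a i) (u i) = 0 ∧ inner ℝ (b i) (u i) = 0) ∧
    (∀ i, LinearIndependent ℝ ![a i, b i]) ∧
    S ⊆ ⋃ i, cyl (pgram (c i) (a i) (b i)) (u i) ∧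
    ∑ i, (μHE[2] (pgram (c i) (a i) (b i))).toReal ≤ A

-- `TriCover.toPar` is in `Cyl/CoverPar.lean`.

/-- `S` is covered by `m` cylinders over bounded relatively open bases, total area `≤ A`. -/
def OpenCover (S : Set E3) (m : ℕ) (A : ℝ) : Prop :=
  ∃ (u : Fin m → E3) (B : Fin m → Set E3), (∀ i, ‖u i‖ = 1) ∧
    (∀ i, Bornology.IsBounded (B i) ∧ ∃ O : Set E3, IsOpen O ∧ B i = O ∩ {x | inner ℝ x (u i) = 0}) ∧
    S ⊆ ⋃ i, cyl (B i) (u i) ∧
    (∀ i, μHE[2] (B i) < ⊤) ∧
    ∑ i, (μHE[2] (B i)).toReal ≤ A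

-- `ParCover.toOpen` is in `Cyl/CoverPar.lean`.

end Crest.Agent.Cyl
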