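import Crest.Agent.Cyl.Cover

/-! T7b: from triangle covers to parallelogram covers to relatively open covers. -/

set_option autoImplicit false
open MeasureTheory
open scoped ENNReal

namespace Crest.Agent.Cyl

theorem coverpar_gram2_smul (α β : ℝ) (a b : E3) :
    gram2 (α • a) (β • b) = (α * β) ^ 2 * gram2 a b := by
  unfold gram2
  rw [norm_smul, norm_smul, inner_smul_left, inner_smul_right]
  simp only [Real.norm_eq_abs, mul_pow, sq_abs, conj_trivial]
  ring

theorem coverpar_sqrt_gram2_smul {α β : ℝ} (hα : 0 ≤ α) (hβ : 0 ≤ β) (a b : E3) :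
    Real.sqrt (gram2 (α • a) (β • b)) = α * β * Real.sqrt (gram2 a b) := by
  rw [coverpar_gram2_smul, Real.sqrt_mul (sq_nonneg _), Real.sqrt_sq (by positivity)]

/-- linear independence of the edge vectors of a nondegenerate triangle. -/
theorem coverpar_linInd {p q r : E3} (h : AffineIndependent ℝ ![p, q, r]) :
    LinearIndependent ℝ ![q - p, r - p] := by
  rw [LinearIndependent.pair_iff]
  intro s t hst
  rw [affineIndependent_iff] at h
  have h1 := h Finset.univ ![-(s + t), s, t]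
    (by simp [Fin.sum_univ_three])
    (by
      simp only [Fin.sum_univ_three, Matrix.cons_val_zero, Matrix.cons_val_one,
        Matrix.cons_val_two, Matrix.head_cons, Matrix.tail_cons]
      rw [← hst]
      simp only [smul_sub, neg_smul, add_smul]
      abel)
  exact ⟨by simpa using h1 1 (Finset.mem_univ _), by simpa using h1 2 (Finset.mem_univ _)⟩

theorem coverpar_linInd_smul {a b : E3} (h : LinearIndependent ℝ ![a, b]) {α β : ℝ}
    (hα : α ≠ 0) (hβ : β ≠ 0) : LinearIndependent ℝ ![α • a, β • b] := by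
  rw [LinearIndependent.pair_iff] at h ⊢
  intro s t hst
  have := h (s * α) (t * β) (by rw [← hst, mul_smul, mul_smul])
  exact ⟨by simpa [hα] using this.1, by simpa [hβ] using this.2⟩

theorem coverpar_sum_range (n : ℕ) : ∑ j ∈ Finset.range n, (j : ℝ) = n * (n - 1) / 2 := by
  induction n with
  | zero => simp
  | succ k ih => rw [Finset.sum_range_succ, ih]; push_cast; ring

theorem coverpar_sum_fin (n : ℕ) (hn : 0 < n) :
    ∑ j : Fin n, (1 - ((j : ℕ) : ℝ) / n) * (1 / (n : ℝ)) = (1 + 1 / (n : ℝ)) / 2 := by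
  have hn' : (n : ℝ) ≠ 0 := by positivity
  rw [Fin.sum_univ_eq_sum_range (fun j : ℕ => (1 - (j : ℝ) / n) * (1 / (n : ℝ))) n,
    ← Finset.sum_mul, Finset.sum_sub_distrib, ← Finset.sum_div, coverpar_sum_range]
  simp only [Finset.sum_const, Finset.card_range, nsmul_eq_mul, mul_one]
  field_simp
  ring

/-- the strips covering a triangle. -/
theorem coverpar_tri_subset (p q r : E3) (n : ℕ) (hn : 0 < n) :
    tri p q r ⊆ ⋃ j : Fin n, pgram (p + (((j : ℕ) : ℝ) / n) • (r - p))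
      ((1 - ((j : ℕ) : ℝ) / n) • (q - p)) ((1 / (n : ℝ)) • (r - p)) := by
  intro y hy
  unfold tri at hy
  rw [triangle_eq_image] at hy
  obtain ⟨x, ⟨h0, h1, h2⟩, rfl⟩ := hy
  have hn' : (0 : ℝ) < n := by positivity
  set j : ℕ := min ⌊x 1 * n⌋₊ (n - 1) with hj
  have hjn : j < n := by omega
  have hj1 : (j : ℝ) ≤ x 1 * n := by
    have : (⌊x 1 * n⌋₊ : ℝ) ≤ x 1 * n := Nat.floor_le (by positivity)
    have h3 : (j : ℝ) ≤ (⌊x 1 * n⌋₊ : ℝ) := by exact_mod_cast min_le_left _ _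
    linarith
  have hj2 : x 1 * n ≤ (j : ℝ) + 1 := by
    rcases le_total ⌊x 1 * n⌋₊ (n - 1) with h | h
    · rw [hj, min_eq_left h]
      exact (Nat.lt_floor_add_one _).le
    · rw [hj, min_eq_right h]
      have : ((n - 1 : ℕ) : ℝ) = n - 1 := by
        rw [Nat.cast_sub hn]; simp
      rw [this]
      have : x 1 ≤ 1 := by linarith
      nlinarith
  have hjn' : (j : ℝ) + 1 ≤ n := by exact_mod_cast hjn
  have hpos : 0 < 1 - (j : ℝ) / n := by
    rw [sub_pos, div_lt_one hn']; linarith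
  have hj3 : (j : ℝ) / n ≤ x 1 := by rw [div_le_iff₀ hn']; exact hj1
  refine Set.mem_iUnion.2 ⟨⟨j, hjn⟩, x 0 / (1 - (j : ℝ) / n), ⟨by positivity, ?_⟩,
    x 1 * n - j, ⟨by linarith, by linarith⟩, ?_⟩
  · rw [div_le_one hpos]; linarith
  · simp only [smul_smul]
    rw [div_mul_cancel₀ _ hpos.ne']
    have : x 1 = (j : ℝ) / n + (x 1 * n - j) * (1 / (n : ℝ)) := by
      field_simp; ring
    conv_lhs => rw [this]
    rw [add_smul]
    abel

theorem coverpar_strip_area (p q r : E3) (n : ℕ) (hn : 0 < n) :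
    ∑ j : Fin n, (μHE[2] (pgram (p + (((j : ℕ) : ℝ) / n) • (r - p))
      ((1 - ((j : ℕ) : ℝ) / n) • (q - p)) ((1 / (n : ℝ)) • (r - p)))).toReal
      = (1 + 1 / (n : ℝ)) * (μHE[2] (tri p q r)).toReal := by
  have hn' : (0 : ℝ) < n := by positivity
  have h1 : ∀ j : Fin n, (μHE[2] (pgram (p + (((j : ℕ) : ℝ) / n) • (r - p))
      ((1 - ((j : ℕ) : ℝ) / n) • (q - p)) ((1 / (n : ℝ)) • (r - p)))).toReal
      = ((1 - ((j : ℕ) : ℝ) / n) * (1 / (n : ℝ))) * Real.sqrt (gram2 (q - p) (r - p)) := by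
    intro j
    have hj : ((j : ℕ) : ℝ) + 1 ≤ n := by exact_mod_cast j.2
    have hj' : ((j : ℕ) : ℝ) / n < 1 := by rw [div_lt_one hn']; linarith
    rw [area_pgram, ENNReal.toReal_ofReal (Real.sqrt_nonneg _),
      coverpar_sqrt_gram2_smul (by linarith) (by positivity)]
  rw [Finset.sum_congr rfl (fun j _ => h1 j), ← Finset.sum_mul, coverpar_sum_fin n hn, area_tri,
    ENNReal.toReal_ofReal (by positivity)]
  ring

/-- a triangle is covered by `n` parallelograms (strips parallel to one side) of total area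
`(1 + 1/n)` times its area. -/
theorem TriCover.toPar {S : Set E3} {m : ℕ} {A : ℝ} (h : TriCover S m A) (n : ℕ) (hn : 0 < n) :
    ParCover S (m * n) ((1 + 1 / (n : ℝ)) * A) := by
  obtain ⟨u, p, q, r, hu, hperp, hind, hcov, hsum⟩ := h
  have hn' : (0 : ℝ) < n := by positivity
  let e := (finProdFinEquiv : Fin m × Fin n ≃ Fin (m * n)).symm
  refine ⟨fun k => u (e k).1,
    fun k => p (e k).1 + ((((e k).2 : ℕ) : ℝ) / n) • (r (e k).1 - p (e k).1),
    fun k => (1 - (((e k).2 : ℕ) : ℝ) / n) • (q (e k).1 - p (e k).1),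
    fun k => (1 / (n : ℝ)) • (r (e k).1 - p (e k).1), fun k => hu _, ?_, ?_, ?_, ?_⟩
  · intro k
    obtain ⟨h1, h2, h3⟩ := hperp (e k).1
    simp [inner_add_left, inner_sub_left, inner_smul_left, h1, h2, h3]
  · intro k
    apply coverpar_linInd_smul (coverpar_linInd (hind _))
    · have h1 : (((e k).2 : ℕ) : ℝ) + 1 ≤ n := by exact_mod_cast (e k).2.2
      have h2 : (((e k).2 : ℕ) : ℝ) / n < 1 := by rw [div_lt_one hn']; linarith
      linarith
    · positivity
  · intro x hx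
    obtain ⟨i, hi⟩ := Set.mem_iUnion.1 (hcov hx)
    obtain ⟨y, hy, t, rfl⟩ := hi
    obtain ⟨j, hj⟩ := Set.mem_iUnion.1 (coverpar_tri_subset _ _ _ n hn hy)
    refine Set.mem_iUnion.2 ⟨finProdFinEquiv (i, j), y, ?_, t, ?_⟩
    · simpa [e] using hj
    · simp [e]
  · rw [← Equiv.sum_comp finProdFinEquiv, Fintype.sum_prod_type]
    simp only [e, Equiv.symm_apply_apply]
    rw [Finset.sum_congr rfl (fun i _ => coverpar_strip_area (p i) (q i) (r i) n hn),
      ← Finset.mul_sum]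
    exact mul_le_mul_of_nonneg_left hsum (by positivity)

theorem coverpar_pgram_bounded (c a b : E3) : Bornology.IsBounded (pgram c a b) := by
  rw [isBounded_iff_forall_norm_le]
  refine ⟨‖c‖ + ‖a‖ + ‖b‖, ?_⟩
  rintro _ ⟨s, hs, t, ht, rfl⟩
  have h1 : ‖s • a‖ ≤ ‖a‖ := by
    rw [norm_smul, Real.norm_eq_abs, abs_of_nonneg hs.1]
    exact mul_le_of_le_one_left (norm_nonneg _) hs.2
  have h2 : ‖t • b‖ ≤ ‖b‖ := by
    rw [norm_smul, Real.norm_eq_abs, abs_of_nonneg ht.1]
    exact mul_le_of_le_one_left (norm_nonneg _) ht.2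
  calc ‖c + s • a + t • b‖ ≤ ‖c + s • a‖ + ‖t • b‖ := norm_add_le _ _
    _ ≤ ‖c‖ + ‖s • a‖ + ‖t • b‖ := by gcongr; exact norm_add_le _ _
    _ ≤ ‖c‖ + ‖a‖ + ‖b‖ := by gcongr

/-- the first dual coordinate. -/
theorem coverpar_dual_left (a b : E3) (hG : gram2 a b ≠ 0) (X Y : ℝ) :
    (‖b‖ ^ 2 * inner ℝ (X • a + Y • b) a - inner ℝ a b * inner ℝ (X • a + Y • b) b) / gram2 a b
      = X := by
  rw [div_eq_iff hG]
  unfold gram2
  simp only [inner_add_left, inner_smul_left, conj_trivial, real_inner_self_eq_norm_sq,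
    real_inner_comm a b]
  ring

/-- the second dual coordinate. -/
theorem coverpar_dual_right (a b : E3) (hG : gram2 a b ≠ 0) (X Y : ℝ) :
    (‖a‖ ^ 2 * inner ℝ (X • a + Y • b) b - inner ℝ a b * inner ℝ (X • a + Y • b) a) / gram2 a b
      = Y := by
  rw [div_eq_iff hG]
  unfold gram2
  simp only [inner_add_left, inner_smul_left, conj_trivial, real_inner_self_eq_norm_sq,
    real_inner_comm a b]
  ring

theorem coverpar_open_one (u c a b : E3) (hu : ‖u‖ = 1) (hc : inner ℝ c u = 0)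
    (ha : inner ℝ a u = 0) (hb : inner ℝ b u = 0) (hab : LinearIndependent ℝ ![a, b])
    (ε : ℝ) (hε : 0 < ε) :
    ∃ B : Set E3, (∃ O : Set E3, IsOpen O ∧ B = O ∩ {x | inner ℝ x u = 0}) ∧
      pgram c a b ⊆ B ∧
      B ⊆ pgram (c - ε • a - ε • b) ((1 + 2 * ε) • a) ((1 + 2 * ε) • b) := by
  have hG : gram2 a b ≠ 0 := ((gram2_pos_iff a b).2 hab).ne'
  have hu0 : u ≠ 0 := by
    intro h; rw [h, norm_zero] at hu; exact zero_ne_one hu
  set O : Set E3 := {x | (‖b‖ ^ 2 * inner ℝ (x - c) a - inner ℝ a b * inner ℝ (x - c) b) / gram2 a b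
        ∈ Set.Ioo (-ε) (1 + ε) ∧
      (‖a‖ ^ 2 * inner ℝ (x - c) b - inner ℝ a b * inner ℝ (x - c) a) / gram2 a b
        ∈ Set.Ioo (-ε) (1 + ε)} with hO
  have hOo : IsOpen O := by
    apply IsOpen.inter
    · exact isOpen_Ioo.preimage (by fun_prop)
    · exact isOpen_Ioo.preimage (by fun_prop)
  refine ⟨O ∩ {x | inner ℝ x u = 0}, ⟨O, hOo, rfl⟩, ?_, ?_⟩
  · rintro _ ⟨s, hs, t, ht, rfl⟩
    have h1 : c + s • a + t • b - c = s • a + t • b := by abel
    refine ⟨⟨?_, ?_⟩, ?_⟩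
    · rw [h1, coverpar_dual_left a b hG]
      exact ⟨by linarith [hs.1], by linarith [hs.2]⟩
    · rw [h1, coverpar_dual_right a b hG]
      exact ⟨by linarith [ht.1], by linarith [ht.2]⟩
    · simp [inner_add_left, inner_smul_left, hc, ha, hb]
  · rintro x ⟨⟨hx1, hx2⟩, hx3⟩
    have hx3' : inner ℝ x u = 0 := hx3
    obtain ⟨X, Y, hXY⟩ := exists_coords u a b hu0 ha hb hab (x - c)
      (by rw [inner_sub_left, hx3', hc, sub_zero])
    rw [hXY, coverpar_dual_left a b hG] at hx1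
    rw [hXY, coverpar_dual_right a b hG] at hx2
    have hpos : 0 < 1 + 2 * ε := by linarith
    refine ⟨(X + ε) / (1 + 2 * ε), ⟨div_nonneg (by linarith [hx1.1]) hpos.le, ?_⟩,
      (Y + ε) / (1 + 2 * ε), ⟨div_nonneg (by linarith [hx2.1]) hpos.le, ?_⟩, ?_⟩
    · rw [div_le_one hpos]; linarith [hx1.2]
    · rw [div_le_one hpos]; linarith [hx2.2]
    · rw [smul_smul, smul_smul, div_mul_cancel₀ _ hpos.ne', div_mul_cancel₀ _ hpos.ne',
        add_smul, add_smul]
      have : x = c + (x - c) := by abel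
      rw [this, hXY]
      abel

/-- enlarge each closed parallelogram to a slightly larger relatively open one. -/
theorem ParCover.toOpen {S : Set E3} {m : ℕ} {A : ℝ} (h : ParCover S m A) (η : ℝ) (hη : 0 < η) :
    OpenCover S m (A + η) := by
  obtain ⟨u, c, a, b, hu, hperp, hind, hcov, hsum⟩ := h
  set A₀ : ℝ := ∑ i, (μHE[2] (pgram (c i) (a i) (b i))).toReal with hA₀
  have hA₀0 : 0 ≤ A₀ := Finset.sum_nonneg fun i _ => ENNReal.toReal_nonneg
  set ε : ℝ := min 1 (η / (8 * (A₀ + 1))) with hε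
  have hε0 : 0 < ε := lt_min one_pos (by positivity)
  have hε1 : ε ≤ 1 := min_le_left _ _
  have hε2 : ε * (8 * (A₀ + 1)) ≤ η := by
    rw [← le_div_iff₀ (by positivity)]; exact min_le_right _ _
  choose B hBO hB1 hB2 using fun i => coverpar_open_one (u i) (c i) (a i) (b i) (hu i)
    (hperp i).1 (hperp i).2.1 (hperp i).2.2 (hind i) ε hε0
  have harea : ∀ i, μHE[2] (B i) ≤ ENNReal.ofReal ((1 + 2 * ε) ^ 2 *
      Real.sqrt (gram2 (a i) (b i))) := by
    intro i
    refine (measure_mono (hB2 i)).trans ?_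
    rw [area_pgram, coverpar_sqrt_gram2_smul (by linarith) (by linarith)]
    apply le_of_eq; congr 1; ring
  refine ⟨u, B, hu, fun i => ⟨(coverpar_pgram_bounded _ _ _).subset (hB2 i), hBO i⟩, ?_,
    fun i => (harea i).trans_lt ENNReal.ofReal_lt_top, ?_⟩
  · intro x hx
    obtain ⟨i, y, hy, t, rfl⟩ := Set.mem_iUnion.1 (hcov hx)
    exact Set.mem_iUnion.2 ⟨i, y, hB1 i hy, t, rfl⟩
  · have h1 : ∀ i, (μHE[2] (B i)).toReal ≤
        (1 + 2 * ε) ^ 2 * (μHE[2] (pgram (c i) (a i) (b i))).toReal := by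
      intro i
      rw [area_pgram, ENNReal.toReal_ofReal (Real.sqrt_nonneg _)]
      have := ENNReal.toReal_mono ENNReal.ofReal_ne_top (harea i)
      rwa [ENNReal.toReal_ofReal (by positivity)] at this
    calc ∑ i, (μHE[2] (B i)).toReal
        ≤ ∑ i, (1 + 2 * ε) ^ 2 * (μHE[2] (pgram (c i) (a i) (b i))).toReal :=
          Finset.sum_le_sum fun i _ => h1 i
      _ = (1 + 2 * ε) ^ 2 * A₀ := by rw [← Finset.mul_sum]
      _ ≤ A₀ + η := by
          have h2 := mul_nonneg hε0.le hA₀0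
          have h3 := mul_nonneg h2 (sub_nonneg.2 hε1)
          nlinarith
      _ ≤ A + η := by linarith

end Crest.Agent.Cyl
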