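import Mathlib

/-!
# Coverage of the tetrahedron by the two twisted fans (real-coordinate form)

Coordinates `(x, y, τ)`; the tetrahedron is `K = {|x| ≤ 1 - τ, |y| ≤ τ}` (with `z = √2 τ`).
The lower fan with tilt `E` is the set of points
`(s, ρ t + E s (1 + t²)/2, ρ + E s t)` with `|t| ≤ 1`, `0 ≤ ρ ≤ R t`, and the upper fan is its image
under the symmetry `(x, y, τ) ↦ (y, -x, 1 - τ)`.
-/

namespace Crest.Agent.Cyl

/-- Radial cap of the fan. -/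
noncomputable def capR (E t : ℝ) : ℝ := 1 / 2 + E ^ 2 * (t ^ 2 + t ^ 4) / 4 + 9 / 32 * E ^ 4

/-- Exact parametrisation of a point of the wedge `|y| ≤ τ` by the fan coordinates `(t, ρ)`. -/
theorem fan_param (E x y τ : ℝ) (hy : |y| ≤ τ) :
    ∃ t ρ : ℝ, |t| ≤ 1 ∧ 0 ≤ ρ ∧ τ = ρ + E * x * t ∧ y = ρ * t + E * x * (1 + t ^ 2) / 2 := by
  have hτ : 0 ≤ τ := le_trans (abs_nonneg y) hy
  obtain ⟨hy1, hy2⟩ := abs_le.mp hy
  set q : ℝ := τ ^ 2 - 2 * E * x * y + E ^ 2 * x ^ 2 with hq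
  have hq0 : 0 ≤ q := by
    have : q = (τ - y) * (τ + y) + (y - E * x) ^ 2 := by rw [hq]; ring
    rw [this]
    have h1 : 0 ≤ (τ - y) * (τ + y) := mul_nonneg (by linarith) (by linarith)
    positivity
  set ρ : ℝ := Real.sqrt q with hρ
  have hρ0 : 0 ≤ ρ := Real.sqrt_nonneg q
  have hρ2 : ρ ^ 2 = q := Real.sq_sqrt hq0
  by_cases hs : τ + ρ = 0
  · have hτ0 : τ = 0 := by linarith
    have hρz : ρ = 0 := by linarith
    have hy0 : y = 0 := by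
      have : |y| ≤ 0 := by rw [hτ0] at hy; exact hy
      exact abs_eq_zero.mp (le_antisymm this (abs_nonneg y))
    have hEx : E * x = 0 := by
      have : (E * x) ^ 2 = 0 := by
        have h := hρ2
        rw [hρz, hq, hτ0, hy0] at h
        nlinarith [h]
      exact pow_eq_zero_iff (two_ne_zero) |>.mp this
    refine ⟨0, 0, by simp, le_refl _, ?_, ?_⟩
    · rw [hτ0]; ring
    · rw [hy0, hEx]; ring
  · have hpos : 0 < τ + ρ := lt_of_le_of_ne (by linarith) (Ne.symm hs)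
    set t : ℝ := (2 * y - E * x) / (τ + ρ) with ht
    have ht1 : t * (τ + ρ) = 2 * y - E * x := by
      rw [ht]; field_simp
    have hExt : E * x * t = τ - ρ := by
      have h1 : E * x * t * (τ + ρ) = (τ - ρ) * (τ + ρ) := by
        have : E * x * t * (τ + ρ) = E * x * (t * (τ + ρ)) := by ring
        rw [this, ht1]
        have : (τ - ρ) * (τ + ρ) = τ ^ 2 - ρ ^ 2 := by ring
        rw [this, hρ2, hq]; ring
      exact mul_right_cancel₀ hs h1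
    refine ⟨t, ρ, ?_, hρ0, by linarith, ?_⟩
    · rw [abs_le]
      constructor
      · -- -1 ≤ t  ⟸  -(τ+ρ) ≤ 2y - Ex
        have : -(τ + ρ) ≤ 2 * y - E * x := by
          by_contra hcon
          push Not at hcon
          -- ρ < -(2y - Ex) - τ, both sides nonneg, square
          have h1 : ρ < -(2 * y - E * x) - τ := by linarith
          have h2 : ρ ^ 2 < (-(2 * y - E * x) - τ) ^ 2 := by
            apply pow_lt_pow_left₀ h1 hρ0 (by norm_num)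
          rw [hρ2, hq] at h2
          -- (2y - Ex + τ)^2 - q = 2 (τ + y) (2y - Ex)
          have h3 : 0 < 2 * (τ + y) * (2 * y - E * x) := by nlinarith [h2]
          have h4 : 2 * y - E * x < 0 := by linarith
          nlinarith [mul_nonneg (show (0:ℝ) ≤ τ + y by linarith) (show (0:ℝ) ≤ -(2 * y - E * x) by linarith)]
        rw [ht, le_div_iff₀ hpos]; linarith
      · have : 2 * y - E * x ≤ τ + ρ := by
          by_contra hcon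
          push Not at hcon
          have h1 : ρ < (2 * y - E * x) - τ := by linarith
          have h2 : ρ ^ 2 < ((2 * y - E * x) - τ) ^ 2 := by
            apply pow_lt_pow_left₀ h1 hρ0 (by norm_num)
          rw [hρ2, hq] at h2
          have h3 : 0 < 2 * (y - τ) * (2 * y - E * x) := by nlinarith [h2]
          have h4 : 0 < 2 * y - E * x := by linarith
          nlinarith [mul_nonneg (show (0:ℝ) ≤ τ - y by linarith) (le_of_lt h4)]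
        rw [ht, div_le_iff₀ hpos]; linarith
    · -- y = ρ t + E x (1+t²)/2
      have h1 : E * x * t ^ 2 = (τ - ρ) * t := by
        have : E * x * t ^ 2 = (E * x * t) * t := by ring
        rw [this, hExt]
      have h2 : ρ * t + E * x * (1 + t ^ 2) / 2 = (t * (τ + ρ) + E * x) / 2 := by
        have : E * x * (1 + t ^ 2) = E * x + E * x * t ^ 2 := by ring
        rw [this, h1]; ring
      rw [h2, ht1]; ring

/-- The exact elimination identity. -/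
theorem fan_identity (E x y τ t₁ ρ₁ t₂ ρ₂ : ℝ)
    (h1 : τ = ρ₁ + E * x * t₁) (h2 : y = ρ₁ * t₁ + E * x * (1 + t₁ ^ 2) / 2)
    (h3 : 1 - τ = ρ₂ - E * y * t₂) (h4 : x = ρ₂ * t₂ - E * y * (1 + t₂ ^ 2) / 2) :
    (ρ₁ - 1 / 2) * (1 - E * t₁ * t₂ + E ^ 2 / 4 * (1 + t₂ ^ 2) * (1 - t₁ ^ 2)) +
      (ρ₂ - 1 / 2) * (1 + E * t₁ * t₂ + E ^ 2 / 4 * (1 + t₁ ^ 2) * (1 - t₂ ^ 2)) =
    E ^ 2 * ((t₁ ^ 2 + t₂ ^ 2) / 4 + t₁ ^ 2 * t₂ ^ 2 / 2) := by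
  linear_combination (-(1 + E ^ 2 / 4 * (1 + t₁ ^ 2) * (1 + t₂ ^ 2))) * h1 +
    (-(1 + E ^ 2 / 4 * (1 + t₁ ^ 2) * (1 + t₂ ^ 2))) * h3 +
    (E ^ 2 / 2 * t₁ * (1 + t₂ ^ 2) + E * t₂) * h2 +
    (E ^ 2 / 2 * t₂ * (1 + t₁ ^ 2) - E * t₁) * h4

/-- The two-variable polynomial inequality behind the coverage. -/
theorem cap_ineq (E t₁ t₂ : ℝ) (hE0 : 0 ≤ E) (hE1 : E ≤ 1 / 2) (h1 : |t₁| ≤ 1) (h2 : |t₂| ≤ 1) :
    E ^ 2 * ((t₁ ^ 2 + t₂ ^ 2) / 4 + t₁ ^ 2 * t₂ ^ 2 / 2) ≤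
    (capR E t₁ - 1 / 2) * (1 - E * t₁ * t₂ + E ^ 2 / 4 * (1 + t₂ ^ 2) * (1 - t₁ ^ 2)) +
      (capR E t₂ - 1 / 2) * (1 + E * t₁ * t₂ + E ^ 2 / 4 * (1 + t₁ ^ 2) * (1 - t₂ ^ 2)) := by
  have ht1 : t₁ ^ 2 ≤ 1 := by
    have := sq_le_sq' (abs_le.mp h1).1 (abs_le.mp h1).2; simpa using this
  have ht2 : t₂ ^ 2 ≤ 1 := by
    have := sq_le_sq' (abs_le.mp h2).1 (abs_le.mp h2).2; simpa using this
  have hs1 : 0 ≤ t₁ ^ 2 := sq_nonneg _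
  have hs2 : 0 ≤ t₂ ^ 2 := sq_nonneg _
  set k : ℝ := t₁ * t₂ * (1 + t₁ ^ 2 + t₂ ^ 2) with hk
  have hk9 : k ^ 2 ≤ 9 := by
    have e : k ^ 2 = (t₁ ^ 2 * t₂ ^ 2) * (1 + t₁ ^ 2 + t₂ ^ 2) ^ 2 := by rw [hk]; ring
    have a1 : t₁ ^ 2 * t₂ ^ 2 ≤ 1 := by nlinarith
    have a2 : (1 + t₁ ^ 2 + t₂ ^ 2) ^ 2 ≤ 9 := by nlinarith
    have a3 : 0 ≤ t₁ ^ 2 * t₂ ^ 2 := mul_nonneg hs1 hs2
    have a4 : 0 ≤ (1 + t₁ ^ 2 + t₂ ^ 2) ^ 2 := sq_nonneg _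
    rw [e]; nlinarith
  have hA1 : 0 ≤ capR E t₁ - 1 / 2 := by
    have : capR E t₁ - 1 / 2 = E ^ 2 * (t₁ ^ 2 + t₁ ^ 4) / 4 + 9 / 32 * E ^ 4 := by
      unfold capR; ring
    rw [this]; positivity
  have hA2 : 0 ≤ capR E t₂ - 1 / 2 := by
    have : capR E t₂ - 1 / 2 = E ^ 2 * (t₂ ^ 2 + t₂ ^ 4) / 4 + 9 / 32 * E ^ 4 := by
      unfold capR; ring
    rw [this]; positivity
  have he1 : 0 ≤ E ^ 2 / 4 * (1 + t₂ ^ 2) * (1 - t₁ ^ 2) :=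
    mul_nonneg (by positivity) (by linarith)
  have he2 : 0 ≤ E ^ 2 / 4 * (1 + t₁ ^ 2) * (1 - t₂ ^ 2) :=
    mul_nonneg (by positivity) (by linarith)
  have key : (capR E t₁ - 1 / 2) * (1 - E * t₁ * t₂ + E ^ 2 / 4 * (1 + t₂ ^ 2) * (1 - t₁ ^ 2)) +
      (capR E t₂ - 1 / 2) * (1 + E * t₁ * t₂ + E ^ 2 / 4 * (1 + t₁ ^ 2) * (1 - t₂ ^ 2)) -
      E ^ 2 * ((t₁ ^ 2 + t₂ ^ 2) / 4 + t₁ ^ 2 * t₂ ^ 2 / 2) =
      (capR E t₁ - 1 / 2) * (E ^ 2 / 4 * (1 + t₂ ^ 2) * (1 - t₁ ^ 2)) +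
      (capR E t₂ - 1 / 2) * (E ^ 2 / 4 * (1 + t₁ ^ 2) * (1 - t₂ ^ 2)) +
      E ^ 2 / 4 * ((t₁ ^ 2 - t₂ ^ 2) - E * k / 2) ^ 2 + E ^ 4 / 16 * (9 - k ^ 2) := by
    rw [hk]; unfold capR; ring
  have p1 := mul_nonneg hA1 he1
  have p2 := mul_nonneg hA2 he2
  have p3 : 0 ≤ E ^ 2 / 4 * ((t₁ ^ 2 - t₂ ^ 2) - E * k / 2) ^ 2 := by positivity
  have p4 : 0 ≤ E ^ 4 / 16 * (9 - k ^ 2) := mul_nonneg (by positivity) (by linarith)
  linarith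

/-- **Coverage.** Every point of the tetrahedron `|x| ≤ 1 - τ`, `|y| ≤ τ` lies in the lower fan or
in the upper fan (the image of the lower fan under `(x, y, τ) ↦ (y, -x, 1 - τ)`). -/
theorem coverage (E x y τ : ℝ) (hE0 : 0 ≤ E) (hE1 : E ≤ 1 / 2) (hx : |x| ≤ 1 - τ) (hy : |y| ≤ τ) :
    (∃ t ρ : ℝ, |t| ≤ 1 ∧ 0 ≤ ρ ∧ ρ ≤ capR E t ∧ τ = ρ + E * x * t ∧
        y = ρ * t + E * x * (1 + t ^ 2) / 2) ∨
    (∃ t ρ : ℝ, |t| ≤ 1 ∧ 0 ≤ ρ ∧ ρ ≤ capR E t ∧ 1 - τ = ρ + E * (-y) * t ∧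
        x = ρ * t + E * (-y) * (1 + t ^ 2) / 2) := by
  obtain ⟨t₁, ρ₁, ht1, hρ1, h1, h2⟩ := fan_param E x y τ hy
  obtain ⟨t₂, ρ₂, ht2, hρ2, h3, h4⟩ := fan_param E (-y) x (1 - τ) hx
  by_cases hc1 : ρ₁ ≤ capR E t₁
  · exact Or.inl ⟨t₁, ρ₁, ht1, hρ1, hc1, h1, h2⟩
  by_cases hc2 : ρ₂ ≤ capR E t₂
  · exact Or.inr ⟨t₂, ρ₂, ht2, hρ2, hc2, h3, h4⟩
  exfalso
  push Not at hc1 hc2
  have hid := fan_identity E x y τ t₁ ρ₁ t₂ ρ₂ h1 h2 (by rw [h3]; ring) (by rw [h4]; ring)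
  have hin := cap_ineq E t₁ t₂ hE0 hE1 ht1 ht2
  have hs1 : t₁ ^ 2 ≤ 1 := by
    have := sq_le_sq' (abs_le.mp ht1).1 (abs_le.mp ht1).2; simpa using this
  have hs2 : t₂ ^ 2 ≤ 1 := by
    have := sq_le_sq' (abs_le.mp ht2).1 (abs_le.mp ht2).2; simpa using this
  have htt : |t₁ * t₂| ≤ 1 := by
    rw [abs_mul]; exact mul_le_one₀ ht1 (abs_nonneg _) ht2
  obtain ⟨htt1, htt2⟩ := abs_le.mp htt
  have hEtt1 : E * (t₁ * t₂) ≤ 1 / 2 := by nlinarith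
  have hEtt2 : -(1 / 2) ≤ E * (t₁ * t₂) := by nlinarith
  have hc1pos : 0 < 1 - E * t₁ * t₂ + E ^ 2 / 4 * (1 + t₂ ^ 2) * (1 - t₁ ^ 2) := by
    have : 0 ≤ E ^ 2 / 4 * (1 + t₂ ^ 2) * (1 - t₁ ^ 2) :=
      mul_nonneg (by positivity) (by linarith)
    nlinarith
  have hc2pos : 0 < 1 + E * t₁ * t₂ + E ^ 2 / 4 * (1 + t₁ ^ 2) * (1 - t₂ ^ 2) := by
    have : 0 ≤ E ^ 2 / 4 * (1 + t₁ ^ 2) * (1 - t₂ ^ 2) :=
      mul_nonneg (by positivity) (by linarith)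
    nlinarith
  have q1 := mul_lt_mul_of_pos_right (show capR E t₁ - 1 / 2 < ρ₁ - 1 / 2 by linarith) hc1pos
  have q2 := mul_lt_mul_of_pos_right (show capR E t₂ - 1 / 2 < ρ₂ - 1 / 2 by linarith) hc2pos
  linarith

end Crest.Agent.Cyl
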