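import Crest.Agent.Cyl.Area

/-! Shared definitions for row 211 (S0324-S0329): cylinder covers of the regular tetrahedron.
`E2`, `E3`, `gram2` and the area formulas come from `Cyl/Area.lean` (helper3). -/

set_option autoImplicit false
open MeasureTheory
open scoped ENNReal

namespace Crest.Agent.Cyl

/-- The cylinder `B + ℝ u`. -/
def cyl (B : Set E3) (u : E3) : Set E3 := {x | ∃ y ∈ B, ∃ t : ℝ, x = y + t • u}

/-- closed parallelogram `c + [0,1] a + [0,1] b`. -/
def pgram (c a b : E3) : Set E3 :=
  {x | ∃ s ∈ Set.Icc (0 : ℝ) 1, ∃ t ∈ Set.Icc (0 : ℝ) 1, x = c + s • a + t • b}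

/-- closed triangle. -/
def tri (p q r : E3) : Set E3 := convexHull ℝ {p, q, r}

/-- orthogonal projection along a unit vector `v` (formula used in the statements). -/
noncomputable def prj (v : E3) (y : E3) : E3 := y - inner ℝ y v • v

/-- orthogonal projection along a nonzero vector `u` (formula used in S0328). -/
noncomputable def prjN (u : E3) (y : E3) : E3 := y - (inner ℝ y u / ‖u‖ ^ 2) • u

/-- The standard regular tetrahedron of edge length 2. -/
noncomputable def Kstd : Set E3 :=
  convexHull ℝ {!₂[1, 0, 0], !₂[-1, 0, 0], !₂[0, 1, Real.sqrt 2], !₂[0, -1, Real.sqrt 2]}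

theorem area_pgram (c a b : E3) :
    μHE[2] (pgram c a b) = ENNReal.ofReal (Real.sqrt (gram2 a b)) := area_parallelogram c a b

theorem area_tri (p q r : E3) :
    μHE[2] (tri p q r) = ENNReal.ofReal (Real.sqrt (gram2 (q - p) (r - p)) / 2) :=
  area_triangle p q r

end Crest.Agent.Cyl
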