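import Crest.Agent.Cyl.Area

/-!
# Radial sweeps: one-sector lemmas (row 211, used by S0328 and S0325)
-/

set_option autoImplicit false
open MeasureTheory Set
open scoped ENNReal Interval

namespace Crest.Agent.Cyl.Sector

open Crest.Agent.Cyl

section Hull
variable {V : Type*} [AddCommGroup V] [Module ℝ V]

/-- Membership in the convex hull of three points, by weights. -/
theorem mem_convexHull_triple_iff (p q r x : V) :
    x ∈ convexHull ℝ ({p, q, r} : Set V) ↔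
      ∃ w₁ w₂ w₃ : ℝ, 0 ≤ w₁ ∧ 0 ≤ w₂ ∧ 0 ≤ w₃ ∧ w₁ + w₂ + w₃ = 1 ∧
        x = w₁ • p + w₂ • q + w₃ • r := by
  constructor
  · intro hx
    rw [convexHull_insert (Set.insert_nonempty _ _), convexHull_pair] at hx
    rw [mem_convexJoin] at hx
    obtain ⟨p', hp', y, hy, hxy⟩ := hx
    rw [Set.mem_singleton_iff] at hp'
    subst hp'
    obtain ⟨a, b, ha, hb, hab, rfl⟩ := hy
    obtain ⟨c, d, hc, hd, hcd, rfl⟩ := hxy
    refine ⟨c, d * a, d * b, hc, mul_nonneg hd ha, mul_nonneg hd hb, ?_, ?_⟩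
    · have : d * a + d * b = d := by rw [← mul_add, hab, mul_one]
      linarith
    · simp only [smul_add, smul_smul, add_assoc]
  · rintro ⟨w₁, w₂, w₃, h1, h2, h3, hs, rfl⟩
    have hc := convex_convexHull ℝ ({p, q, r} : Set V)
    have hp : p ∈ convexHull ℝ ({p, q, r} : Set V) := subset_convexHull ℝ _ (by simp)
    have hq : q ∈ convexHull ℝ ({p, q, r} : Set V) := subset_convexHull ℝ _ (by simp)
    have hr : r ∈ convexHull ℝ ({p, q, r} : Set V) := subset_convexHull ℝ _ (by simp)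
    by_cases h23 : w₂ + w₃ = 0
    · have h2' : w₂ = 0 := by linarith
      have h3' : w₃ = 0 := by linarith
      have h1' : w₁ = 1 := by linarith
      simp [h1', h2', h3', hp]
    · have hpos : 0 < w₂ + w₃ := lt_of_le_of_ne (by positivity) (Ne.symm h23)
      have hy : (w₂ / (w₂ + w₃)) • q + (w₃ / (w₂ + w₃)) • r ∈ convexHull ℝ ({p, q, r} : Set V) :=
        hc hq hr (by positivity) (by positivity) (by field_simp)
      have := hc hp hy h1 hpos.le (by linarith)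
      convert this using 1
      rw [smul_add, smul_smul, smul_smul, add_assoc]
      congr 2 <;> field_simp

/-- A point `p₀ + A ac + B b` lies in the triangle with apex `p₀ - a₀ ac`, top level `H` and
slopes `x`, `-y`. -/
theorem tri_mem (p₀ ac b : V) (A B a₀ H x y : ℝ) (hA : -a₀ < A) (hAH : A ≤ H)
    (hB₁ : B ≤ (A + a₀) * x) (hB₂ : -((A + a₀) * y) ≤ B) (hxy : 0 < x + y) :
    p₀ + A • ac + B • b ∈ convexHull ℝ ({p₀ - a₀ • ac, p₀ + H • ac + ((H + a₀) * x) • b,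
      p₀ + H • ac - ((H + a₀) * y) • b} : Set V) := by
  rw [mem_convexHull_triple_iff]
  have hs : 0 < A + a₀ := by linarith
  have hh : 0 < H + a₀ := by linarith
  refine ⟨1 - (A + a₀) / (H + a₀), (B + (A + a₀) * y) / ((H + a₀) * (x + y)),
    ((A + a₀) * x - B) / ((H + a₀) * (x + y)), ?_, ?_, ?_, ?_, ?_⟩
  · rw [sub_nonneg, div_le_one hh]; linarith
  · apply div_nonneg (by linarith) (by positivity)
  · apply div_nonneg (by linarith) (by positivity)
  · field_simp; ring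
  · match_scalars <;> field_simp <;> ring

/-- **One-sector lemma** (planar part).  The sector is `[t0,t1]`, the tag `c`; the point
`p₀ + ρ (a + τ b)` is displaced by `σ₀ (a + c b) + σ₁ b` with `|σ₀| ≤ k`, `|σ₁| ≤ k₁`. -/
theorem sector_mem (p₀ a b : V) (c t0 t1 τ ρ σ₀ σ₁ k k₁ a₀ θ H : ℝ)
    (hc0 : t0 ≤ c) (hc1 : c ≤ t1) (hτ0 : t0 ≤ τ) (hτ1 : τ ≤ t1) (hρ0 : 0 ≤ ρ) (hρH : ρ + k ≤ H)
    (hσ₀ : |σ₀| ≤ k) (hσ₁ : |σ₁| ≤ k₁) (hk : k < a₀) (hθ : 0 ≤ θ)
    (hp : k₁ ≤ (a₀ - k) * (t1 - c + θ)) (hm : k₁ ≤ (a₀ - k) * (c - t0 + θ))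
    (hpos : 0 < (t1 - c + θ) + (c - t0 + θ)) :
    p₀ + ρ • (a + τ • b) + (σ₀ • (a + c • b) + σ₁ • b) ∈
      convexHull ℝ ({p₀ - a₀ • (a + c • b),
        p₀ + H • (a + c • b) + ((H + a₀) * (t1 - c + θ)) • b,
        p₀ + H • (a + c • b) - ((H + a₀) * (c - t0 + θ)) • b} : Set V) := by
  have e1 : p₀ + ρ • (a + τ • b) + (σ₀ • (a + c • b) + σ₁ • b) =
      p₀ + (ρ + σ₀) • (a + c • b) + (ρ * (τ - c) + σ₁) • b := by module
  rw [e1]
  obtain ⟨h01, h02⟩ := abs_le.mp hσ₀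
  obtain ⟨h11, h12⟩ := abs_le.mp hσ₁
  have hx : 0 ≤ t1 - c + θ := by linarith
  have hy : 0 ≤ c - t0 + θ := by linarith
  apply tri_mem _ _ _ _ _ _ _ _ _ (by linarith) (by linarith) _ _ hpos
  · have h1 : ρ * (τ - c) ≤ ρ * (t1 - c + θ) := mul_le_mul_of_nonneg_left (by linarith) hρ0
    have h2 : (ρ + (a₀ - k)) * (t1 - c + θ) ≤ (ρ + σ₀ + a₀) * (t1 - c + θ) :=
      mul_le_mul_of_nonneg_right (by linarith) hx
    nlinarith
  · have h1 : ρ * (-(c - t0 + θ)) ≤ ρ * (τ - c) := mul_le_mul_of_nonneg_left (by linarith) hρ0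
    have h2 : (ρ + (a₀ - k)) * (c - t0 + θ) ≤ (ρ + σ₀ + a₀) * (c - t0 + θ) :=
      mul_le_mul_of_nonneg_right (by linarith) hy
    nlinarith

end Hull

/-! ### Projection along a vector and Gram determinants -/

/-- orthogonal projection along `g`. -/
noncomputable def proj (g y : E3) : E3 := y - (inner ℝ y g / ‖g‖ ^ 2) • g

theorem inner_coord (u v : E3) : inner ℝ u v = u 0 * v 0 + u 1 * v 1 + u 2 * v 2 := by
  simp [PiLp.inner_apply, Fin.sum_univ_three, mul_comm]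

theorem normsq_coord (u : E3) : ‖u‖ ^ 2 = u 0 * u 0 + u 1 * u 1 + u 2 * u 2 := by
  rw [← real_inner_self_eq_norm_sq, inner_coord]

theorem gram3_zero (u v w e : E3) (he : ‖e‖ = 1) (hu : inner ℝ u e = 0) (hv : inner ℝ v e = 0)
    (hw : inner ℝ w e = 0) :
    ‖w‖ ^ 2 * gram2 u v = ‖u‖ ^ 2 * inner ℝ v w ^ 2 + ‖v‖ ^ 2 * inner ℝ u w ^ 2
      - 2 * inner ℝ u v * inner ℝ u w * inner ℝ v w := by
  have he' : ‖e‖ ^ 2 = 1 := by rw [he]; norm_num
  unfold gram2
  rw [normsq_coord] at he'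
  rw [inner_coord] at hu hv hw
  simp only [normsq_coord, inner_coord]
  set d := u 0 * (v 1 * w 2 - v 2 * w 1) - u 1 * (v 0 * w 2 - v 2 * w 0)
    + u 2 * (v 0 * w 1 - v 1 * w 0) with hd
  have h0 : d * e 0 = 0 := by
    rw [hd]
    linear_combination (v 1 * w 2 - v 2 * w 1) * hu - (u 1 * w 2 - u 2 * w 1) * hv
      + (u 1 * v 2 - u 2 * v 1) * hw
  have h1 : d * e 1 = 0 := by
    rw [hd]
    linear_combination -(v 0 * w 2 - v 2 * w 0) * hu + (u 0 * w 2 - u 2 * w 0) * hv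
      - (u 0 * v 2 - u 2 * v 0) * hw
  have h2 : d * e 2 = 0 := by
    rw [hd]
    linear_combination (v 0 * w 1 - v 1 * w 0) * hu - (u 0 * w 1 - u 1 * w 0) * hv
      + (u 0 * v 1 - u 1 * v 0) * hw
  have hd0 : d = 0 := by
    linear_combination e 0 * h0 + e 1 * h1 + e 2 * h2 - d * he'
  have : d * d = 0 := by rw [hd0]; ring
  rw [hd] at this
  linear_combination this

theorem proj_add (g x y : E3) : proj g (x + y) = proj g x + proj g y := by
  unfold proj
  rw [inner_add_left, add_div, add_smul]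
  abel

theorem proj_smul (g : E3) (c : ℝ) (x : E3) : proj g (c • x) = c • proj g x := by
  unfold proj
  rw [real_inner_smul_left, smul_sub, smul_smul, mul_div_assoc]

theorem proj_sub (g x y : E3) : proj g (x - y) = proj g x - proj g y := by
  unfold proj
  rw [inner_sub_left, sub_div, sub_smul]
  abel

theorem proj_self (g : E3) (hg : g ≠ 0) : proj g g = 0 := by
  unfold proj
  have : ‖g‖ ^ 2 ≠ 0 := by positivity
  rw [real_inner_self_eq_norm_sq, div_self this, one_smul, sub_self]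

theorem inner_proj_self (g y : E3) (hg : g ≠ 0) : inner ℝ (proj g y) g = 0 := by
  unfold proj
  have : ‖g‖ ^ 2 ≠ 0 := by positivity
  rw [inner_sub_left, real_inner_smul_left, real_inner_self_eq_norm_sq]
  field_simp
  ring

theorem inner_proj_proj (g u v : E3) (hg : g ≠ 0) :
    inner ℝ (proj g u) (proj g v) = inner ℝ u v - inner ℝ u g * inner ℝ v g / ‖g‖ ^ 2 := by
  unfold proj
  have : ‖g‖ ^ 2 ≠ 0 := by positivity
  simp only [inner_sub_left, inner_sub_right, real_inner_smul_left, real_inner_smul_right,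
    real_inner_self_eq_norm_sq]
  rw [real_inner_comm v g]
  field_simp
  ring

theorem normsq_add_orth (e w : E3) (he : ‖e‖ = 1) (hw : inner ℝ w e = 0) :
    ‖e + w‖ ^ 2 = 1 + ‖w‖ ^ 2 := by
  rw [← real_inner_self_eq_norm_sq, inner_add_left, inner_add_right, inner_add_right,
    real_inner_self_eq_norm_sq, real_inner_self_eq_norm_sq, hw, real_inner_comm, hw, he]
  ring

theorem add_orth_ne_zero (e w : E3) (he : ‖e‖ = 1) (hw : inner ℝ w e = 0) : e + w ≠ 0 := by
  intro h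
  have := normsq_add_orth e w he hw
  rw [h] at this
  simp at this
  nlinarith [sq_nonneg ‖w‖]

/-- Projecting along `e + w` a planar figure of the plane `e^⊥` divides the Gram determinant by
`1 + ‖w‖²`. -/
theorem gram_proj (u v w e : E3) (he : ‖e‖ = 1) (hu : inner ℝ u e = 0) (hv : inner ℝ v e = 0)
    (hw : inner ℝ w e = 0) :
    gram2 (proj (e + w) u) (proj (e + w) v) = gram2 u v / (1 + ‖w‖ ^ 2) := by
  have hg := add_orth_ne_zero e w he hw
  have hG := normsq_add_orth e w he hw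
  have h3 := gram3_zero u v w e he hu hv hw
  have hpos : (1 + ‖w‖ ^ 2) ≠ 0 := by positivity
  have hug : inner ℝ u (e + w) = inner ℝ u w := by rw [inner_add_right, hu, zero_add]
  have hvg : inner ℝ v (e + w) = inner ℝ v w := by rw [inner_add_right, hv, zero_add]
  unfold gram2 at *
  rw [← real_inner_self_eq_norm_sq (proj (e + w) u), ← real_inner_self_eq_norm_sq (proj (e + w) v),
    inner_proj_proj _ _ _ hg, inner_proj_proj _ _ _ hg, inner_proj_proj _ _ _ hg, hG, hug, hvg,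
    real_inner_self_eq_norm_sq, real_inner_self_eq_norm_sq]
  field_simp
  linear_combination ((1 + ‖w‖ ^ 2)) * h3

theorem gram_lin (a b : E3) (x y z t : ℝ) :
    gram2 (x • a + y • b) (z • a + t • b) = (x * t - y * z) ^ 2 * gram2 a b := by
  unfold gram2
  rw [← real_inner_self_eq_norm_sq (x • a + y • b), ← real_inner_self_eq_norm_sq (z • a + t • b)]
  simp only [inner_add_left, inner_add_right, real_inner_smul_left, real_inner_smul_right]
  rw [real_inner_comm a b, real_inner_self_eq_norm_sq a, real_inner_self_eq_norm_sq b]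
  ring



theorem w_decomp (a b : E3) (α β : ℝ) (w : ℝ → E3) (lam : ℝ → ℝ)
    (hlam : ContinuousOn lam (Icc α β))
    (hw' : ∀ t ∈ Icc α β, HasDerivWithinAt w (lam t • (a + t • b)) (Icc α β) t)
    (Λ : ℝ) (hΛ : ∀ t ∈ Icc α β, |lam t| ≤ Λ) (c τ : ℝ) (hc : c ∈ Icc α β) (hτ : τ ∈ Icc α β) :
    ∃ m₀ m₁ : ℝ, w τ - w c = m₀ • (a + c • b) + m₁ • b ∧ |m₀| ≤ Λ * |τ - c| ∧
      |m₁| ≤ Λ * |τ - c| ^ 2 := by
  have hsub : uIcc c τ ⊆ Icc α β := by
    intro x hx
    rw [mem_uIcc] at hx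
    constructor
    · rcases hx with h | h
      · exact hc.1.trans h.1
      · exact hτ.1.trans h.1
    · rcases hx with h | h
      · exact h.2.trans hτ.2
      · exact h.2.trans hc.2
  have hsub' : Ι c τ ⊆ Icc α β := fun x hx => hsub (uIoc_subset_uIcc hx)
  have hcont : ContinuousOn w (uIcc c τ) := fun x hx =>
    ((hw' x (hsub hx)).continuousWithinAt).mono hsub
  have hlam' : ContinuousOn lam (uIcc c τ) := hlam.mono hsub
  have hi0 : IntervalIntegrable lam volume c τ := hlam'.intervalIntegrable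
  have hi1 : IntervalIntegrable (fun σ => (σ - c) * lam σ) volume c τ :=
    (ContinuousOn.mul (by fun_prop) hlam').intervalIntegrable
  have hftc : ∫ σ in c..τ, lam σ • (a + σ • b) = w τ - w c := by
    apply intervalIntegral.integral_eq_sub_of_hasDeriv_right hcont
    · intro x hx
      have hx' : x ∈ Ioo α β := by
        constructor
        · exact lt_of_le_of_lt (le_min hc.1 hτ.1) hx.1
        · exact lt_of_lt_of_le hx.2 (max_le hc.2 hτ.2)
      exact ((hw' x (Ioo_subset_Icc_self hx')).hasDerivAt (Icc_mem_nhds hx'.1 hx'.2)).hasDerivWithinAt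
    · apply ContinuousOn.intervalIntegrable
      apply ContinuousOn.smul hlam'
      fun_prop
  have hj0 : IntervalIntegrable (fun σ => lam σ • (a + c • b)) volume c τ :=
    (ContinuousOn.smul hlam' continuousOn_const).intervalIntegrable
  have hj1 : IntervalIntegrable (fun σ => ((σ - c) * lam σ) • b) volume c τ :=
    (ContinuousOn.smul (ContinuousOn.mul (by fun_prop) hlam') continuousOn_const).intervalIntegrable
  have hsplit : ∫ σ in c..τ, lam σ • (a + σ • b) =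
      (∫ σ in c..τ, lam σ) • (a + c • b) + (∫ σ in c..τ, (σ - c) * lam σ) • b := by
    rw [← intervalIntegral.integral_smul_const, ← intervalIntegral.integral_smul_const,
      ← intervalIntegral.integral_add hj0 hj1]
    congr 1
    ext1 σ
    module
  refine ⟨∫ σ in c..τ, lam σ, ∫ σ in c..τ, (σ - c) * lam σ, ?_, ?_, ?_⟩
  · rw [← hftc, hsplit]
  · have := intervalIntegral.norm_integral_le_of_norm_le_const (a := c) (b := τ) (f := lam) (C := Λ)
      (fun x hx => by simpa using hΛ x (hsub' hx))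
    simpa using this
  · have := intervalIntegral.norm_integral_le_of_norm_le_const (a := c) (b := τ)
      (f := fun σ => (σ - c) * lam σ) (C := |τ - c| * Λ)
      (fun x hx => by
        rw [Real.norm_eq_abs, abs_mul]
        apply mul_le_mul _ (hΛ x (hsub' hx)) (abs_nonneg _) (abs_nonneg _)
        rw [mem_uIoc] at hx
        rcases hx with h | h
        · rw [abs_of_nonneg (by linarith), abs_of_nonneg (by linarith)]; linarith
        · rw [abs_of_nonpos (by linarith), abs_of_nonpos (by linarith)]; linarith)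
    rw [Real.norm_eq_abs] at this
    calc _ ≤ _ := this
      _ = _ := by ring




theorem gram2_pos_of_linearIndependent (a b : E3) (hab : LinearIndependent ℝ ![a, b]) :
    0 < gram2 a b := by
  rw [LinearIndependent.pair_iff] at hab
  have hb : b ≠ 0 := by
    intro h
    have := hab 0 1 (by simp [h])
    simp at this
  have hbn : 0 < ‖b‖ ^ 2 := by positivity
  have hne : (‖b‖ ^ 2) • a + (-(inner ℝ a b)) • b ≠ 0 := by
    intro h
    have := (hab _ _ h).1
    exact hbn.ne' this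
  have hpos : 0 < ‖(‖b‖ ^ 2) • a + (-(inner ℝ a b)) • b‖ ^ 2 := by positivity
  have hexp : ‖(‖b‖ ^ 2) • a + (-(inner ℝ a b)) • b‖ ^ 2 = ‖b‖ ^ 2 * gram2 a b := by
    unfold gram2
    rw [← real_inner_self_eq_norm_sq ((‖b‖ ^ 2) • a + (-(inner ℝ a b)) • b)]
    simp only [inner_add_left, inner_add_right, real_inner_smul_left, real_inner_smul_right]
    rw [real_inner_comm a b, real_inner_self_eq_norm_sq a, real_inner_self_eq_norm_sq b]
    ring
  rw [hexp] at hpos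
  exact (pos_iff_pos_of_mul_pos hpos).mp hbn

theorem affineIndependent_of_gram_pos (p q r : E3) (h : 0 < gram2 (q - p) (r - p)) :
    AffineIndependent ℝ ![p, q, r] := by
  rw [affineIndependent_iff_not_collinear_set]
  intro hcol
  rw [collinear_iff_of_mem (p₀ := p) (by simp)] at hcol
  obtain ⟨v, hv⟩ := hcol
  obtain ⟨r₁, h1⟩ := hv q (by simp)
  obtain ⟨r₂, h2⟩ := hv r (by simp)
  have e1 : q - p = r₁ • v + (0 : ℝ) • v := by rw [h1]; simp
  have e2 : r - p = r₂ • v + (0 : ℝ) • v := by rw [h2]; simp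
  rw [e1, e2, gram_lin] at h
  simp at h

/-- Area of the projection along `e + w` of a triangle of the plane `e^⊥`. -/
theorem gram_proj_tri (e w a b P : E3) (he : ‖e‖ = 1) (ha : inner ℝ a e = 0)
    (hb : inner ℝ b e = 0) (hw : inner ℝ w e = 0) (x1 y1 x2 y2 : ℝ) :
    gram2 (proj (e + w) (P + (x1 • a + y1 • b)) - proj (e + w) P)
      (proj (e + w) (P + (x2 • a + y2 • b)) - proj (e + w) P) =
      (x1 * y2 - y1 * x2) ^ 2 * gram2 a b / (1 + ‖w‖ ^ 2) := by
  rw [← proj_sub, ← proj_sub, add_sub_cancel_left, add_sub_cancel_left, gram_proj _ _ _ _ he _ _ hw,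
    gram_lin]
  · rw [inner_add_left, real_inner_smul_left, real_inner_smul_left, ha, hb]; ring
  · rw [inner_add_left, real_inner_smul_left, real_inner_smul_left, ha, hb]; ring

theorem area_proj_tri (e w a b P : E3) (he : ‖e‖ = 1) (ha : inner ℝ a e = 0)
    (hb : inner ℝ b e = 0) (hw : inner ℝ w e = 0) (x1 y1 x2 y2 : ℝ) :
    (μHE[2] (convexHull ℝ ({proj (e + w) P, proj (e + w) (P + (x1 • a + y1 • b)),
      proj (e + w) (P + (x2 • a + y2 • b))} : Set E3))).toReal =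
      |x1 * y2 - y1 * x2| * Real.sqrt (gram2 a b) / (2 * Real.sqrt (1 + ‖w‖ ^ 2)) := by
  rw [area_triangle_toReal, gram_proj_tri e w a b P he ha hb hw,
    Real.sqrt_div (mul_nonneg (sq_nonneg _) (gram2_nonneg a b)),
    Real.sqrt_mul (sq_nonneg _), Real.sqrt_sq_eq_abs]
  rw [div_div, mul_comm (Real.sqrt (1 + ‖w‖ ^ 2)) 2]




/-- discrete intermediate value: some cell of a finite sequence contains `τ`. -/
theorem exists_index : ∀ (N : ℕ) (t : Fin (N + 1) → ℝ) (τ : ℝ), 0 < N → t 0 ≤ τ →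
    τ ≤ t (Fin.last N) → ∃ i : Fin N, t i.castSucc ≤ τ ∧ τ ≤ t i.succ := by
  intro N
  induction N with
  | zero => intro t τ h; exact absurd h (lt_irrefl 0)
  | succ n ih =>
    intro t τ _ h0 h1
    by_cases h : τ ≤ t 1
    · exact ⟨0, by simpa using h0, by simpa using h⟩
    · push Not at h
      rcases Nat.eq_zero_or_pos n with hn | hn
      · subst hn
        exact absurd h1 (not_le.mpr h)
      · obtain ⟨i, hi0, hi1⟩ := ih (fun j => t j.succ) τ hn (by simpa using h.le)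
          (by simpa using h1)
        exact ⟨i.succ, by simpa using hi0, hi1⟩

theorem sum_integral_partition (F : ℝ → ℝ) : ∀ (N : ℕ) (t : Fin (N + 1) → ℝ),
    (∀ i j, IntervalIntegrable F volume (t i) (t j)) →
    ∑ i : Fin N, ∫ x in (t i.castSucc)..(t i.succ), F x = ∫ x in (t 0)..(t (Fin.last N)), F x := by
  intro N
  induction N with
  | zero => intro t _; simp
  | succ n ih =>
    intro t hint
    rw [Fin.sum_univ_succ]
    have := ih (fun j => t j.succ) (fun i j => hint _ _)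
    simp only [Fin.succ_castSucc] at this ⊢
    rw [this]
    simp only [Fin.castSucc_zero, Fin.succ_last]
    exact intervalIntegral.integral_add_adjacent_intervals (hint _ _) (hint _ _)

theorem sum_length_partition : ∀ (N : ℕ) (t : Fin (N + 1) → ℝ),
    ∑ i : Fin N, (t i.succ - t i.castSucc) = t (Fin.last N) - t 0 := by
  intro N
  induction N with
  | zero => intro t; simp
  | succ n ih =>
    intro t
    rw [Fin.sum_univ_succ]
    have := ih (fun j => t j.succ)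
    simp only [Fin.succ_castSucc] at this ⊢
    rw [this]
    simp only [Fin.castSucc_zero, Fin.succ_last]
    ring




theorem mem_Icc_of_partition {N : ℕ} {t : Fin (N + 1) → ℝ} (hmono : StrictMono t) {α β : ℝ}
    (h0 : t 0 = α) (h1 : t (Fin.last N) = β) (i : Fin (N + 1)) : t i ∈ Icc α β :=
  ⟨h0 ▸ hmono.monotone (Fin.zero_le i), h1 ▸ hmono.monotone (Fin.le_last i)⟩

theorem riemann_squeeze (F : ℝ → ℝ) (α β : ℝ) (hF : ContinuousOn F (Icc α β)) (N : ℕ)
    (t : Fin (N + 1) → ℝ) (c : Fin N → ℝ) (hmono : StrictMono t) (h0 : t 0 = α)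
    (h1 : t (Fin.last N) = β) (κ ε₁ ε₂ : ℝ) (hκ : 0 ≤ κ)
    (hosc : ∀ i : Fin N, ∀ x ∈ Icc (t i.castSucc) (t i.succ), |F x - F (c i)| ≤ ε₂)
    (X : Fin N → ℝ)
    (hlo : ∀ i : Fin N, κ * (F (c i) - ε₁) * (t i.succ - t i.castSucc) ≤ X i)
    (hup : ∀ i : Fin N, X i ≤ κ * (F (c i) + ε₁) * (t i.succ - t i.castSucc)) :
    |∑ i, X i - κ * ∫ x in α..β, F x| ≤ κ * (ε₁ + ε₂) * (β - α) := by
  have hmem := mem_Icc_of_partition hmono h0 h1
  have hint : ∀ i j, IntervalIntegrable F volume (t i) (t j) := by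
    intro i j
    apply ContinuousOn.intervalIntegrable
    apply hF.mono
    intro x hx
    rw [mem_uIcc] at hx
    rcases hx with h | h
    · exact ⟨(hmem i).1.trans h.1, h.2.trans (hmem j).2⟩
    · exact ⟨(hmem j).1.trans h.1, h.2.trans (hmem i).2⟩
  rw [← h0, ← h1, ← sum_integral_partition F N t hint, ← sum_length_partition N t,
    Finset.mul_sum, Finset.mul_sum, ← Finset.sum_sub_distrib]
  apply (Finset.abs_sum_le_sum_abs _ _).trans
  apply Finset.sum_le_sum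
  intro i _
  have hD : 0 < t i.succ - t i.castSucc := sub_pos.mpr (hmono (Fin.castSucc_lt_succ))
  have hle : t i.castSucc ≤ t i.succ := by linarith
  have hI : |(∫ x in (t i.castSucc)..(t i.succ), F x) - F (c i) * (t i.succ - t i.castSucc)|
      ≤ ε₂ * (t i.succ - t i.castSucc) := by
    have e : (∫ x in (t i.castSucc)..(t i.succ), F x) - F (c i) * (t i.succ - t i.castSucc) =
        ∫ x in (t i.castSucc)..(t i.succ), (F x - F (c i)) := by
      rw [intervalIntegral.integral_sub (hint _ _) (by simp), intervalIntegral.integral_const]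
      simp [mul_comm]
    rw [e]
    have := intervalIntegral.norm_integral_le_of_norm_le_const (a := t i.castSucc)
      (b := t i.succ) (f := fun x => F x - F (c i)) (C := ε₂)
      (fun x hx => by
        rw [uIoc_of_le hle] at hx
        exact hosc i x (Ioc_subset_Icc_self hx))
    rwa [Real.norm_eq_abs, abs_of_pos hD] at this
  rw [abs_le] at hI ⊢
  have a1 := hlo i
  have a2 := hup i
  have b1 := mul_le_mul_of_nonneg_left hI.1 hκ
  have b2 := mul_le_mul_of_nonneg_left hI.2 hκ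
  constructor <;> nlinarith




theorem proj_hull (g P Q R Y : E3) (h : Y ∈ convexHull ℝ ({P, Q, R} : Set E3)) :
    proj g Y ∈ convexHull ℝ ({proj g P, proj g Q, proj g R} : Set E3) := by
  rw [mem_convexHull_triple_iff] at h ⊢
  obtain ⟨w₁, w₂, w₃, h1, h2, h3, hs, rfl⟩ := h
  exact ⟨w₁, w₂, w₃, h1, h2, h3, hs, by simp only [proj_add, proj_smul]⟩

theorem eq_proj_add (g x : E3) : x = proj g x + (inner ℝ x g / ‖g‖ ^ 2) • g := by
  unfold proj; abel

/-- the piece of the sweep over `[t0,t1]`. -/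
def piece (e a b p₀ : E3) (L : ℝ) (R : ℝ → ℝ) (w : ℝ → E3) (t0 t1 : ℝ) : Set E3 :=
  {x : E3 | ∃ τ ∈ Set.Icc t0 t1, ∃ ρ ∈ Set.Icc 0 (R τ), ∃ s : ℝ, abs s ≤ L ∧
    x = p₀ + ρ • (a + τ • b) + s • (e + w τ)}

/-- inner triangle -/
theorem inner_subset (e a b p₀ g : E3) (L : ℝ) (hL : 0 ≤ L) (R : ℝ → ℝ) (w : ℝ → E3) (t0 t1 r : ℝ)
    (ht : t0 ≤ t1) (hr0 : 0 ≤ r) (hr : ∀ τ ∈ Icc t0 t1, r ≤ R τ) :
    convexHull ℝ ({proj g p₀, proj g (p₀ + (r • a + (r * t0) • b)),
      proj g (p₀ + (r • a + (r * t1) • b))} : Set E3) ⊆ proj g '' piece e a b p₀ L R w t0 t1 := by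
  intro y hy
  rw [mem_convexHull_triple_iff] at hy
  obtain ⟨w₁, w₂, w₃, h1, h2, h3, hs, rfl⟩ := hy
  by_cases h23 : w₂ + w₃ = 0
  · have h2' : w₂ = 0 := by linarith
    have h3' : w₃ = 0 := by linarith
    have h1' : w₁ = 1 := by linarith
    refine ⟨p₀, ⟨t0, ⟨le_refl _, ht⟩, 0, ⟨le_refl _, hr0.trans (hr t0 ⟨le_refl _, ht⟩)⟩, 0,
      by simpa using hL, by simp⟩, by simp [h1', h2', h3']⟩
  · have hpos : 0 < w₂ + w₃ := lt_of_le_of_ne (by positivity) (Ne.symm h23)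
    set τ := (w₂ * t0 + w₃ * t1) / (w₂ + w₃) with hτ
    have hτ0 : t0 ≤ τ := by
      rw [hτ, le_div_iff₀ hpos]; nlinarith
    have hτ1 : τ ≤ t1 := by
      rw [hτ, div_le_iff₀ hpos]; nlinarith
    have hτe : (w₂ + w₃) * τ = w₂ * t0 + w₃ * t1 := by
      rw [hτ]; field_simp
    refine ⟨p₀ + ((w₂ + w₃) * r) • (a + τ • b) + (0 : ℝ) • (e + w τ),
      ⟨τ, ⟨hτ0, hτ1⟩, (w₂ + w₃) * r, ⟨by positivity, ?_⟩, 0, by simpa using hL, rfl⟩, ?_⟩
    · have := hr τ ⟨hτ0, hτ1⟩
      have h4 : w₂ + w₃ ≤ 1 := by linarith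
      nlinarith
    · rw [← proj_smul, ← proj_smul, ← proj_smul, ← proj_add, ← proj_add]
      congr 1
      have e1 : w₁ = 1 - (w₂ + w₃) := by linarith
      have e2 : ((w₂ + w₃) * r) • (a + τ • b) = ((w₂ + w₃) * r) • a + (r * ((w₂ + w₃) * τ)) • b := by
        module
      rw [e2, hτe, e1]
      module




/-- **One-sector lemma** (spatial part): the projection along `e + wc` of a point of the sweep
lies in the projected outer triangle. -/
theorem outer_mem (e a b p₀ wc wτ : E3) (hg : e + wc ≠ 0)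
    (c t0 t1 τ ρ s m₀ m₁ k k₁ a₀ θ H : ℝ)
    (hdec : wτ - wc = m₀ • (a + c • b) + m₁ • b)
    (hc0 : t0 ≤ c) (hc1 : c ≤ t1) (hτ0 : t0 ≤ τ) (hτ1 : τ ≤ t1) (hρ0 : 0 ≤ ρ) (hρH : ρ + k ≤ H)
    (hσ₀ : |s * m₀| ≤ k) (hσ₁ : |s * m₁| ≤ k₁) (hk : k < a₀) (hθ : 0 ≤ θ)
    (hp : k₁ ≤ (a₀ - k) * (t1 - c + θ)) (hm : k₁ ≤ (a₀ - k) * (c - t0 + θ))
    (hpos : 0 < (t1 - c + θ) + (c - t0 + θ)) :
    proj (e + wc) (p₀ + ρ • (a + τ • b) + s • (e + wτ)) ∈
      convexHull ℝ ({proj (e + wc) (p₀ - a₀ • (a + c • b)),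
        proj (e + wc) (p₀ + H • (a + c • b) + ((H + a₀) * (t1 - c + θ)) • b),
        proj (e + wc) (p₀ + H • (a + c • b) - ((H + a₀) * (c - t0 + θ)) • b)} : Set E3) := by
  have hY := sector_mem p₀ a b c t0 t1 τ ρ (s * m₀) (s * m₁) k k₁ a₀ θ H hc0 hc1 hτ0 hτ1 hρ0 hρH
    hσ₀ hσ₁ hk hθ hp hm hpos
  have hx : p₀ + ρ • (a + τ • b) + s • (e + wτ) =
      (p₀ + ρ • (a + τ • b) + ((s * m₀) • (a + c • b) + (s * m₁) • b)) + s • (e + wc) := by
    have : wτ = wc + (m₀ • (a + c • b) + m₁ • b) := by rw [← hdec]; abel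
    rw [this]
    module
  have hpx : proj (e + wc) (p₀ + ρ • (a + τ • b) + s • (e + wτ)) =
      proj (e + wc) (p₀ + ρ • (a + τ • b) + ((s * m₀) • (a + c • b) + (s * m₁) • b)) := by
    rw [hx, proj_add, proj_smul, proj_self _ hg, smul_zero, add_zero]
  rw [hpx]
  exact proj_hull _ _ _ _ _ hY


/-- soft version of the one-sector lemma, used for S0328. -/
theorem sector_main (e a b p₀ : E3) (he : ‖e‖ = 1) (ha : inner ℝ a e = 0) (hb : inner ℝ b e = 0)
    (hκ : 0 < gram2 a b) (L : ℝ) (hL : 0 < L) (α β : ℝ) (R : ℝ → ℝ) (w : ℝ → E3)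
    (hw : ∀ t ∈ Icc α β, inner ℝ (w t) e = 0) (lam : ℝ → ℝ) (hlam : ContinuousOn lam (Icc α β))
    (hw' : ∀ t ∈ Icc α β, HasDerivWithinAt w (lam t • (a + t • b)) (Icc α β) t)
    (Λ : ℝ) (hΛ : ∀ t ∈ Icc α β, |lam t| ≤ Λ) (μ : ℝ) (hμ0 : 0 < μ) (hμ1 : μ ≤ 1)
    (t0 t1 c : ℝ) (ht : t0 < t1) (hc0 : t0 ≤ c) (hc1 : c ≤ t1) (h0 : α ≤ t0) (h1 : t1 ≤ β)
    (hsmall : L * Λ * (t1 - t0) ≤ μ ^ 2) (hR0 : ∀ τ ∈ Icc α β, 0 ≤ R τ)
    (hRosc : ∀ τ ∈ Icc t0 t1, |R τ - R c| ≤ μ) :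
    ∃ p q r : E3,
      (inner ℝ p (e + w c) = 0 ∧ inner ℝ q (e + w c) = 0 ∧ inner ℝ r (e + w c) = 0) ∧
      AffineIndependent ℝ ![p, q, r] ∧
      (∀ x ∈ piece e a b p₀ L R w t0 t1, proj (e + w c) x ∈ convexHull ℝ ({p, q, r} : Set E3)) ∧
      (μHE[2] (convexHull ℝ ({p, q, r} : Set E3))).toReal =
        Real.sqrt (gram2 a b) * ((R c + 4 * μ) ^ 2 * (1 + 2 * μ) / (2 * Real.sqrt (1 + ‖w c‖ ^ 2)))
          * (t1 - t0) := by
  have hcI : c ∈ Icc α β := ⟨h0.trans hc0, hc1.trans h1⟩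
  have hwc := hw c hcI
  have hg := add_orth_ne_zero e (w c) he hwc
  have hRc := hR0 c hcI
  have hΛ0 : 0 ≤ Λ := (abs_nonneg _).trans (hΛ c hcI)
  set D := t1 - t0 with hD
  have hDpos : 0 < D := sub_pos.mpr ht
  set h := R c + 4 * μ with hh
  have hhpos : 0 < h := by positivity
  set P := p₀ - (2 * μ) • (a + c • b) with hP
  -- the three vertices
  have eQ : p₀ + (R c + 2 * μ) • (a + c • b) + ((R c + 2 * μ + 2 * μ) * (t1 - c + μ * D)) • b =
      P + (h • a + (h * (t1 + μ * D)) • b) := by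
    rw [hP, hh]; module
  have eR : p₀ + (R c + 2 * μ) • (a + c • b) - ((R c + 2 * μ + 2 * μ) * (c - t0 + μ * D)) • b =
      P + (h • a + (h * (t0 - μ * D)) • b) := by
    rw [hP, hh]; module
  refine ⟨proj (e + w c) P, proj (e + w c) (P + (h • a + (h * (t1 + μ * D)) • b)),
    proj (e + w c) (P + (h • a + (h * (t0 - μ * D)) • b)),
    ⟨inner_proj_self _ _ hg, inner_proj_self _ _ hg, inner_proj_self _ _ hg⟩, ?_, ?_, ?_⟩
  · apply affineIndependent_of_gram_pos
    rw [gram_proj_tri e (w c) a b P he ha hb hwc]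
    have : h * (h * (t0 - μ * D)) - h * (t1 + μ * D) * h = -(h ^ 2 * (D * (1 + 2 * μ))) := by
      rw [hD]; ring
    rw [this, neg_sq]
    have h2 : 0 < h ^ 2 * (D * (1 + 2 * μ)) := by positivity
    positivity
  · rintro x ⟨τ, hτ, ρ, hρ, s, hs, rfl⟩
    have hτI : τ ∈ Icc α β := ⟨h0.trans hτ.1, hτ.2.trans h1⟩
    obtain ⟨m₀, m₁, hdec, hm₀, hm₁⟩ := w_decomp a b α β w lam hlam hw' Λ hΛ c τ hcI hτI
    have hτc : |τ - c| ≤ D := by
      rw [abs_le, hD]; constructor <;> linarith [hτ.1, hτ.2]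
    have hLΛ : 0 ≤ L * Λ := by positivity
    have hk0 : |s * m₀| ≤ μ := by
      rw [abs_mul]
      calc |s| * |m₀| ≤ L * (Λ * |τ - c|) := mul_le_mul hs hm₀ (abs_nonneg _) hL.le
        _ = L * Λ * |τ - c| := by ring
        _ ≤ L * Λ * D := mul_le_mul_of_nonneg_left hτc hLΛ
        _ ≤ μ ^ 2 := hsmall
        _ ≤ μ := by nlinarith
    have hk1 : |s * m₁| ≤ μ ^ 2 * D := by
      rw [abs_mul]
      calc |s| * |m₁| ≤ L * (Λ * |τ - c| ^ 2) := mul_le_mul hs hm₁ (abs_nonneg _) hL.le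
        _ = L * Λ * |τ - c| ^ 2 := by ring
        _ ≤ L * Λ * (D * D) := by
            apply mul_le_mul_of_nonneg_left _ hLΛ
            rw [sq]
            exact mul_le_mul hτc hτc (abs_nonneg _) hDpos.le
        _ = (L * Λ * D) * D := by ring
        _ ≤ μ ^ 2 * D := mul_le_mul_of_nonneg_right hsmall hDpos.le
    have hRτ := abs_le.mp (hRosc τ hτ)
    have := outer_mem e a b p₀ (w c) (w τ) hg c t0 t1 τ ρ s m₀ m₁ μ (μ ^ 2 * D) (2 * μ) (μ * D)
      (R c + 2 * μ) hdec hc0 hc1 hτ.1 hτ.2 hρ.1 (by linarith [hρ.2]) hk0 hk1 (by linarith)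
      (by positivity)
      (by
        have : 0 ≤ μ * (t1 - c) := mul_nonneg hμ0.le (by linarith)
        nlinarith)
      (by
        have : 0 ≤ μ * (c - t0) := mul_nonneg hμ0.le (by linarith)
        nlinarith)
      (by
        have : 0 < μ * D := by positivity
        linarith)
    rw [eQ, eR] at this
    exact this
  · rw [area_proj_tri e (w c) a b P he ha hb hwc]
    have : h * (h * (t0 - μ * D)) - h * (t1 + μ * D) * h = -(h ^ 2 * (D * (1 + 2 * μ))) := by
      rw [hD]; ring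
    rw [this, abs_neg, abs_of_pos (by positivity)]
    ring


theorem sector_lower (e a b p₀ : E3) (he : ‖e‖ = 1) (ha : inner ℝ a e = 0) (hb : inner ℝ b e = 0)
    (L : ℝ) (hL : 0 ≤ L) (R : ℝ → ℝ) (w : ℝ → E3) (c : ℝ) (hwc : inner ℝ (w c) e = 0)
    (t0 t1 r : ℝ) (ht : t0 ≤ t1) (hr0 : 0 ≤ r) (hr : ∀ τ ∈ Icc t0 t1, r ≤ R τ)
    (hfin : μHE[2] (proj (e + w c) '' piece e a b p₀ L R w t0 t1) ≠ ⊤) :
    Real.sqrt (gram2 a b) * (r ^ 2 / (2 * Real.sqrt (1 + ‖w c‖ ^ 2))) * (t1 - t0) ≤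
      (μHE[2] (proj (e + w c) '' piece e a b p₀ L R w t0 t1)).toReal := by
  have hsub := inner_subset e a b p₀ (e + w c) L hL R w t0 t1 r ht hr0 hr
  have h1 := ENNReal.toReal_mono hfin (measure_mono (μ := μHE[2]) hsub)
  rw [area_proj_tri e (w c) a b p₀ he ha hb hwc] at h1
  have : r * (r * t1) - r * t0 * r = r ^ 2 * (t1 - t0) := by ring
  rw [this, abs_of_nonneg (mul_nonneg (sq_nonneg _) (by linarith))] at h1
  calc _ = r ^ 2 * (t1 - t0) * Real.sqrt (gram2 a b) / (2 * Real.sqrt (1 + ‖w c‖ ^ 2)) := by ring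
    _ ≤ _ := h1

theorem upper_est (R Rm μ : ℝ) (h0 : 0 ≤ R) (h1 : R ≤ Rm) (hμ0 : 0 < μ) (hμ1 : μ ≤ 1) :
    (R + 4 * μ) ^ 2 * (1 + 2 * μ) ≤ R ^ 2 + μ * (8 * Rm + 16 + 2 * (Rm + 4) ^ 2) := by
  have a1 : (R + 4 * μ) ^ 2 ≤ (Rm + 4) ^ 2 := by
    apply pow_le_pow_left₀ (by positivity); linarith
  have a2 : μ * (R + 4 * μ) ^ 2 ≤ μ * (Rm + 4) ^ 2 := mul_le_mul_of_nonneg_left a1 hμ0.le
  have a3 : μ * R ≤ μ * Rm := mul_le_mul_of_nonneg_left h1 hμ0.le
  have a4 : μ * μ ≤ μ * 1 := mul_le_mul_of_nonneg_left hμ1 hμ0.le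
  nlinarith

theorem lower_est (R Rm μ : ℝ) (h0 : 0 ≤ R) (h1 : R ≤ Rm) (hμ0 : 0 < μ) :
    R ^ 2 - μ * (2 * Rm) ≤ (max (R - μ) 0) ^ 2 := by
  have a3 : μ * R ≤ μ * Rm := mul_le_mul_of_nonneg_left h1 hμ0.le
  rcases le_total μ R with h | h
  · rw [max_eq_left (by linarith)]
    nlinarith
  · rw [max_eq_right (by linarith)]
    have : R * R ≤ μ * R := mul_le_mul_of_nonneg_right h h0
    nlinarith


end Crest.Agent.Cyl.Sector
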