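import Crest.Agent.Cyl.AreaAlg
import Crest.Agent.Cyl.Sector

/-! T4: one piece of a radial sweep is covered by one triangle cylinder of explicit area. -/

set_option autoImplicit false
open MeasureTheory
open scoped ENNReal

namespace Crest.Agent.Cyl

/-- The piece of the radial sweep over `[t₁,t₂]` with constant radial cap `Rm`. -/
def fanPiece (e a b p₀ : E3) (w : ℝ → E3) (L t₁ t₂ Rm : ℝ) : Set E3 :=
  {x | ∃ τ ∈ Set.Icc t₁ t₂, ∃ ρ ∈ Set.Icc 0 Rm, ∃ s : ℝ, |s| ≤ L ∧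
    x = p₀ + ρ • (a + τ • b) + s • (e + w τ)}

namespace FanAux

open Sector

theorem exists_dual (a b : E3) (hG : 0 < gram2 a b) (x y : ℝ) :
    ∃ n : E3, inner ℝ n a = x ∧ inner ℝ n b = y := by
  have hG' : gram2 a b ≠ 0 := hG.ne'
  refine ⟨((x * ‖b‖ ^ 2 - y * inner ℝ a b) / gram2 a b) • a +
    ((y * ‖a‖ ^ 2 - x * inner ℝ a b) / gram2 a b) • b, ?_, ?_⟩
  · rw [inner_add_left, real_inner_smul_left, real_inner_smul_left, real_inner_self_eq_norm_sq,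
      real_inner_comm a b]
    field_simp
    unfold gram2
    ring
  · rw [inner_add_left, real_inner_smul_left, real_inner_smul_left, real_inner_self_eq_norm_sq]
    field_simp
    unfold gram2
    ring

theorem mvt_inner (n a b : E3) (t₁ t₂ : ℝ) (w : ℝ → E3) (lam : ℝ → ℝ)
    (hw' : ∀ t ∈ Set.Icc t₁ t₂, HasDerivWithinAt w (lam t • (a + t • b)) (Set.Icc t₁ t₂) t)
    (C : ℝ) (hC : ∀ σ ∈ Set.Icc t₁ t₂, |lam σ * (inner ℝ n a + σ * inner ℝ n b)| ≤ C)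
    (c τ : ℝ) (hc : c ∈ Set.Icc t₁ t₂) (hτ : τ ∈ Set.Icc t₁ t₂) :
    |inner ℝ n (w τ - w c)| ≤ C * |τ - c| := by
  have hder : ∀ t ∈ Set.Icc t₁ t₂, HasDerivWithinAt (fun t => inner ℝ n (w t))
      (lam t * (inner ℝ n a + t * inner ℝ n b)) (Set.Icc t₁ t₂) t := by
    intro t ht
    have h1 := (innerSL ℝ n).hasFDerivAt.comp_hasDerivWithinAt t (hw' t ht)
    have e1 : (innerSL ℝ n) (lam t • (a + t • b)) = lam t * (inner ℝ n a + t * inner ℝ n b) := by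
      simp [innerSL_apply_apply, inner_add_right, real_inner_smul_right]
      ring
    rw [e1] at h1
    exact h1
  have := Convex.norm_image_sub_le_of_norm_hasDerivWithin_le hder
    (fun x hx => by simpa using hC x hx) (convex_Icc t₁ t₂) hc hτ
  simpa [inner_sub_right] using this

theorem w_coords (e a b : E3) (he : ‖e‖ = 1) (ha : inner ℝ a e = 0) (hb : inner ℝ b e = 0)
    (hab : LinearIndependent ℝ ![a, b]) (t₁ t₂ : ℝ) (w : ℝ → E3)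
    (hw : ∀ t ∈ Set.Icc t₁ t₂, inner ℝ (w t) e = 0) (lam : ℝ → ℝ)
    (hw' : ∀ t ∈ Set.Icc t₁ t₂, HasDerivWithinAt w (lam t • (a + t • b)) (Set.Icc t₁ t₂) t)
    (Λ : ℝ) (hΛ : ∀ t ∈ Set.Icc t₁ t₂, |lam t| ≤ Λ)
    (c τ : ℝ) (hc : c ∈ Set.Icc t₁ t₂) (hτ : τ ∈ Set.Icc t₁ t₂) :
    ∃ X Y : ℝ, w τ - w c = X • a + Y • b ∧ |X| ≤ Λ * (t₂ - t₁) ∧
      |t₂ * X - Y| ≤ Λ * (t₂ - t₁) ^ 2 ∧ |Y - t₁ * X| ≤ Λ * (t₂ - t₁) ^ 2 := by
  have he0 : e ≠ 0 := by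
    intro h; rw [h, norm_zero] at he; exact zero_ne_one he
  have hG : 0 < gram2 a b := (gram2_pos_iff a b).2 hab
  have hΛ0 : 0 ≤ Λ := (abs_nonneg _).trans (hΛ c hc)
  have hδ : 0 ≤ t₂ - t₁ := by linarith [hc.1, hc.2]
  have hτc : |τ - c| ≤ t₂ - t₁ := by
    rw [abs_le]; constructor <;> linarith [hc.1, hc.2, hτ.1, hτ.2]
  obtain ⟨X, Y, hXY⟩ := exists_coords e a b he0 ha hb hab (w τ - w c)
    (by rw [inner_sub_left, hw τ hτ, hw c hc, sub_zero])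
  have key : ∀ (x y C : ℝ), 0 ≤ C → (∀ σ ∈ Set.Icc t₁ t₂, |x + σ * y| ≤ C) →
      |x * X + y * Y| ≤ Λ * C * (t₂ - t₁) := by
    intro x y C hC0 hC
    obtain ⟨n, hna, hnb⟩ := exists_dual a b hG x y
    have h1 := mvt_inner n a b t₁ t₂ w lam hw' (Λ * C)
      (fun σ hσ => by
        rw [hna, hnb, abs_mul]
        exact mul_le_mul (hΛ σ hσ) (hC σ hσ) (abs_nonneg _) hΛ0) c τ hc hτ
    rw [hXY, inner_add_right, real_inner_smul_right, real_inner_smul_right, hna, hnb] at h1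
    calc |x * X + y * Y| = |X * x + Y * y| := by ring_nf
      _ ≤ Λ * C * |τ - c| := h1
      _ ≤ Λ * C * (t₂ - t₁) := mul_le_mul_of_nonneg_left hτc (by positivity)
  refine ⟨X, Y, hXY, ?_, ?_, ?_⟩
  · have := key 1 0 1 zero_le_one (fun σ _ => by simp)
    simpa using this
  · have := key t₂ (-1) (t₂ - t₁) hδ (fun σ hσ => by
      rw [abs_le]; constructor <;> linarith [hσ.1, hσ.2])
    calc |t₂ * X - Y| = |t₂ * X + -1 * Y| := by ring_nf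
      _ ≤ _ := this
      _ = _ := by ring
  · have := key (-t₁) 1 (t₂ - t₁) hδ (fun σ hσ => by
      rw [abs_le]; constructor <;> linarith [hσ.1, hσ.2])
    calc |Y - t₁ * X| = |-t₁ * X + 1 * Y| := by ring_nf
      _ ≤ _ := this
      _ = _ := by ring

end FanAux

open Sector FanAux in
theorem fan_piece
    (e a b p₀ : E3) (he : ‖e‖ = 1) (ha : inner ℝ a e = 0) (hb : inner ℝ b e = 0)
    (hp₀ : inner ℝ p₀ e = 0) (hab : LinearIndependent ℝ ![a, b]) (L : ℝ) (hL : 0 < L)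
    (t₁ t₂ c : ℝ) (h12 : t₁ < t₂) (hc : c ∈ Set.Icc t₁ t₂)
    (w : ℝ → E3) (hw : ∀ t ∈ Set.Icc t₁ t₂, inner ℝ (w t) e = 0)
    (lam : ℝ → ℝ)
    (hw' : ∀ t ∈ Set.Icc t₁ t₂, HasDerivWithinAt w (lam t • (a + t • b)) (Set.Icc t₁ t₂) t)
    (Λ : ℝ) (hΛ : ∀ t ∈ Set.Icc t₁ t₂, |lam t| ≤ Λ)
    (Rm μ : ℝ) (hRm : 0 ≤ Rm) (hμ : 0 < μ) (hμ' : L * Λ * (t₂ - t₁) ≤ μ) :
    ∃ p q r : E3, inner ℝ p (e + w c) = 0 ∧ inner ℝ q (e + w c) = 0 ∧ inner ℝ r (e + w c) = 0 ∧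
      AffineIndependent ℝ ![p, q, r] ∧
      fanPiece e a b p₀ w L t₁ t₂ Rm ⊆ cyl (tri p q r) (e + w c) ∧
      μHE[2] (tri p q r) = ENNReal.ofReal
        (Real.sqrt (gram2 a b) * ((t₂ - t₁) / 2 * (Rm + 3 * μ) ^ 2) / Real.sqrt (1 + ‖w c‖ ^ 2)) := by
  have hwc := hw c hc
  have hg := add_orth_ne_zero e (w c) he hwc
  have hG : 0 < gram2 a b := (gram2_pos_iff a b).2 hab
  have hΛ0 : 0 ≤ Λ := (abs_nonneg _).trans (hΛ c hc)
  have hδ : 0 < t₂ - t₁ := sub_pos.mpr h12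
  set h := Rm + 3 * μ with hh
  have hhpos : 0 < h := by positivity
  set P := p₀ - (2 * μ) • (a + ((t₁ + t₂) / 2) • b) with hP
  have eQ : p₀ + (Rm + μ) • (a + ((t₁ + t₂) / 2) • b) + ((Rm + μ + 2 * μ) * ((t₂ - t₁) / 2)) • b =
      P + (h • a + (h * t₂) • b) := by
    rw [hP, hh]; module
  have eR : p₀ + (Rm + μ) • (a + ((t₁ + t₂) / 2) • b) - ((Rm + μ + 2 * μ) * ((t₂ - t₁) / 2)) • b =
      P + (h • a + (h * t₁) • b) := by
    rw [hP, hh]; module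
  have hdet : h * (h * t₁) - h * t₂ * h = -(h ^ 2 * (t₂ - t₁)) := by ring
  have hgram := gram_proj_tri e (w c) a b P he ha hb hwc h (h * t₂) h (h * t₁)
  rw [hdet, neg_sq] at hgram
  refine ⟨proj (e + w c) P, proj (e + w c) (P + (h • a + (h * t₂) • b)),
    proj (e + w c) (P + (h • a + (h * t₁) • b)),
    inner_proj_self _ _ hg, inner_proj_self _ _ hg, inner_proj_self _ _ hg, ?_, ?_, ?_⟩
  · apply affineIndependent_of_gram_pos
    rw [hgram]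
    have h2 : 0 < h ^ 2 * (t₂ - t₁) := by positivity
    positivity
  · rintro x ⟨τ, hτ, ρ, hρ, s, hs, rfl⟩
    obtain ⟨X, Y, hXY, hX, hY2, hY1⟩ := w_coords e a b he ha hb hab t₁ t₂ w hw lam hw' Λ hΛ c τ hc hτ
    have hLΛ : 0 ≤ L * Λ := by positivity
    have hsX : |s * X| ≤ μ := by
      rw [abs_mul]
      calc |s| * |X| ≤ L * (Λ * (t₂ - t₁)) := mul_le_mul hs hX (abs_nonneg _) hL.le
        _ = L * Λ * (t₂ - t₁) := by ring
        _ ≤ μ := hμ'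
    have hs2 : |s * (t₂ * X - Y)| ≤ μ * (t₂ - t₁) := by
      rw [abs_mul]
      calc |s| * |t₂ * X - Y| ≤ L * (Λ * (t₂ - t₁) ^ 2) := mul_le_mul hs hY2 (abs_nonneg _) hL.le
        _ = (L * Λ * (t₂ - t₁)) * (t₂ - t₁) := by ring
        _ ≤ μ * (t₂ - t₁) := mul_le_mul_of_nonneg_right hμ' hδ.le
    have hs1 : |s * (Y - t₁ * X)| ≤ μ * (t₂ - t₁) := by
      rw [abs_mul]
      calc |s| * |Y - t₁ * X| ≤ L * (Λ * (t₂ - t₁) ^ 2) := mul_le_mul hs hY1 (abs_nonneg _) hL.le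
        _ = (L * Λ * (t₂ - t₁)) * (t₂ - t₁) := by ring
        _ ≤ μ * (t₂ - t₁) := mul_le_mul_of_nonneg_right hμ' hδ.le
    rw [abs_le] at hsX hs2 hs1
    have hρ2 : 0 ≤ ρ * (t₂ - τ) := mul_nonneg hρ.1 (by linarith [hτ.2])
    have hρ1 : 0 ≤ ρ * (τ - t₁) := mul_nonneg hρ.1 (by linarith [hτ.1])
    have hmem := tri_mem p₀ (a + ((t₁ + t₂) / 2) • b) b (ρ + s * X)
      (ρ * τ + s * Y - (t₁ + t₂) / 2 * (ρ + s * X)) (2 * μ) (Rm + μ) ((t₂ - t₁) / 2) ((t₂ - t₁) / 2)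
      (by linarith [hρ.1, hsX.1]) (by linarith [hρ.2, hsX.2])
      (by nlinarith [hs2.1]) (by nlinarith [hs1.1]) (by linarith)
    rw [eQ, eR] at hmem
    have hx : p₀ + ρ • (a + τ • b) + s • (e + w τ) =
        (p₀ + (ρ + s * X) • (a + ((t₁ + t₂) / 2) • b) +
          (ρ * τ + s * Y - (t₁ + t₂) / 2 * (ρ + s * X)) • b) + s • (e + w c) := by
      have : w τ = w c + (X • a + Y • b) := by rw [← hXY]; abel
      rw [this]
      module
    have hpx : proj (e + w c) (p₀ + ρ • (a + τ • b) + s • (e + w τ)) =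
        proj (e + w c) (p₀ + (ρ + s * X) • (a + ((t₁ + t₂) / 2) • b) +
          (ρ * τ + s * Y - (t₁ + t₂) / 2 * (ρ + s * X)) • b) := by
      rw [hx, proj_add, proj_smul, proj_self _ hg, smul_zero, add_zero]
    refine ⟨proj (e + w c) (p₀ + ρ • (a + τ • b) + s • (e + w τ)), ?_, _, eq_proj_add _ _⟩
    rw [hpx]
    exact proj_hull _ _ _ _ _ hmem
  · rw [area_tri, hgram]
    congr 1
    rw [Real.sqrt_div (by positivity), Real.sqrt_mul (by positivity),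
      Real.sqrt_sq (by positivity)]
    ring

open Sector in
/-- Lower bound for the projected piece (used for the second half of S0328). -/
theorem fan_piece_lower
    (e a b p₀ : E3) (he : ‖e‖ = 1) (ha : inner ℝ a e = 0) (hb : inner ℝ b e = 0)
    (hp₀ : inner ℝ p₀ e = 0) (L : ℝ) (hL : 0 < L)
    (t₁ t₂ : ℝ) (h12 : t₁ < t₂) (w : ℝ → E3) (wc : E3) (hwc : inner ℝ wc e = 0)
    (Rm : ℝ) (hRm : 0 ≤ Rm) :
    ENNReal.ofReal
        (Real.sqrt (gram2 a b) * ((t₂ - t₁) / 2 * Rm ^ 2) / Real.sqrt (1 + ‖wc‖ ^ 2)) ≤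
      μHE[2] (prjN (e + wc) '' fanPiece e a b p₀ w L t₁ t₂ Rm) := by
  have hsub := inner_subset e a b p₀ (e + wc) L hL.le (fun _ => Rm) w t₁ t₂ Rm h12.le hRm
    (fun _ _ => le_refl _)
  have h1 : μHE[2] (tri (proj (e + wc) p₀) (proj (e + wc) (p₀ + (Rm • a + (Rm * t₁) • b)))
      (proj (e + wc) (p₀ + (Rm • a + (Rm * t₂) • b)))) ≤
      μHE[2] (prjN (e + wc) '' fanPiece e a b p₀ w L t₁ t₂ Rm) := measure_mono hsub
  refine le_trans (le_of_eq ?_) h1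
  rw [area_tri, gram_proj_tri e wc a b p₀ he ha hb hwc]
  congr 1
  have : Rm * (Rm * t₂) - Rm * t₁ * Rm = Rm ^ 2 * (t₂ - t₁) := by ring
  have hδ : 0 < t₂ - t₁ := sub_pos.mpr h12
  rw [this, Real.sqrt_div (mul_nonneg (sq_nonneg _) (gram2_nonneg a b)),
    Real.sqrt_mul (sq_nonneg _), Real.sqrt_sq (by positivity)]
  ring

end Crest.Agent.Cyl
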