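import Crest.Agent.Cyl.TetraProj

/-! T15: every regular tetrahedron is a similar image of `Kstd`; transport of projections. -/

set_option autoImplicit false
open MeasureTheory
open scoped ENNReal

namespace Crest.Agent.Cyl

/-- an orthonormal triple gives a linear isometry of `E3`. -/
theorem exists_isometry_of_orthonormal (a b c : E3) (hon : Orthonormal ℝ ![a, b, c]) :
    ∃ U : E3 ≃ₗᵢ[ℝ] E3, ∀ x : E3, U x = x 0 • a + x 1 • b + x 2 • c := by
  have hon' : Orthonormal ℝ ((Set.univ : Set (Fin 3)).domRestrict ![a, b, c]) := by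
    exact hon.comp _ Subtype.val_injective
  obtain ⟨B, hB⟩ := Orthonormal.exists_orthonormalBasis_extension_of_card_eq
    (𝕜 := ℝ) (E := E3) (ι := Fin 3) (by simp) hon'
  refine ⟨B.repr.symm, fun x => ?_⟩
  rw [← B.sum_repr_symm, Fin.sum_univ_three, hB 0 trivial, hB 1 trivial, hB 2 trivial]
  rfl

theorem regular_frame (w : Fin 4 → E3) (ℓ : ℝ) (hℓ : 0 < ℓ)
    (hw : ∀ i j, i ≠ j → dist (w i) (w j) = ℓ) :
    Orthonormal ℝ ![(1 / ℓ) • (w 0 - w 1), (1 / ℓ) • (w 2 - w 3),
      (1 / (Real.sqrt 2 * ℓ)) • ((w 2 + w 3) - (w 0 + w 1))] := by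
  set p1 := w 1 - w 0 with hp1
  set p2 := w 2 - w 0 with hp2
  set p3 := w 3 - w 0 with hp3
  have hs2 : Real.sqrt 2 * Real.sqrt 2 = 2 := Real.mul_self_sqrt (by norm_num)
  have hs0 : (0 : ℝ) < Real.sqrt 2 := by positivity
  have n1 : ‖p1‖ = ℓ := by rw [hp1, ← dist_eq_norm]; exact hw 1 0 (by decide)
  have n2 : ‖p2‖ = ℓ := by rw [hp2, ← dist_eq_norm]; exact hw 2 0 (by decide)
  have n3 : ‖p3‖ = ℓ := by rw [hp3, ← dist_eq_norm]; exact hw 3 0 (by decide)
  have n12 : ‖p1 - p2‖ = ℓ := by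
    rw [hp1, hp2, sub_sub_sub_cancel_right, ← dist_eq_norm]; exact hw 1 2 (by decide)
  have n13 : ‖p1 - p3‖ = ℓ := by
    rw [hp1, hp3, sub_sub_sub_cancel_right, ← dist_eq_norm]; exact hw 1 3 (by decide)
  have n23 : ‖p2 - p3‖ = ℓ := by
    rw [hp2, hp3, sub_sub_sub_cancel_right, ← dist_eq_norm]; exact hw 2 3 (by decide)
  have g11 : inner ℝ p1 p1 = ℓ ^ 2 := by rw [real_inner_self_eq_norm_sq, n1]
  have g22 : inner ℝ p2 p2 = ℓ ^ 2 := by rw [real_inner_self_eq_norm_sq, n2]
  have g33 : inner ℝ p3 p3 = ℓ ^ 2 := by rw [real_inner_self_eq_norm_sq, n3]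
  have g12 : inner ℝ p1 p2 = ℓ ^ 2 / 2 := by
    have := norm_sub_sq_real p1 p2
    rw [n12, n1, n2] at this; linarith
  have g13 : inner ℝ p1 p3 = ℓ ^ 2 / 2 := by
    have := norm_sub_sq_real p1 p3
    rw [n13, n1, n3] at this; linarith
  have g23 : inner ℝ p2 p3 = ℓ ^ 2 / 2 := by
    have := norm_sub_sq_real p2 p3
    rw [n23, n2, n3] at this; linarith
  have g21 : inner ℝ p2 p1 = ℓ ^ 2 / 2 := by rw [real_inner_comm]; exact g12
  have g31 : inner ℝ p3 p1 = ℓ ^ 2 / 2 := by rw [real_inner_comm]; exact g13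
  have g32 : inner ℝ p3 p2 = ℓ ^ 2 / 2 := by rw [real_inner_comm]; exact g23
  have ea : w 0 - w 1 = -p1 := by rw [hp1]; abel
  have eb : w 2 - w 3 = p2 - p3 := by rw [hp2, hp3]; abel
  have ec : (w 2 + w 3) - (w 0 + w 1) = p2 + p3 - p1 := by rw [hp1, hp2, hp3]; abel
  rw [ea, eb, ec]
  set A := (1 / ℓ) • (-p1) with hA
  set B := (1 / ℓ) • (p2 - p3) with hB
  set C := (1 / (Real.sqrt 2 * ℓ)) • (p2 + p3 - p1) with hC
  have hℓ0 : ℓ ≠ 0 := hℓ.ne'
  have haa : inner ℝ A A = 1 := by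
    simp only [hA, inner_smul_left, inner_smul_right, inner_neg_left, inner_neg_right,
      conj_trivial, g11]
    field_simp
  have hbb : inner ℝ B B = 1 := by
    simp only [hB, inner_smul_left, inner_smul_right, inner_sub_left, inner_sub_right,
      conj_trivial, g22, g33, g23, g32]
    field_simp
    ring
  have hcc : inner ℝ C C = 1 := by
    simp only [hC, inner_smul_left, inner_smul_right, inner_sub_left, inner_sub_right,
      inner_add_left, inner_add_right, conj_trivial, g11, g22, g33, g12, g13, g23, g21, g31, g32]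
    field_simp
    nlinarith
  have hab : inner ℝ A B = 0 := by
    simp only [hA, hB, inner_smul_left, inner_smul_right, inner_sub_left, inner_sub_right,
      inner_neg_left, inner_neg_right, conj_trivial, g12, g13]
    ring
  have hac : inner ℝ A C = 0 := by
    simp only [hA, hC, inner_smul_left, inner_smul_right, inner_sub_left, inner_sub_right,
      inner_add_left, inner_add_right, inner_neg_left, inner_neg_right, conj_trivial, g11, g12, g13]
    ring
  have hbc : inner ℝ B C = 0 := by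
    simp only [hB, hC, inner_smul_left, inner_smul_right, inner_sub_left, inner_sub_right,
      inner_add_left, inner_add_right, conj_trivial, g22, g33, g23, g32, g21, g31]
    ring
  have hba : inner ℝ B A = 0 := by rw [real_inner_comm]; exact hab
  have hca : inner ℝ C A = 0 := by rw [real_inner_comm]; exact hac
  have hcb : inner ℝ C B = 0 := by rw [real_inner_comm]; exact hbc
  rw [orthonormal_iff_ite]
  intro i j
  fin_cases i <;> fin_cases j
  · simpa using haa
  · simpa using hab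
  · simpa using hac
  · simpa using hba
  · simpa using hbb
  · simpa using hbc
  · simpa using hca
  · simpa using hcb
  · simpa using hcc

theorem range_fin4 (w : Fin 4 → E3) : Set.range w = {w 0, w 1, w 2, w 3} := by
  ext x
  simp only [Set.mem_range, Set.mem_insert_iff, Set.mem_singleton_iff]
  constructor
  · rintro ⟨i, rfl⟩
    fin_cases i <;> simp
  · rintro (rfl | rfl | rfl | rfl) <;> exact ⟨_, rfl⟩

/-- image of a convex hull under a similarity. -/
theorem similar_image_convexHull (U : E3 ≃ₗᵢ[ℝ] E3) (c : E3) (k : ℝ) (S : Set E3) :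
    (fun x => c + k • U x) '' convexHull ℝ S = convexHull ℝ ((fun x => c + k • U x) '' S) := by
  set g : E3 →ᵃ[ℝ] E3 :=
    (k • U.toLinearEquiv.toLinearMap).toAffineMap + AffineMap.const ℝ E3 c with hg
  have : (fun x => c + k • U x) = ⇑g := by
    funext x
    simp [hg, add_comm]
  rw [this, AffineMap.image_convexHull]

theorem regular_eq_image (w : Fin 4 → E3) (ℓ : ℝ) (hℓ : 0 < ℓ)
    (hw : ∀ i j, i ≠ j → dist (w i) (w j) = ℓ) :
    ∃ (U : E3 ≃ₗᵢ[ℝ] E3) (c₀ : E3),
      convexHull ℝ (Set.range w) = (fun x => c₀ + (ℓ / 2) • U x) '' Kstd := by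
  obtain ⟨U, hU⟩ := exists_isometry_of_orthonormal _ _ _ (regular_frame w ℓ hℓ hw)
  have hs2 : Real.sqrt 2 * Real.sqrt 2 = 2 := Real.mul_self_sqrt (by norm_num)
  have hs0 : (0 : ℝ) < Real.sqrt 2 := by positivity
  refine ⟨U, (1 / 2 : ℝ) • (w 0 + w 1), ?_⟩
  unfold Kstd
  rw [similar_image_convexHull, range_fin4, Set.image_insert_eq, Set.image_insert_eq,
    Set.image_insert_eq, Set.image_singleton]
  have hℓ0 : ℓ ≠ 0 := hℓ.ne'
  have key : ∀ x : E3, (ℓ / 2) • U x = (x 0 / 2) • (w 0 - w 1) + (x 1 / 2) • (w 2 - w 3)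
      + (x 2 / (2 * Real.sqrt 2)) • ((w 2 + w 3) - (w 0 + w 1)) := by
    intro x
    rw [hU, smul_add, smul_add, smul_smul, smul_smul, smul_smul, smul_smul, smul_smul, smul_smul]
    congr 1
    · congr 1
      · congr 1; field_simp
      · congr 1; field_simp
    · congr 1; field_simp
  have e : Real.sqrt 2 / (2 * Real.sqrt 2) = 1 / 2 := by field_simp
  have h0 : (1 / 2 : ℝ) • (w 0 + w 1) + (ℓ / 2) • U !₂[1, 0, 0] = w 0 := by
    rw [key]
    simp only [PiLp.toLp_apply, Matrix.cons_val_zero, Matrix.cons_val_one, Matrix.cons_val]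
    module
  have h1 : (1 / 2 : ℝ) • (w 0 + w 1) + (ℓ / 2) • U !₂[-1, 0, 0] = w 1 := by
    rw [key]
    simp only [PiLp.toLp_apply, Matrix.cons_val_zero, Matrix.cons_val_one, Matrix.cons_val]
    module
  have h2 : (1 / 2 : ℝ) • (w 0 + w 1) + (ℓ / 2) • U !₂[0, 1, Real.sqrt 2] = w 2 := by
    rw [key]
    simp only [PiLp.toLp_apply, Matrix.cons_val_zero, Matrix.cons_val_one, Matrix.cons_val, e]
    module
  have h3 : (1 / 2 : ℝ) • (w 0 + w 1) + (ℓ / 2) • U !₂[0, -1, Real.sqrt 2] = w 3 := by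
    rw [key]
    simp only [PiLp.toLp_apply, Matrix.cons_val_zero, Matrix.cons_val_one, Matrix.cons_val, e]
    module
  rw [h0, h1, h2, h3]

/-- projection areas of a similar image of `Kstd` -/
theorem proj_area_image_ge (U : E3 ≃ₗᵢ[ℝ] E3) (c₀ : E3) (k : ℝ) (hk : 0 < k) (v : E3) (hv : ‖v‖ = 1) :
    k ^ 2 * Real.sqrt 2 ≤
      (μHE[2] ((fun y => y - inner ℝ y v • v) '' ((fun x => c₀ + k • U x) '' Kstd))).toReal := by
  have h := shadow_similar U c₀ k hk.ne' v Kstd
  have hv' : ‖U.symm v‖ = 1 := by rw [U.symm.norm_map, hv]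
  change k ^ 2 * Real.sqrt 2 ≤ (μHE[2] (projL v '' ((fun x => c₀ + k • U x) '' Kstd))).toReal
  rw [h, ENNReal.toReal_mul, ENNReal.toReal_ofReal (by positivity)]
  apply mul_le_mul_of_nonneg_left _ (by positivity)
  exact (ENNReal.ofReal_le_iff_le_toReal (proj_area_lt_top _ hv').ne).1 (proj_area_ge _ hv')

end Crest.Agent.Cyl
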