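import Crest.Agent.Cyl.Area

/-! Row 211 (S0324--S0329): shadows (orthogonal projections) of tetrahedra (owner: helper3). -/

set_option autoImplicit false

namespace Crest.Agent.Cyl

open MeasureTheory Set
open scoped ENNReal

theorem inner3 (x y : E3) : inner ℝ x y = x 0 * y 0 + x 1 * y 1 + x 2 * y 2 := by
  simp only [PiLp.inner_apply, Fin.sum_univ_three, RCLike.inner_apply, conj_trivial]
  ring

theorem normsq3 (x : E3) : ‖x‖ ^ 2 = x 0 ^ 2 + x 1 ^ 2 + x 2 ^ 2 := by
  rw [← real_inner_self_eq_norm_sq, inner3]; ring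

/-- the orthogonal projection along the unit vector `v` (formula of the statements). -/
noncomputable def projL (v : E3) : E3 →ₗ[ℝ] E3 where
  toFun y := y - inner ℝ y v • v
  map_add' x y := by simp only [inner_add_left, add_smul]; abel
  map_smul' c x := by
    simp only [inner_smul_left, RingHom.id_apply, conj_trivial, smul_sub, mul_smul]

@[simp] theorem projL_apply (v y : E3) : projL v y = y - inner ℝ y v • v := rfl

/-- the determinant of three vectors. -/
def det3 (a b v : E3) : ℝ :=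
  a 0 * (b 1 * v 2 - b 2 * v 1) - a 1 * (b 0 * v 2 - b 2 * v 0) + a 2 * (b 0 * v 1 - b 1 * v 0)

theorem gram2_proj (a b v : E3) (hv : ‖v‖ = 1) :
    gram2 (projL v a) (projL v b) = det3 a b v ^ 2 := by
  have hv2 : v 0 ^ 2 + v 1 ^ 2 + v 2 ^ 2 = 1 := by rw [← normsq3, hv]; norm_num
  unfold gram2 det3
  rw [normsq3, normsq3, inner3]
  simp only [projL_apply, PiLp.sub_apply, PiLp.smul_apply, smul_eq_mul, inner3]
  set a0 := a 0; set a1 := a 1; set a2 := a 2
  set b0 := b 0; set b1 := b 1; set b2 := b 2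
  set v0 := v 0; set v1 := v 1; set v2 := v 2
  linear_combination
    (-((a0^2+a1^2+a2^2)*(b0^2+b1^2+b2^2) - (a0*b0+a1*b1+a2*b2)^2
      - (a0^2+a1^2+a2^2)*(b0*v0+b1*v1+b2*v2)^2 - (b0^2+b1^2+b2^2)*(a0*v0+a1*v1+a2*v2)^2
      + 2*(a0*b0+a1*b1+a2*b2)*(a0*v0+a1*v1+a2*v2)*(b0*v0+b1*v1+b2*v2))) * hv2

section TwoTriangles

variable {V : Type*} [NormedAddCommGroup V] [InnerProductSpace ℝ V]
  [MeasurableSpace V] [BorelSpace V]

theorem measurableSet_triangle (p q r : V) : MeasurableSet (convexHull ℝ ({p, q, r} : Set V)) :=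
  ((Set.toFinite _).isCompact_convexHull (𝕜 := ℝ)).isClosed.measurableSet

/-- two triangles with a common edge, on different sides of it: the areas add. -/
theorem area_two_triangles (p q r s : V) (φ : V →ₗ[ℝ] ℝ) (hq : φ (q - p) = 0)
    (hr : 0 < φ (r - p)) (hs : φ (s - p) ≤ 0) :
    μHE[2] (convexHull ℝ ({p, q, r} : Set V)) + μHE[2] (convexHull ℝ ({p, q, s} : Set V))
      = μHE[2] (convexHull ℝ ({p, q, r} : Set V) ∪ convexHull ℝ ({p, q, s} : Set V)) := by
  rw [← measure_union_add_inter _ (measurableSet_triangle p q s)]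
  have h0 : μHE[2] (convexHull ℝ ({p, q, r} : Set V) ∩ convexHull ℝ ({p, q, s} : Set V)) = 0 := by
    apply measure_mono_null _ (area_line p (q - p))
    rintro x ⟨hx1, hx2⟩
    rw [triangle_eq_image] at hx1 hx2
    obtain ⟨y, ⟨hy0, hy1, hy2⟩, rfl⟩ := hx1
    obtain ⟨z, ⟨hz0, hz1, hz2⟩, hz⟩ := hx2
    have h1 : z 0 • (q - p) + z 1 • (s - p) = y 0 • (q - p) + y 1 • (r - p) := by
      simpa using hz
    have h2 := congrArg φ h1
    simp only [map_add, map_smul, hq, smul_eq_mul, mul_zero, zero_add] at h2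
    have h3 : y 1 * φ (r - p) ≤ 0 := by
      rw [← h2]; exact mul_nonpos_of_nonneg_of_nonpos hz1 hs
    have h4 : y 1 = 0 := by
      by_contra hne
      have : 0 < y 1 := lt_of_le_of_ne hy1 (Ne.symm hne)
      have := mul_pos this hr
      linarith
    exact ⟨y 0, by simp [h4]⟩
  rw [h0, add_zero]

end TwoTriangles

/-- `y ↦ det3 a y v` as a linear functional. -/
def det3L (a v : E3) : E3 →ₗ[ℝ] ℝ where
  toFun y := det3 a y v
  map_add' x y := by simp only [det3, PiLp.add_apply]; ring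
  map_smul' c x := by simp only [det3, PiLp.smul_apply, smul_eq_mul, RingHom.id_apply]; ring

@[simp] theorem det3L_apply (a v y : E3) : det3L a v y = det3 a y v := rfl

theorem det3_projL (a w v : E3) : det3 a (projL v w) v = det3 a w v := by
  simp only [det3, projL_apply, PiLp.sub_apply, PiLp.smul_apply, smul_eq_mul]; ring

theorem det3_self (a v : E3) : det3 a a v = 0 := by
  simp only [det3]; ring

theorem projL_triangle_subset (v : E3) (S : Set E3) (p q r : E3) (hp : p ∈ S) (hq : q ∈ S)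
    (hr : r ∈ S) :
    convexHull ℝ ({projL v p, projL v q, projL v r} : Set E3) ⊆ projL v '' convexHull ℝ S := by
  rw [LinearMap.image_convexHull]
  apply convexHull_mono
  intro z hz
  simp only [mem_insert_iff, mem_singleton_iff] at hz
  rcases hz with rfl | rfl | rfl
  · exact ⟨p, hp, rfl⟩
  · exact ⟨q, hq, rfl⟩
  · exact ⟨r, hr, rfl⟩

theorem area_projL_triangle (v : E3) (hv : ‖v‖ = 1) (p q r : E3) :
    μHE[2] (convexHull ℝ ({projL v p, projL v q, projL v r} : Set E3))
      = ENNReal.ofReal (|det3 (q - p) (r - p) v| / 2) := by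
  rw [area_triangle, ← map_sub, ← map_sub, gram2_proj _ _ _ hv, Real.sqrt_sq_eq_abs]

/-- the shadow of a convex body contains the shadow of each triangle spanned by its points. -/
theorem shadow_face (v : E3) (hv : ‖v‖ = 1) (S : Set E3) (p q r : E3) (hp : p ∈ S) (hq : q ∈ S)
    (hr : r ∈ S) :
    ENNReal.ofReal (|det3 (q - p) (r - p) v| / 2) ≤ μHE[2] (projL v '' convexHull ℝ S) := by
  rw [← area_projL_triangle v hv]
  exact measure_mono (projL_triangle_subset v S p q r hp hq hr)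

/-- two triangles with a common edge whose shadows lie on different sides of that edge. -/
theorem shadow_two_faces (v : E3) (hv : ‖v‖ = 1) (S : Set E3) (p q r s : E3) (hp : p ∈ S)
    (hq : q ∈ S) (hr : r ∈ S) (hs : s ∈ S)
    (h : det3 (q - p) (r - p) v * det3 (q - p) (s - p) v ≤ 0) :
    ENNReal.ofReal ((|det3 (q - p) (r - p) v| + |det3 (q - p) (s - p) v|) / 2)
      ≤ μHE[2] (projL v '' convexHull ℝ S) := by
  have key : ∀ φ : E3 →ₗ[ℝ] ℝ, φ (projL v q - projL v p) = 0 →
      0 < φ (projL v r - projL v p) → φ (projL v s - projL v p) ≤ 0 →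
      ENNReal.ofReal ((|det3 (q - p) (r - p) v| + |det3 (q - p) (s - p) v|) / 2)
      ≤ μHE[2] (projL v '' convexHull ℝ S) := by
    intro φ h1 h2 h3
    rw [add_div, ENNReal.ofReal_add (by positivity) (by positivity),
      ← area_projL_triangle v hv, ← area_projL_triangle v hv, area_two_triangles _ _ _ _ φ h1 h2 h3]
    exact measure_mono (union_subset (projL_triangle_subset v S p q r hp hq hr)
      (projL_triangle_subset v S p q s hp hq hs))
  rcases lt_trichotomy (det3 (q - p) (r - p) v) 0 with hlt | heq | hgt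
  · apply key (-(det3L (q - p) v))
    · simp only [← map_sub, LinearMap.neg_apply, det3L_apply, det3_projL, det3_self, neg_zero]
    · simp only [← map_sub, LinearMap.neg_apply, det3L_apply, det3_projL]; linarith
    · simp only [← map_sub, LinearMap.neg_apply, det3L_apply, det3_projL]
      nlinarith
  · rw [heq, abs_zero, zero_add]
    exact shadow_face v hv S p q s hp hq hs
  · apply key (det3L (q - p) v)
    · simp only [← map_sub, det3L_apply, det3_projL, det3_self]
    · simp only [← map_sub, det3L_apply, det3_projL]; linarith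
    · simp only [← map_sub, det3L_apply, det3_projL]
      nlinarith

theorem abs_add_abs_le_or (a b : ℝ) : |a| + |b| ≤ |a + b| ∨ |a| + |b| ≤ |a - b| := by
  rcases le_total 0 a with ha | ha <;> rcases le_total 0 b with hb | hb
  · left; rw [abs_of_nonneg ha, abs_of_nonneg hb, abs_of_nonneg (by linarith)]
  · right; rw [abs_of_nonneg ha, abs_of_nonpos hb, abs_of_nonneg (by linarith)]; linarith
  · right; rw [abs_of_nonpos ha, abs_of_nonneg hb, abs_of_nonpos (by linarith)]; linarith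
  · left; rw [abs_of_nonpos ha, abs_of_nonpos hb, abs_of_nonpos (by linarith)]; linarith

theorem two_abs_le (a b : ℝ) : 2 * |b| ≤ |a - b| + |a + b| := by
  rcases abs_cases b with ⟨h, _⟩ | ⟨h, _⟩ <;> rcases abs_cases (a - b) with ⟨h1, _⟩ | ⟨h1, _⟩ <;>
    rcases abs_cases (a + b) with ⟨h2, _⟩ | ⟨h2, _⟩ <;> linarith

/-- case A. -/
theorem real_caseA (s X Y Z : ℝ) (hs : 0 < s) (hs2 : s ^ 2 = 2) (hX : 0 ≤ X) (hY : 0 ≤ Y)
    (hZ : 0 ≤ Z) (h1 : X ^ 2 + Y ^ 2 + Z ^ 2 = 1) (h : 2 * Y ^ 2 ≤ Z ^ 2) :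
    s ≤ 2 * Z ∨ s ≤ s * X + Z := by
  by_contra hcon
  push Not at hcon
  obtain ⟨h2, h3⟩ := hcon
  have h4 : s * X < s - Z := by linarith
  have h5 : (s * X) ^ 2 < (s - Z) ^ 2 := by
    apply pow_lt_pow_left₀ h4 (by positivity) (by norm_num)
  have h6 : 2 * X ^ 2 < 2 - 2 * s * Z + Z ^ 2 := by nlinarith
  have h7 : 2 * s * Z < 4 * Z ^ 2 := by nlinarith
  nlinarith

/-- case B1. -/
theorem real_caseB1 (s X Y Z : ℝ) (hs : 0 < s) (hs2 : s ^ 2 = 2) (hX : 0 ≤ X) (hY : 0 ≤ Y)
    (hZ : 0 ≤ Z) (h1 : X ^ 2 + Y ^ 2 + Z ^ 2 = 1) (h : 2 * X ^ 2 ≤ Z ^ 2) (h' : Z ^ 2 < 2 * Y ^ 2) :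
    s ≤ s * Y + Z := by
  rcases real_caseA s Y X Z hs hs2 hY hX hZ (by linarith) h with h2 | h2
  · have : Z < s * Y := by
      apply lt_of_pow_lt_pow_left₀ 2 (by positivity)
      nlinarith
    linarith
  · exact h2

/-- case B2. -/
theorem real_caseB2 (s X Y Z : ℝ) (hs : 0 < s) (hs2 : s ^ 2 = 2) (hX : 0 ≤ X) (hY : 0 ≤ Y)
    (hZ : 0 ≤ Z) (h1 : X ^ 2 + Y ^ 2 + Z ^ 2 = 1) (h : Z ^ 2 < 2 * X ^ 2) (h' : Z ^ 2 < 2 * Y ^ 2) :
    s ≤ s * (X + Y) := by
  have h2 : Z ^ 2 ≤ 2 * (X * Y) := by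
    have : (Z ^ 2) ^ 2 ≤ (2 * (X * Y)) ^ 2 := by nlinarith [sq_nonneg Z]
    exact (pow_le_pow_iff_left₀ (by positivity) (by positivity) (by norm_num)).1 this
  have h3 : 1 ≤ X + Y := by
    have : (1:ℝ) ^ 2 ≤ (X + Y) ^ 2 := by nlinarith
    exact (pow_le_pow_iff_left₀ (by norm_num) (by positivity) (by norm_num)).1 this
  nlinarith


/-- the standard regular tetrahedron of the statements. -/
abbrev K0 : Set E3 :=
  convexHull ℝ {!₂[1, 0, 0], !₂[-1, 0, 0], !₂[0, 1, Real.sqrt 2], !₂[0, -1, Real.sqrt 2]}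

theorem shadow_K0_ge (v : E3) (hv : ‖v‖ = 1) :
    ENNReal.ofReal (Real.sqrt 2) ≤ μHE[2] (projL v '' K0) := by
  set s := Real.sqrt 2 with hs
  have hs0 : 0 < s := by positivity
  have hs2 : s ^ 2 = 2 := Real.sq_sqrt (by norm_num)
  set S : Set E3 := {!₂[1, 0, 0], !₂[-1, 0, 0], !₂[0, 1, s], !₂[0, -1, s]} with hS
  have m1 : (!₂[1, 0, 0] : E3) ∈ S := by simp [hS]
  have m2 : (!₂[-1, 0, 0] : E3) ∈ S := by simp [hS]
  have m3 : (!₂[0, 1, s] : E3) ∈ S := by simp [hS]
  have m4 : (!₂[0, -1, s] : E3) ∈ S := by simp [hS]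
  set x := v 0 with hx
  set y := v 1 with hy
  set z := v 2 with hz
  have h1 : |x| ^ 2 + |y| ^ 2 + |z| ^ 2 = 1 := by
    rw [sq_abs, sq_abs, sq_abs, hx, hy, hz, ← normsq3, hv]; norm_num
  -- the determinants
  have d123 : det3 ((!₂[-1, 0, 0] : E3) - !₂[1, 0, 0]) (!₂[0, 1, s] - !₂[1, 0, 0]) v
      = 2 * (s * y - z) := by
    simp [det3]; ring
  have d124 : det3 ((!₂[-1, 0, 0] : E3) - !₂[1, 0, 0]) (!₂[0, -1, s] - !₂[1, 0, 0]) v
      = 2 * (s * y + z) := by
    simp [det3]; ring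
  have d132 : det3 ((!₂[0, 1, s] : E3) - !₂[1, 0, 0]) (!₂[-1, 0, 0] - !₂[1, 0, 0]) v
      = -2 * (s * y - z) := by
    simp [det3]; ring
  have d134 : det3 ((!₂[0, 1, s] : E3) - !₂[1, 0, 0]) (!₂[0, -1, s] - !₂[1, 0, 0]) v
      = 2 * (s * x + z) := by
    simp [det3]; ring
  have d142 : det3 ((!₂[0, -1, s] : E3) - !₂[1, 0, 0]) (!₂[-1, 0, 0] - !₂[1, 0, 0]) v
      = -2 * (s * y + z) := by
    simp [det3]; ring
  have d143 : det3 ((!₂[0, -1, s] : E3) - !₂[1, 0, 0]) (!₂[0, 1, s] - !₂[1, 0, 0]) v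
      = -2 * (s * x + z) := by
    simp [det3]; ring
  have d234 : det3 ((!₂[0, 1, s] : E3) - !₂[-1, 0, 0]) (!₂[0, -1, s] - !₂[-1, 0, 0]) v
      = 2 * (s * x - z) := by
    simp [det3]; ring
  set M := μHE[2] (projL v '' convexHull ℝ S) with hM
  have e1 : ∀ t : ℝ, |2 * t| / 2 = |t| := fun t => by
    rw [abs_mul, abs_of_pos (by norm_num : (0:ℝ) < 2)]; ring
  have e2 : ∀ t : ℝ, |-2 * t| / 2 = |t| := fun t => by
    rw [abs_mul, abs_of_neg (by norm_num : (-2:ℝ) < 0)]; ring
  have fα : ENNReal.ofReal |s * y - z| ≤ M := by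
    have := shadow_face v hv S _ _ _ m1 m2 m3
    rwa [d123, e1] at this
  have fβ : ENNReal.ofReal |s * y + z| ≤ M := by
    have := shadow_face v hv S _ _ _ m1 m2 m4
    rwa [d124, e1] at this
  have fγ : ENNReal.ofReal |s * x + z| ≤ M := by
    have := shadow_face v hv S _ _ _ m1 m3 m4
    rwa [d134, e1] at this
  have fδ : ENNReal.ofReal |s * x - z| ≤ M := by
    have := shadow_face v hv S _ _ _ m2 m3 m4
    rwa [d234, e1] at this
  have fαβ : (s * y - z) * (s * y + z) ≤ 0 →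
      ENNReal.ofReal (|s * y - z| + |s * y + z|) ≤ M := by
    intro h
    have := shadow_two_faces v hv S _ _ _ _ m1 m2 m3 m4 (by rw [d123, d124]; nlinarith)
    rwa [d123, d124, add_div, e1, e1] at this
  have fαγ : 0 ≤ (s * y - z) * (s * x + z) →
      ENNReal.ofReal (|s * y - z| + |s * x + z|) ≤ M := by
    intro h
    have := shadow_two_faces v hv S _ _ _ _ m1 m3 m2 m4 (by rw [d132, d134]; nlinarith)
    rwa [d132, d134, add_div, e1, e2] at this
  have fβγ : (s * y + z) * (s * x + z) ≤ 0 →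
      ENNReal.ofReal (|s * y + z| + |s * x + z|) ≤ M := by
    intro h
    have := shadow_two_faces v hv S _ _ _ _ m1 m4 m2 m3 (by rw [d142, d143]; nlinarith)
    rwa [d142, d143, add_div, e2, e2] at this
  suffices h : ∃ t : ℝ, s ≤ t ∧ ENNReal.ofReal t ≤ M by
    obtain ⟨t, h1, h2⟩ := h
    exact le_trans (ENNReal.ofReal_le_ofReal h1) h2
  have hsx : |s * x| = s * |x| := by rw [abs_mul, abs_of_pos hs0]
  have hsy : |s * y| = s * |y| := by rw [abs_mul, abs_of_pos hs0]
  by_cases hA : (s * y - z) * (s * y + z) ≤ 0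
  · have h2 : 2 * |y| ^ 2 ≤ |z| ^ 2 := by rw [sq_abs, sq_abs]; nlinarith
    rcases real_caseA s |x| |y| |z| hs0 hs2 (abs_nonneg _) (abs_nonneg _) (abs_nonneg _) h1 h2
      with h | h
    · exact ⟨_, le_trans h (two_abs_le _ _), fαβ hA⟩
    · rcases abs_add_abs_le_or (s * x) z with h' | h'
      · exact ⟨_, le_trans (by rw [hsx]; exact h) h', fγ⟩
      · exact ⟨_, le_trans (by rw [hsx]; exact h) h', fδ⟩
  · push Not at hA
    have h2 : |z| ^ 2 < 2 * |y| ^ 2 := by rw [sq_abs, sq_abs]; nlinarith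
    by_cases hB : 2 * |x| ^ 2 ≤ |z| ^ 2
    · have h := real_caseB1 s |x| |y| |z| hs0 hs2 (abs_nonneg _) (abs_nonneg _) (abs_nonneg _) h1
        hB h2
      rcases abs_add_abs_le_or (s * y) z with h' | h'
      · exact ⟨_, le_trans (by rw [hsy]; exact h) h', fβ⟩
      · exact ⟨_, le_trans (by rw [hsy]; exact h) h', fα⟩
    · push Not at hB
      have h := real_caseB2 s |x| |y| |z| hs0 hs2 (abs_nonneg _) (abs_nonneg _) (abs_nonneg _) h1
        hB h2
      have hzx : |z| < s * |x| := by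
        apply lt_of_pow_lt_pow_left₀ 2 (by positivity)
        nlinarith
      have hzy : |z| < s * |y| := by
        apply lt_of_pow_lt_pow_left₀ 2 (by positivity)
        nlinarith
      have hz1 := le_abs_self z
      have hz2 := neg_abs_le z
      rcases le_total 0 x with hx0 | hx0 <;> rcases le_total 0 y with hy0 | hy0
      · rw [abs_of_nonneg hx0] at hzx h
        rw [abs_of_nonneg hy0] at hzy h
        have a1 : 0 < s * y - z := by linarith
        have a2 : 0 < s * x + z := by linarith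
        refine ⟨_, ?_, fαγ (by positivity)⟩
        rw [abs_of_pos a1, abs_of_pos a2]; linarith
      · rw [abs_of_nonneg hx0] at hzx h
        rw [abs_of_nonpos hy0] at hzy h
        have a1 : s * y + z < 0 := by linarith
        have a2 : 0 < s * x + z := by linarith
        refine ⟨_, ?_, fβγ (by nlinarith)⟩
        rw [abs_of_neg a1, abs_of_pos a2]; linarith
      · rw [abs_of_nonpos hx0] at hzx h
        rw [abs_of_nonneg hy0] at hzy h
        have a1 : 0 < s * y + z := by linarith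
        have a2 : s * x + z < 0 := by linarith
        refine ⟨_, ?_, fβγ (by nlinarith)⟩
        rw [abs_of_pos a1, abs_of_neg a2]; linarith
      · rw [abs_of_nonpos hx0] at hzx h
        rw [abs_of_nonpos hy0] at hzy h
        have a1 : s * y - z < 0 := by linarith
        have a2 : s * x + z < 0 := by linarith
        refine ⟨_, ?_, fαγ (by nlinarith)⟩
        rw [abs_of_neg a1, abs_of_neg a2]; linarith

theorem shadow_K0_eq :
    μHE[2] (projL (!₂[1, 0, 0] : E3) '' K0) = ENNReal.ofReal (Real.sqrt 2) := by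
  set s := Real.sqrt 2 with hs
  have hs2 : s ^ 2 = 2 := Real.sq_sqrt (by norm_num)
  have p1 : projL (!₂[1, 0, 0] : E3) !₂[1, 0, 0] = 0 := by
    ext i; fin_cases i <;> simp [-inner_self_eq_norm_sq_to_K, inner3]
  have p2 : projL (!₂[1, 0, 0] : E3) !₂[-1, 0, 0] = 0 := by
    ext i; fin_cases i <;> simp [inner3]
  have p3 : projL (!₂[1, 0, 0] : E3) !₂[0, 1, s] = !₂[0, 1, s] := by
    ext i; fin_cases i <;> simp [inner3]
  have p4 : projL (!₂[1, 0, 0] : E3) !₂[0, -1, s] = !₂[0, -1, s] := by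
    ext i; fin_cases i <;> simp [inner3]
  rw [LinearMap.image_convexHull, Set.image_insert_eq, Set.image_insert_eq, Set.image_insert_eq,
    Set.image_singleton, p1, p2, p3, p4, Set.insert_eq_of_mem (Set.mem_insert _ _), area_triangle]
  congr 1
  have hg : gram2 ((!₂[0, 1, s] : E3) - 0) (!₂[0, -1, s] - 0) = 8 := by
    unfold gram2
    rw [normsq3, normsq3, inner3]
    simp
    nlinarith
  rw [hg]
  have : Real.sqrt 8 = 2 * s := by
    rw [show (8:ℝ) = 2 ^ 2 * 2 by norm_num, Real.sqrt_mul (by norm_num), Real.sqrt_sq (by norm_num)]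
  rw [this]; ring

/-- S0325, part (1), in the exact form of the statement. -/
theorem minProjection_K0 :
    (∀ v : EuclideanSpace ℝ (Fin 3), ‖v‖ = 1 →
        ENNReal.ofReal (Real.sqrt 2) ≤ μHE[2] ((fun y => y - inner ℝ y v • v) '' convexHull ℝ {!₂[1, 0, 0], !₂[-1, 0, 0], !₂[0, 1, Real.sqrt 2], !₂[0, -1, Real.sqrt 2]})) ∧
      ∃ v : EuclideanSpace ℝ (Fin 3), ‖v‖ = 1 ∧
        μHE[2] ((fun y => y - inner ℝ y v • v) '' convexHull ℝ {!₂[1, 0, 0], !₂[-1, 0, 0], !₂[0, 1, Real.sqrt 2], !₂[0, -1, Real.sqrt 2]}) = ENNReal.ofReal (Real.sqrt 2) := by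
  refine ⟨fun v hv => shadow_K0_ge v hv, !₂[1, 0, 0], ?_, shadow_K0_eq⟩
  have : ‖(!₂[1, 0, 0] : E3)‖ ^ 2 = 1 := by rw [normsq3]; simp
  nlinarith [norm_nonneg (!₂[1, 0, 0] : E3)]

open scoped Pointwise

/-- an orthonormal frame `(a, b, v)` completing a unit vector `v`. -/
theorem exists_frame3 (v : E3) (hv : ‖v‖ = 1) :
    ∃ a b : E3, ‖a‖ = 1 ∧ ‖b‖ = 1 ∧ inner ℝ a b = 0 ∧ inner ℝ a v = 0 ∧ inner ℝ b v = 0 ∧
      ∀ y : E3, y = inner ℝ y a • a + inner ℝ y b • b + inner ℝ y v • v := by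
  have hon : Orthonormal ℝ (({2} : Set (Fin 3)).domRestrict (fun _ => v)) := by
    constructor
    · intro i; simpa using hv
    · intro i j hij
      exact absurd (Subsingleton.elim i j) hij
  obtain ⟨B, hB⟩ := Orthonormal.exists_orthonormalBasis_extension_of_card_eq
    (𝕜 := ℝ) (E := E3) (ι := Fin 3) (by simp) hon
  have h2 : B 2 = v := hB 2 (by simp)
  refine ⟨B 0, B 1, B.orthonormal.1 0, B.orthonormal.1 1, B.orthonormal.2 (by decide), ?_, ?_, ?_⟩
  · rw [← h2]; exact B.orthonormal.2 (by decide)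
  · rw [← h2]; exact B.orthonormal.2 (by decide)
  · intro y
    have := B.sum_repr' y
    rw [Fin.sum_univ_three, h2] at this
    rw [real_inner_comm (B 0), real_inner_comm (B 1), real_inner_comm v]
    exact this.symm

/-- shadows of bounded sets have finite area. -/
theorem shadow_lt_top (v : E3) (hv : ‖v‖ = 1) (S : Set E3) (hS : Bornology.IsBounded S) :
    μHE[2] (projL v '' S) < ⊤ := by
  obtain ⟨a, b, ha, hb, -, -, -, hfr⟩ := exists_frame3 v hv
  obtain ⟨R, hR⟩ := hS.exists_norm_le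
  have hsub : projL v '' S ⊆ (fun x : E2 => (0 : E3) + (x 0 • a + x 1 • b)) ''
      {x : E2 | (x 0, x 1) ∈ Icc (-R) R ×ˢ Icc (-R) R} := by
    rintro _ ⟨y, hy, rfl⟩
    have h1 : |inner ℝ y a| ≤ R := by
      have := abs_real_inner_le_norm y a
      rw [ha, mul_one] at this
      exact this.trans (hR y hy)
    have h2 : |inner ℝ y b| ≤ R := by
      have := abs_real_inner_le_norm y b
      rw [hb, mul_one] at this
      exact this.trans (hR y hy)
    refine ⟨!₂[inner ℝ y a, inner ℝ y b], ?_, ?_⟩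
    · simp only [mem_ofPred_eq, mem_prod, mem_Icc]
      exact ⟨abs_le.1 h1, abs_le.1 h2⟩
    · have := hfr y
      simp only [projL_apply, zero_add]
      rw [eq_sub_iff_add_eq]
      simpa using this.symm
  refine lt_of_le_of_lt (measure_mono hsub) ?_
  rw [area_affine_image, volume_coords_preimage (measurableSet_Icc.prod measurableSet_Icc)]
  apply ENNReal.mul_lt_top ENNReal.ofReal_lt_top
  rw [Measure.volume_eq_prod, Measure.prod_prod]
  simp only [Real.volume_Icc]
  exact ENNReal.mul_lt_top ENNReal.ofReal_lt_top ENNReal.ofReal_lt_top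

/-- areas scale by `k²` under a similarity. -/
theorem area_similar_image (U : E3 ≃ₗᵢ[ℝ] E3) (c : E3) (k : ℝ) (hk : k ≠ 0) (T : Set E3) :
    μHE[2] ((fun z => c + k • U z) '' T) = ENNReal.ofReal (k ^ 2) * μHE[2] T := by
  have h : (fun z => c + k • U z) '' T = (fun z => c + z) '' (k • (U '' T)) := by
    ext x
    simp only [mem_image, mem_smul_set, exists_exists_and_eq_and]
  rw [h, (isometry_add_left c).euclideanHausdorffMeasure_image,
    Measure.euclideanHausdorffMeasure_smul₀ 2 hk, U.isometry.euclideanHausdorffMeasure_image]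
  rw [ENNReal.smul_def, smul_eq_mul]
  congr 1
  rw [ENNReal.ofReal, ENNReal.coe_inj]
  ext
  simp [sq_nonneg]

theorem projL_similar (U : E3 ≃ₗᵢ[ℝ] E3) (c : E3) (k : ℝ) (v x : E3) :
    projL v (c + k • U x) = projL v c + k • U (projL (U.symm v) x) := by
  have h : inner ℝ (U x) v = inner ℝ x (U.symm v) := by
    conv_lhs => rw [← U.apply_symm_apply v]
    exact U.inner_map_map x (U.symm v)
  simp only [projL_apply, inner_add_left, inner_smul_left, conj_trivial, map_sub, map_smul,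
    U.apply_symm_apply, h, add_smul, smul_sub, mul_smul]
  abel

theorem shadow_similar (U : E3 ≃ₗᵢ[ℝ] E3) (c : E3) (k : ℝ) (hk : k ≠ 0) (v : E3) (T : Set E3) :
    μHE[2] (projL v '' ((fun x => c + k • U x) '' T))
      = ENNReal.ofReal (k ^ 2) * μHE[2] (projL (U.symm v) '' T) := by
  rw [← area_similar_image U (projL v c) k hk, Set.image_image, Set.image_image]
  simp only [projL_similar]

end Crest.Agent.Cyl
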