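import Crest.Agent.Cyl.Fan
import Crest.Agent.Cyl.Coverage

/-! T5: the explicit radial sweep covering the standard tetrahedron. -/

set_option autoImplicit false
open MeasureTheory
open scoped ENNReal

namespace Crest.Agent.Cyl

/-- data of the explicit lower sweep -/
noncomputable def sE : E3 := !₂[1, 0, 0]
noncomputable def sA : E3 := !₂[0, 0, Real.sqrt 2]
noncomputable def sB : E3 := !₂[0, 1, 0]
/-- direction perturbation `w(t) = λ ((1+t²)/2 e_y + t √2 e_z)`; `w' = λ (sA + t sB)`. -/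
noncomputable def sW (lam : ℝ) (t : ℝ) : E3 := !₂[0, lam * ((1 + t ^ 2) / 2), lam * (t * Real.sqrt 2)]
/-- radial cap -/
noncomputable def sR (lam : ℝ) (t : ℝ) : ℝ := 1 / 2 + lam ^ 2 * (t ^ 2 + t ^ 4) / 4 + 2 * lam ^ 3

/-- the lower sweep -/
def sweepLow (lam : ℝ) : Set E3 :=
  {x | ∃ τ ∈ Set.Icc (-1 : ℝ) 1, ∃ ρ ∈ Set.Icc 0 (sR lam τ), ∃ s : ℝ, |s| ≤ 1 ∧
    x = (0 : E3) + ρ • (sA + τ • sB) + s • (sE + sW lam τ)}

/-- the symmetry `(x,y,z) ↦ (y,-x,√2-z)` of `Kstd` -/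
noncomputable def sSym (x : E3) : E3 := !₂[x 1, -x 0, Real.sqrt 2 - x 2]

/-- coordinates description of `Kstd` (only this inclusion is needed) -/
theorem Kstd_coords (x : E3) (hx : x ∈ Kstd) :
    ∃ τ : ℝ, 0 ≤ τ ∧ τ ≤ 1 ∧ x 2 = Real.sqrt 2 * τ ∧ |x 0| ≤ 1 - τ ∧ |x 1| ≤ τ := by
  have h2 : (0 : ℝ) < Real.sqrt 2 := Real.sqrt_pos.mpr (by norm_num)
  let C : Set E3 := {x | Real.sqrt 2 * x 0 ≤ Real.sqrt 2 - x 2 ∧ -(Real.sqrt 2 * x 0) ≤ Real.sqrt 2 - x 2 ∧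
    Real.sqrt 2 * x 1 ≤ x 2 ∧ -(Real.sqrt 2 * x 1) ≤ x 2}
  have hC : Convex ℝ C := by
    intro u hu v hv a b ha hb hab
    obtain ⟨u1, u2, u3, u4⟩ := hu
    obtain ⟨v1, v2, v3, v4⟩ := hv
    have e0 : (a • u + b • v) 0 = a * u 0 + b * v 0 := by simp
    have e1 : (a • u + b • v) 1 = a * u 1 + b * v 1 := by simp
    have e2 : (a • u + b • v) 2 = a * u 2 + b * v 2 := by simp
    have hb' : b = 1 - a := by linarith
    refine ⟨?_, ?_, ?_, ?_⟩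
    · rw [e0, e2]; nlinarith [mul_le_mul_of_nonneg_left u1 ha, mul_le_mul_of_nonneg_left v1 hb]
    · rw [e0, e2]; nlinarith [mul_le_mul_of_nonneg_left u2 ha, mul_le_mul_of_nonneg_left v2 hb]
    · rw [e1, e2]; nlinarith [mul_le_mul_of_nonneg_left u3 ha, mul_le_mul_of_nonneg_left v3 hb]
    · rw [e1, e2]; nlinarith [mul_le_mul_of_nonneg_left u4 ha, mul_le_mul_of_nonneg_left v4 hb]
  have hsub : Kstd ⊆ C := by
    apply convexHull_min _ hC
    intro p hp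
    simp only [Set.mem_insert_iff, Set.mem_singleton_iff] at hp
    rcases hp with rfl | rfl | rfl | rfl
    · refine ⟨?_, ?_, ?_, ?_⟩ <;> simp <;> linarith
    · refine ⟨?_, ?_, ?_, ?_⟩ <;> simp <;> linarith
    · refine ⟨?_, ?_, ?_, ?_⟩ <;> simp <;> linarith
    · refine ⟨?_, ?_, ?_, ?_⟩ <;> simp <;> linarith
  obtain ⟨c1, c2, c3, c4⟩ := hsub hx
  refine ⟨x 2 / Real.sqrt 2, ?_, ?_, ?_, ?_, ?_⟩
  · apply div_nonneg _ h2.le; linarith
  · rw [div_le_one h2]; linarith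
  · field_simp
  · rw [abs_le]
    constructor
    · have : -(1 - x 2 / Real.sqrt 2) = (-(Real.sqrt 2 - x 2)) / Real.sqrt 2 := by field_simp
      rw [this, div_le_iff₀ h2]; linarith
    · have : (1 - x 2 / Real.sqrt 2) = (Real.sqrt 2 - x 2) / Real.sqrt 2 := by field_simp
      rw [this, le_div_iff₀ h2]; linarith
  · rw [abs_le]
    constructor
    · have : -(x 2 / Real.sqrt 2) = (-(x 2)) / Real.sqrt 2 := by ring
      rw [this, div_le_iff₀ h2]; linarith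
    · rw [le_div_iff₀ h2]; linarith

/-- pure real-number heart: sweep coordinates exist. -/
theorem sweep_coords (lam x y τ : ℝ) (hy : |y| ≤ τ) :
    ∃ t ∈ Set.Icc (-1 : ℝ) 1, ∃ ρ : ℝ, 0 ≤ ρ ∧ y = ρ * t + x * (lam * ((1 + t ^ 2) / 2)) ∧
      τ = ρ + x * (lam * t) := by
  obtain ⟨t, ρ, ht, hρ, h1, h2⟩ := fan_param lam x y τ hy
  exact ⟨t, abs_le.mp ht, ρ, hρ, by rw [h2]; ring, by rw [h1]; ring⟩

theorem capR_le_sR (lam t : ℝ) (h0 : 0 < lam) (h1 : lam ≤ 1 / 2) : capR lam t ≤ sR lam t := by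
  unfold capR sR
  have : 9 / 32 * lam ^ 4 ≤ 2 * lam ^ 3 := by
    have h3 : 0 < lam ^ 3 := by positivity
    have : 9 / 32 * lam ^ 4 = (9 / 32 * lam) * lam ^ 3 := by ring
    rw [this]
    exact mul_le_mul_of_nonneg_right (by linarith) h3.le
  linarith

theorem sweep_cover (lam : ℝ) (h0 : 0 < lam) (h1 : lam ≤ 1 / 2) :
    Kstd ⊆ sweepLow lam ∪ sSym '' sweepLow lam := by
  intro x hx
  obtain ⟨τ, hτ0, hτ1, hz, hx0, hx1⟩ := Kstd_coords x hx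
  rcases coverage lam (x 0) (x 1) τ h0.le h1 hx0 hx1 with
    ⟨t, ρ, ht, hρ0, hρ1, e1, e2⟩ | ⟨t, ρ, ht, hρ0, hρ1, e1, e2⟩
  · left
    refine ⟨t, abs_le.mp ht, ρ, ⟨hρ0, hρ1.trans (capR_le_sR lam t h0 h1)⟩, x 0,
      hx0.trans (by linarith), ?_⟩
    ext i
    fin_cases i
    · simp [sA, sB, sE, sW]
    · simp [sA, sB, sE, sW]; rw [e2]; ring
    · simp [sA, sB, sE, sW]; rw [hz, e1]; ring
  · right
    refine ⟨!₂[-x 1, x 0, Real.sqrt 2 - x 2], ?_, ?_⟩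
    · refine ⟨t, abs_le.mp ht, ρ, ⟨hρ0, hρ1.trans (capR_le_sR lam t h0 h1)⟩, -x 1,
        by rw [abs_neg]; exact hx1.trans hτ1, ?_⟩
      ext i
      fin_cases i
      · simp [sA, sB, sE, sW]
      · simp [sA, sB, sE, sW]; rw [e2]; ring
      · simp [sA, sB, sE, sW]
        have : Real.sqrt 2 - x 2 = Real.sqrt 2 * (1 - τ) := by rw [hz]; ring
        rw [this, e1]; ring
    · ext i
      fin_cases i <;> simp [sSym]

end Crest.Agent.Cyl
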