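import Crest.Agent.Cyl.SweepSum
import Crest.Agent.Cyl.Cover

/-! T6: the explicit sweep is covered by `N` triangle cylinders of small total area. -/

set_option autoImplicit false
open MeasureTheory
open scoped ENNReal

namespace Crest.Agent.Cyl

theorem sweepcov_inner (x y : E3) : inner ℝ x y = x 0 * y 0 + x 1 * y 1 + x 2 * y 2 := by
  simp [PiLp.inner_apply, Fin.sum_univ_three]
  ring

theorem sweepcov_norm_sq (x : E3) : ‖x‖ ^ 2 = x 0 ^ 2 + x 1 ^ 2 + x 2 ^ 2 := by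
  rw [← real_inner_self_eq_norm_sq, sweepcov_inner]; ring

theorem sweepcov_norm_sE : ‖sE‖ = 1 := by
  have h := sweepcov_norm_sq sE
  have h' : ‖sE‖ ^ 2 = 1 := by rw [h]; simp [sE]
  have h0 : 0 ≤ ‖sE‖ := norm_nonneg _
  nlinarith

theorem sweepcov_sW_eq (lam t : ℝ) :
    sW lam t = (lam * ((1 + t ^ 2) / 2)) • sB + (lam * t) • sA := by
  ext i
  fin_cases i <;> simp [sW, sA, sB]
  ring

theorem sweepcov_hasDeriv (lam t : ℝ) : HasDerivAt (sW lam) (lam • (sA + t • sB)) t := by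
  have h1 : HasDerivAt (fun t : ℝ => lam * ((1 + t ^ 2) / 2)) (lam * t) t := by
    have h := (((hasDerivAt_pow 2 t).const_add 1).div_const 2).const_mul lam
    have e : lam * (((2 : ℕ) : ℝ) * t ^ (2 - 1) / 2) = lam * t := by
      norm_num
    rw [← e]
    exact h
  have h2 : HasDerivAt (fun t : ℝ => lam * t) lam t := by
    simpa using (hasDerivAt_id t).const_mul lam
  have := (h1.smul_const sB).add (h2.smul_const sA)
  have e : sW lam = fun t => (lam * ((1 + t ^ 2) / 2)) • sB + (lam * t) • sA := by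
    funext s; exact sweepcov_sW_eq lam s
  rw [e]
  have e2 : lam • (sA + t • sB) = (lam * t) • sB + lam • sA := by
    rw [smul_add, smul_smul, add_comm]
  rw [e2]
  exact this

theorem sweepcov_linInd : LinearIndependent ℝ ![sA, sB] := by
  rw [LinearIndependent.pair_iff]
  intro s t h
  have h1 := congrArg (fun v : E3 => v 1) h
  have h2 := congrArg (fun v : E3 => v 2) h
  simp [sA, sB] at h1 h2
  exact ⟨h2, h1⟩

theorem sweepcov_gram : gram2 sA sB = 2 := by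
  rw [gram2, sweepcov_norm_sq, sweepcov_norm_sq, sweepcov_inner]
  simp [sA, sB]

theorem sweepcov_norm_sW (lam t : ℝ) :
    ‖sW lam t‖ ^ 2 = lam ^ 2 * (((1 + t ^ 2) / 2) ^ 2 + 2 * t ^ 2) := by
  rw [sweepcov_norm_sq]
  simp [sW]
  have : Real.sqrt 2 ^ 2 = 2 := Real.sq_sqrt (by norm_num)
  ring_nf
  rw [this]
  ring


theorem sweepcov_sR_le (lam c t d : ℝ) (hc : -1 ≤ c) (hct : c ≤ t) (htd : t ≤ c + d)
    (ht1 : t ≤ 1) : sR lam t ≤ sR lam c + 2 * lam ^ 2 * d := by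
  have hc1 : c ≤ 1 := le_trans hct ht1
  have ht0 : -1 ≤ t := le_trans hc hct
  have ht2 : t ^ 2 ≤ 1 := by nlinarith
  have hc2 : c ^ 2 ≤ 1 := by nlinarith
  have h1 : t ^ 2 - c ^ 2 ≤ 2 * d := by nlinarith
  have h3 : (t + c) * (t ^ 2 + c ^ 2) ≤ 4 := by
    nlinarith [mul_nonneg (sub_nonneg.mpr ht1) (sq_nonneg t), mul_nonneg (sub_nonneg.mpr ht1) (sq_nonneg c),
      mul_nonneg (sub_nonneg.mpr hc1) (sq_nonneg t), mul_nonneg (sub_nonneg.mpr hc1) (sq_nonneg c)]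
  have h2 : t ^ 4 - c ^ 4 ≤ 4 * d := by
    have e : t ^ 4 - c ^ 4 = (t - c) * ((t + c) * (t ^ 2 + c ^ 2)) := by ring
    rw [e]
    have : (t - c) * ((t + c) * (t ^ 2 + c ^ 2)) ≤ (t - c) * 4 :=
      mul_le_mul_of_nonneg_left h3 (by linarith)
    linarith
  unfold sR
  have hl : 0 ≤ lam ^ 2 := sq_nonneg lam
  nlinarith

theorem sweepcov_cyl_smul (B : Set E3) (u : E3) (k : ℝ) (hk : k ≠ 0) :
    cyl B u ⊆ cyl B (k • u) := by
  rintro x ⟨y, hy, t, rfl⟩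
  exact ⟨y, hy, t / k, by rw [smul_smul, div_mul_cancel₀ _ hk]⟩

theorem sweepcov_exists_index (N : ℕ) (hN : 0 < N) (τ : ℝ) (h0 : -1 ≤ τ) (h1 : τ ≤ 1) :
    ∃ i : Fin N, -1 + 2 * (i : ℝ) / N ≤ τ ∧ τ ≤ -1 + 2 * (i : ℝ) / N + 2 / N := by
  have hN' : (0 : ℝ) < N := by exact_mod_cast hN
  set k : ℕ := ⌊(τ + 1) * N / 2⌋₊ with hk
  have hnn : 0 ≤ (τ + 1) * N / 2 := by
    have : 0 ≤ τ + 1 := by linarith
    positivity
  have hk1 : (k : ℝ) ≤ (τ + 1) * N / 2 := Nat.floor_le hnn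
  have hk2 : (τ + 1) * N / 2 < k + 1 := Nat.lt_floor_add_one _
  by_cases hkN : k < N
  · refine ⟨⟨k, hkN⟩, ?_, ?_⟩
    · show -1 + 2 * (k : ℝ) / N ≤ τ
      have : 2 * (k : ℝ) / N ≤ τ + 1 := by
        rw [div_le_iff₀ hN']; linarith
      linarith
    · show τ ≤ -1 + 2 * (k : ℝ) / N + 2 / N
      have : τ + 1 ≤ 2 * (k : ℝ) / N + 2 / N := by
        rw [← add_div, le_div_iff₀ hN']; linarith
      linarith
  · have hkN' : (N : ℝ) ≤ k := by exact_mod_cast (not_lt.mp hkN)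
    refine ⟨⟨N - 1, by omega⟩, ?_, ?_⟩
    · show -1 + 2 * ((N - 1 : ℕ) : ℝ) / N ≤ τ
      have hτ : 1 ≤ τ := by
        have : (N : ℝ) ≤ (τ + 1) * N / 2 := le_trans hkN' hk1
        nlinarith
      have e : ((N - 1 : ℕ) : ℝ) = N - 1 := by
        rw [Nat.cast_sub (by omega)]; simp
      rw [e]
      have : 2 * ((N : ℝ) - 1) / N ≤ 2 := by
        rw [div_le_iff₀ hN']; linarith
      linarith
    · show τ ≤ -1 + 2 * ((N - 1 : ℕ) : ℝ) / N + 2 / N
      have e : ((N - 1 : ℕ) : ℝ) = N - 1 := by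
        rw [Nat.cast_sub (by omega)]; simp
      rw [e]
      have : -1 + 2 * ((N : ℝ) - 1) / N + 2 / N = 1 := by
        field_simp; ring
      rw [this]; exact h1

/-- T6b. -/
theorem sweepLow_cover (N : ℕ) (hN : 8000000 ≤ N) :
    TriCover (sweepLow (1 / 480)) N (Real.sqrt 2 * (1 / 4 - 1 / (2 * 10 ^ 8))) := by
  have hN0 : 0 < N := by omega
  have hN' : (0 : ℝ) < N := by exact_mod_cast hN0
  have hd0 : 0 < 2 / (N : ℝ) := by positivity
  have hsR0 : ∀ t : ℝ, 0 ≤ sR (1 / 480) t := by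
    intro t; unfold sR; positivity
  have key : ∀ i : Fin N, ∃ p q r : E3,
      inner ℝ p (sE + sW (1 / 480) (-1 + 2 * (i : ℝ) / N)) = 0 ∧
      inner ℝ q (sE + sW (1 / 480) (-1 + 2 * (i : ℝ) / N)) = 0 ∧
      inner ℝ r (sE + sW (1 / 480) (-1 + 2 * (i : ℝ) / N)) = 0 ∧
      AffineIndependent ℝ ![p, q, r] ∧
      fanPiece sE sA sB 0 (sW (1 / 480)) 1 (-1 + 2 * (i : ℝ) / N) (-1 + 2 * (i : ℝ) / N + 2 / N)
        (sR (1 / 480) (-1 + 2 * (i : ℝ) / N) + 2 * (1 / 480) ^ 2 * (2 / (N : ℝ))) ⊆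
          cyl (tri p q r) (sE + sW (1 / 480) (-1 + 2 * (i : ℝ) / N)) ∧
      μHE[2] (tri p q r) = ENNReal.ofReal
        (Real.sqrt (gram2 sA sB) * (((-1 + 2 * (i : ℝ) / N + 2 / N) - (-1 + 2 * (i : ℝ) / N)) / 2 *
          ((sR (1 / 480) (-1 + 2 * (i : ℝ) / N) + 2 * (1 / 480) ^ 2 * (2 / (N : ℝ))) +
            3 * ((1 / 480) * (2 / (N : ℝ)))) ^ 2) /
          Real.sqrt (1 + ‖sW (1 / 480) (-1 + 2 * (i : ℝ) / N)‖ ^ 2)) := by
    intro i
    refine fan_piece sE sA sB 0 sweepcov_norm_sE ?_ ?_ ?_ sweepcov_linInd 1 one_pos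
      (-1 + 2 * (i : ℝ) / N) (-1 + 2 * (i : ℝ) / N + 2 / N) (-1 + 2 * (i : ℝ) / N)
      (by linarith) ⟨le_rfl, by linarith⟩ (sW (1 / 480)) ?_ (fun _ => 1 / 480)
      (fun t _ => (sweepcov_hasDeriv (1 / 480) t).hasDerivWithinAt) (1 / 480) ?_
      (sR (1 / 480) (-1 + 2 * (i : ℝ) / N) + 2 * (1 / 480) ^ 2 * (2 / (N : ℝ)))
      ((1 / 480) * (2 / (N : ℝ))) ?_ ?_ ?_
    · rw [sweepcov_inner]; simp [sA, sE]
    · rw [sweepcov_inner]; simp [sB, sE]
    · simp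
    · intro t _; rw [sweepcov_inner]; simp [sW, sE]
    · intro t _; rw [abs_of_pos (by norm_num)]
    · have := hsR0 (-1 + 2 * (i : ℝ) / N)
      positivity
    · positivity
    · apply le_of_eq; ring
  choose p q r hp hq hr haff hsub harea using key
  have hD : ∀ i : Fin N, sE + sW (1 / 480) (-1 + 2 * (i : ℝ) / N) ≠ 0 := by
    intro i h
    have := congrArg (fun v : E3 => v 0) h
    simp [sE, sW] at this
  have hDn : ∀ i : Fin N, ‖sE + sW (1 / 480) (-1 + 2 * (i : ℝ) / N)‖ ≠ 0 :=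
    fun i => norm_ne_zero_iff.mpr (hD i)
  refine ⟨fun i => ‖sE + sW (1 / 480) (-1 + 2 * (i : ℝ) / N)‖⁻¹ •
    (sE + sW (1 / 480) (-1 + 2 * (i : ℝ) / N)), p, q, r, ?_, ?_, haff, ?_, ?_⟩
  · intro i
    rw [norm_smul, norm_inv, norm_norm, inv_mul_cancel₀ (hDn i)]
  · intro i
    simp only [inner_smul_right, hp i, hq i, hr i, mul_zero, and_self]
  · intro x hx
    obtain ⟨τ, hτ, ρ, hρ, s, hs, rfl⟩ := hx
    obtain ⟨i, hi1, hi2⟩ := sweepcov_exists_index N hN0 τ hτ.1 hτ.2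
    refine Set.mem_iUnion.mpr ⟨i, ?_⟩
    apply sweepcov_cyl_smul _ _ _ (inv_ne_zero (hDn i))
    apply hsub i
    refine ⟨τ, ⟨hi1, hi2⟩, ρ, ⟨hρ.1, hρ.2.trans ?_⟩, s, hs, rfl⟩
    have hc : -1 ≤ -1 + 2 * ((i : ℕ) : ℝ) / N := by
      have : 0 ≤ 2 * ((i : ℕ) : ℝ) / N := by positivity
      linarith
    exact sweepcov_sR_le _ _ _ _ hc hi1 hi2 hτ.2
  · refine le_trans (le_of_eq ?_) (sweep_sum_le N hN)
    apply Finset.sum_congr rfl
    intro i _
    rw [harea i, sweepcov_gram, sweepcov_norm_sW, add_sub_cancel_left, ENNReal.toReal_ofReal]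
    have := hsR0 (-1 + 2 * (i : ℝ) / N)
    positivity

/-- the linear part `(x,y,z) ↦ (y,-x,-z)` of `sSym`. -/
noncomputable def sU : E3 ≃ₗᵢ[ℝ] E3 :=
  LinearIsometryEquiv.mk
    { toFun := fun x => !₂[x 1, -x 0, -x 2]
      invFun := fun x => !₂[-x 1, x 0, -x 2]
      map_add' := by
        intro x y
        ext i
        fin_cases i <;> simp <;> ring
      map_smul' := by
        intro k x
        ext i
        fin_cases i <;> simp
      left_inv := by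
        intro x
        ext i
        fin_cases i <;> simp
      right_inv := by
        intro x
        ext i
        fin_cases i <;> simp }
    (by
      intro x
      have h : ‖(!₂[x 1, -x 0, -x 2] : E3)‖ ^ 2 = ‖x‖ ^ 2 := by
        rw [sweepcov_norm_sq, sweepcov_norm_sq]
        simp
        ring
      have h1 : 0 ≤ ‖(!₂[x 1, -x 0, -x 2] : E3)‖ := norm_nonneg _
      have h2 : 0 ≤ ‖x‖ := norm_nonneg _
      show ‖(!₂[x 1, -x 0, -x 2] : E3)‖ = ‖x‖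
      nlinarith [sq_nonneg (‖(!₂[x 1, -x 0, -x 2] : E3)‖ - ‖x‖),
        sq_nonneg (‖(!₂[x 1, -x 0, -x 2] : E3)‖ + ‖x‖)])

theorem sU_apply (x : E3) : sU x = !₂[x 1, -x 0, -x 2] := rfl

theorem sSym_eq (x : E3) : sSym x = !₂[0, 0, Real.sqrt 2] + (1 : ℝ) • sU x := by
  rw [sU_apply]
  ext i
  fin_cases i <;> simp [sSym]
  ring

/-- T6c. -/
theorem core_cover (N : ℕ) (hN : 8000000 ≤ N) :
    TriCover Kstd (2 * N) (Real.sqrt 2 * (1 / 2 - 1 / 10 ^ 8)) := by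
  have h1 := sweepLow_cover N hN
  have h2 := h1.image sU 1 one_pos !₂[0, 0, Real.sqrt 2]
  have h3 := h1.union h2
  rw [two_mul]
  refine h3.mono ?_ (le_of_eq ?_)
  · refine (sweep_cover (1 / 480) (by norm_num) (by norm_num)).trans ?_
    apply Set.union_subset_union_right
    apply le_of_eq
    apply Set.image_congr
    intro x _
    exact sSym_eq x
  · ring

end Crest.Agent.Cyl
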