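import Crest.Agent.Cyl.Sweep

/-! T6a: the numeric bound for the total base area of the explicit sweep (pure real analysis). -/

set_option autoImplicit false
open MeasureTheory
open scoped ENNReal

namespace Crest.Agent.Cyl

theorem sweepsum_pow2 (x : ℝ) (n : ℕ) :
    ∑ i ∈ Finset.range n, (-1 + 2 * (i : ℝ) * x) ^ 2 =
      n - 4 * x * (n * (n - 1) / 2) + 4 * x ^ 2 * ((n - 1) * n * (2 * n - 1) / 6) := by
  induction n with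
  | zero => simp
  | succ k ih => rw [Finset.sum_range_succ, ih]; push_cast; ring

theorem sweepsum_pow4 (x : ℝ) (n : ℕ) :
    ∑ i ∈ Finset.range n, (-1 + 2 * (i : ℝ) * x) ^ 4 =
      n - 8 * x * (n * (n - 1) / 2) + 24 * x ^ 2 * ((n - 1) * n * (2 * n - 1) / 6)
        - 32 * x ^ 3 * (n * (n - 1) / 2) ^ 2
        + 16 * x ^ 4 * (n * (n - 1) * (2 * n - 1) * (3 * n ^ 2 - 3 * n - 1) / 30) := by
  induction n with
  | zero => simp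
  | succ k ih => rw [Finset.sum_range_succ, ih]; push_cast; ring

theorem sweepsum_inv_sqrt_le (q : ℝ) (hq : 0 ≤ q) :
    1 / Real.sqrt (1 + q) ≤ 1 - q / 2 + 3 * q ^ 2 / 8 := by
  set s := Real.sqrt (1 + q) with hs
  have hs2 : s ^ 2 = 1 + q := Real.sq_sqrt (by linarith)
  have hs1 : 1 ≤ s := by
    rw [hs]; apply Real.one_le_sqrt.mpr; linarith
  have hq' : q = s ^ 2 - 1 := by linarith
  rw [div_le_iff₀ (by linarith)]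
  have : (1 - q / 2 + 3 * q ^ 2 / 8) * s - 1 = (s - 1) ^ 3 * (3 * s ^ 2 + 9 * s + 8) / 8 := by
    rw [hq']; ring
  have h2 : 0 ≤ (s - 1) ^ 3 * (3 * s ^ 2 + 9 * s + 8) / 8 := by
    have : 0 ≤ s - 1 := by linarith
    positivity
  linarith

theorem sweepsum_poly (W q l : ℝ) (hW0 : 0 ≤ W) (hW : W ≤ l) (hq0 : 0 ≤ q) (hq : q ≤ 3 * l)
    (hl : l ≤ 1 / 100) :
    (1 / 2 + W) ^ 2 * (1 - q / 2 + 3 * q ^ 2 / 8) ≤ 1 / 4 + W - q / 8 + 2 * l ^ 2 := by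
  have hl0 : 0 ≤ l := le_trans hW0 hW
  have h1 : W ^ 2 ≤ l ^ 2 := by gcongr
  have h2 : q ^ 2 ≤ (3 * l) ^ 2 := by gcongr
  have h3 : 0 ≤ W * q := by positivity
  have h4 : W * q ^ 2 ≤ l * (3 * l) ^ 2 := by gcongr
  have h5 : 0 ≤ W ^ 2 * q := by positivity
  have h6 : W ^ 2 * q ^ 2 ≤ l ^ 2 * (3 * l) ^ 2 := by gcongr
  have h7 : l ^ 3 ≤ l ^ 2 * (1 / 100) := by
    have : l ^ 3 = l ^ 2 * l := by ring
    rw [this]; gcongr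
  have h8 : l ^ 4 ≤ l ^ 2 * (1 / 100) := by
    have : l ^ 4 = l ^ 2 * (l * l) := by ring
    rw [this]
    have : l * l ≤ 1 / 100 := by nlinarith
    gcongr
  have e : (1 / 2 + W) ^ 2 * (1 - q / 2 + 3 * q ^ 2 / 8) =
      1 / 4 + W - q / 8 + (W ^ 2 + 3 * q ^ 2 / 32 - W * q / 2 + 3 * (W * q ^ 2) / 8
        - W ^ 2 * q / 2 + 3 * (W ^ 2 * q ^ 2) / 8) := by ring
  rw [e]
  have e4 : l * (3 * l) ^ 2 = 9 * l ^ 3 := by ring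
  have e6 : l ^ 2 * (3 * l) ^ 2 = 9 * l ^ 4 := by ring
  have e2 : (3 * l) ^ 2 = 9 * l ^ 2 := by ring
  rw [e4] at h4; rw [e6] at h6; rw [e2] at h2
  have : 0 ≤ l ^ 2 := by positivity
  linarith

/-- pointwise bound of one term. -/
theorem sweepsum_term (c d : ℝ) (hc : c ^ 2 ≤ 1) (hd0 : 0 ≤ d) (hd : d ≤ 1 / 4000000) :
    (sR (1 / 480) c + 2 * (1 / 480) ^ 2 * d + 3 * ((1 / 480) * d)) ^ 2 /
        Real.sqrt (1 + ((1 / 480 : ℝ)) ^ 2 * (((1 + c ^ 2) / 2) ^ 2 + 2 * c ^ 2)) ≤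
      1 / 4 + (1 / 480 : ℝ) ^ 2 * (-1 / 32 - c ^ 2 / 16 + 7 * c ^ 4 / 32)
        + (2 * (1 / 480 : ℝ) ^ 3 + 2 * (1 / 480) ^ 2 * d + 3 * ((1 / 480) * d))
        + 2 * ((1 / 480 : ℝ) ^ 2) ^ 2 := by
  set y := c ^ 2 with hy
  have hy0 : 0 ≤ y := by positivity
  have hc4 : c ^ 4 = y ^ 2 := by rw [hy]; ring
  set q : ℝ := ((1 / 480 : ℝ)) ^ 2 * (((1 + y) / 2) ^ 2 + 2 * y) with hq
  set W : ℝ := (1 / 480 : ℝ) ^ 2 * (y + y ^ 2) / 4 +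
    (2 * (1 / 480 : ℝ) ^ 3 + 2 * (1 / 480) ^ 2 * d + 3 * ((1 / 480) * d)) with hW
  have hq0 : 0 ≤ q := by positivity
  have hy2 : y ^ 2 ≤ 1 := by nlinarith
  have hq3 : q ≤ 3 * (1 / 480 : ℝ) ^ 2 := by
    rw [hq]; nlinarith
  have hW0 : 0 ≤ W := by positivity
  have hW1 : W ≤ (1 / 480 : ℝ) ^ 2 := by
    rw [hW]; nlinarith
  have hR : sR (1 / 480) c + 2 * (1 / 480) ^ 2 * d + 3 * ((1 / 480) * d) = 1 / 2 + W := by
    rw [hW, sR, hc4]; ring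
  rw [hR, div_eq_mul_one_div]
  calc (1 / 2 + W) ^ 2 * (1 / Real.sqrt (1 + q))
      ≤ (1 / 2 + W) ^ 2 * (1 - q / 2 + 3 * q ^ 2 / 8) := by
        gcongr
        exact sweepsum_inv_sqrt_le q hq0
    _ ≤ 1 / 4 + W - q / 8 + 2 * ((1 / 480 : ℝ) ^ 2) ^ 2 :=
        sweepsum_poly W q _ hW0 hW1 hq0 hq3 (by norm_num)
    _ = _ := by rw [hW, hq, hc4]; ring


theorem sweepsum_avg2 (N : ℕ) (hN : 0 < N) :
    (N : ℝ) / 3 ≤ ∑ i ∈ Finset.range N, (-1 + 2 * (i : ℝ) / N) ^ 2 := by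
  have hN' : (0 : ℝ) < N := by exact_mod_cast hN
  have e : ∀ i : ℕ, (-1 + 2 * (i : ℝ) / N) ^ 2 = (-1 + 2 * (i : ℝ) * (1 / (N : ℝ))) ^ 2 := by
    intro i; ring
  simp only [e]
  rw [sweepsum_pow2]
  have : (N : ℝ) - 4 * (1 / (N : ℝ)) * (N * (N - 1) / 2)
      + 4 * (1 / (N : ℝ)) ^ 2 * ((N - 1) * N * (2 * N - 1) / 6) = N / 3 + 2 / (3 * N) := by
    field_simp
    ring
  rw [this]
  have : 0 ≤ 2 / (3 * (N : ℝ)) := by positivity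
  linarith

theorem sweepsum_avg4 (N : ℕ) (hN : 0 < N) :
    ∑ i ∈ Finset.range N, (-1 + 2 * (i : ℝ) / N) ^ 4 ≤ (N : ℝ) / 5 + 2 / N := by
  have hN' : (0 : ℝ) < N := by exact_mod_cast hN
  have e : ∀ i : ℕ, (-1 + 2 * (i : ℝ) / N) ^ 4 = (-1 + 2 * (i : ℝ) * (1 / (N : ℝ))) ^ 4 := by
    intro i; ring
  simp only [e]
  rw [sweepsum_pow4]
  have : (N : ℝ) - 8 * (1 / (N : ℝ)) * (N * (N - 1) / 2)
      + 24 * (1 / (N : ℝ)) ^ 2 * ((N - 1) * N * (2 * N - 1) / 6)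
      - 32 * (1 / (N : ℝ)) ^ 3 * (N * (N - 1) / 2) ^ 2
      + 16 * (1 / (N : ℝ)) ^ 4 * (N * (N - 1) * (2 * N - 1) * (3 * N ^ 2 - 3 * N - 1) / 30)
      = N / 5 + 4 / (3 * N) - 8 / (15 * N ^ 3) := by
    field_simp
    ring
  rw [this]
  have h1 : 0 ≤ 8 / (15 * (N : ℝ) ^ 3) := by positivity
  have h2 : 4 / (3 * (N : ℝ)) ≤ 2 / N := by
    rw [div_le_div_iff₀ (by positivity) hN']
    nlinarith
  linarith

/-- T6a (pure real analysis). Uniform partition `c i = -1 + 2 i / N`, `δ = 2/N`, `lam = 1/480`,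
cap `sR lam (c i) + 2 lam² δ` (an upper bound of `sR lam` on `[c i, c i + δ]`), `μ = lam δ`. -/
theorem sweep_sum_le (N : ℕ) (hN : 8000000 ≤ N) :
    ∑ i : Fin N, (Real.sqrt 2 * ((2 / (N : ℝ)) / 2 *
        (sR (1 / 480) (-1 + 2 * (i : ℝ) / N) + 2 * (1 / 480) ^ 2 * (2 / (N : ℝ)) +
          3 * ((1 / 480) * (2 / (N : ℝ)))) ^ 2) /
        Real.sqrt (1 + ((1 / 480 : ℝ)) ^ 2 * (((1 + (-1 + 2 * (i : ℝ) / N) ^ 2) / 2) ^ 2 +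
          2 * (-1 + 2 * (i : ℝ) / N) ^ 2)))
      ≤ Real.sqrt 2 * (1 / 4 - 1 / (2 * 10 ^ 8)) := by
  have hN0 : 0 < N := by omega
  have hN' : (0 : ℝ) < N := by exact_mod_cast hN0
  have hN8 : (8000000 : ℝ) ≤ N := by exact_mod_cast hN
  set d : ℝ := 2 / (N : ℝ) with hd
  have hd0 : 0 ≤ d := by positivity
  have hd1 : d ≤ 1 / 4000000 := by
    rw [hd, div_le_div_iff₀ hN' (by norm_num)]
    linarith
  set K : ℝ := 1 / 4 - (1 / 480 : ℝ) ^ 2 / 32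
        + (2 * (1 / 480 : ℝ) ^ 3 + 2 * (1 / 480) ^ 2 * d + 3 * ((1 / 480) * d))
        + 2 * ((1 / 480 : ℝ) ^ 2) ^ 2 with hK
  have hs2 : 0 ≤ Real.sqrt 2 := Real.sqrt_nonneg 2
  -- pointwise
  have hpt : ∀ i : Fin N, (Real.sqrt 2 * (d / 2 *
        (sR (1 / 480) (-1 + 2 * (i : ℝ) / N) + 2 * (1 / 480) ^ 2 * d +
          3 * ((1 / 480) * d)) ^ 2) /
        Real.sqrt (1 + ((1 / 480 : ℝ)) ^ 2 * (((1 + (-1 + 2 * (i : ℝ) / N) ^ 2) / 2) ^ 2 +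
          2 * (-1 + 2 * (i : ℝ) / N) ^ 2))) ≤
      Real.sqrt 2 * (d / 2) * (K - (1 / 480 : ℝ) ^ 2 / 16 * (-1 + 2 * (i : ℝ) / N) ^ 2
        + 7 * (1 / 480 : ℝ) ^ 2 / 32 * (-1 + 2 * (i : ℝ) / N) ^ 4) := by
    intro i
    have hi : ((i : ℕ) : ℝ) < N := by exact_mod_cast i.2
    have hi0 : (0 : ℝ) ≤ ((i : ℕ) : ℝ) := by positivity
    have hc1 : -1 ≤ -1 + 2 * ((i : ℕ) : ℝ) / N := by
      have : 0 ≤ 2 * ((i : ℕ) : ℝ) / N := by positivity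
      linarith
    have hc2 : -1 + 2 * ((i : ℕ) : ℝ) / N ≤ 1 := by
      have : 2 * ((i : ℕ) : ℝ) / N ≤ 2 := by
        rw [div_le_iff₀ hN']; linarith
      linarith
    have hc : (-1 + 2 * ((i : ℕ) : ℝ) / N) ^ 2 ≤ 1 := by nlinarith
    have := sweepsum_term (-1 + 2 * ((i : ℕ) : ℝ) / N) d hc hd0 hd1
    rw [mul_div_assoc, mul_div_assoc, ← mul_assoc]
    apply mul_le_mul_of_nonneg_left _ (by positivity)
    refine this.trans (le_of_eq ?_)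
    rw [hK]; ring
  refine (Finset.sum_le_sum (fun i _ => hpt i)).trans ?_
  rw [← Finset.mul_sum]
  rw [Fin.sum_univ_eq_sum_range (fun i : ℕ => K - (1 / 480 : ℝ) ^ 2 / 16 * (-1 + 2 * (i : ℝ) / N) ^ 2
        + 7 * (1 / 480 : ℝ) ^ 2 / 32 * (-1 + 2 * (i : ℝ) / N) ^ 4) N]
  rw [Finset.sum_add_distrib, Finset.sum_sub_distrib, ← Finset.mul_sum, ← Finset.mul_sum]
  simp only [Finset.sum_const, Finset.card_range, nsmul_eq_mul]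
  have h2 := sweepsum_avg2 N hN0
  have h4 := sweepsum_avg4 N hN0
  rw [mul_assoc]
  apply mul_le_mul_of_nonneg_left _ hs2
  have hd2 : d / 2 = 1 / N := by rw [hd]; ring
  rw [hd2, one_div, inv_mul_le_iff₀ hN']
  have hNinv : 2 / (N : ℝ) ≤ N * (1 / 10 ^ 12) := by
    rw [div_le_iff₀ hN']
    nlinarith
  have hKle : K ≤ 1 / 4 - (1 / 480 : ℝ) ^ 2 / 32
        + (2 * (1 / 480 : ℝ) ^ 3 + 2 * (1 / 480) ^ 2 * (1 / 4000000) + 3 * ((1 / 480) * (1 / 4000000)))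
        + 2 * ((1 / 480 : ℝ) ^ 2) ^ 2 := by
    rw [hK]; gcongr
  have hNK : (N : ℝ) * K ≤ N * (1 / 4 - (1 / 480 : ℝ) ^ 2 / 32
        + (2 * (1 / 480 : ℝ) ^ 3 + 2 * (1 / 480) ^ 2 * (1 / 4000000) + 3 * ((1 / 480) * (1 / 4000000)))
        + 2 * ((1 / 480 : ℝ) ^ 2) ^ 2) := by gcongr
  have g2 : (1 / 480 : ℝ) ^ 2 / 16 * ((N : ℝ) / 3) ≤
      (1 / 480 : ℝ) ^ 2 / 16 * ∑ i ∈ Finset.range N, (-1 + 2 * (i : ℝ) / N) ^ 2 := by gcongr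
  have g4 : 7 * (1 / 480 : ℝ) ^ 2 / 32 * ∑ i ∈ Finset.range N, (-1 + 2 * (i : ℝ) / N) ^ 4 ≤
      7 * (1 / 480 : ℝ) ^ 2 / 32 * ((N : ℝ) / 5 + N * (1 / 10 ^ 12)) := by
    gcongr
    linarith
  nlinarith

end Crest.Agent.Cyl
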