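import Crest.Agent.Cyl.AreaAlg
import Crest.Agent.Cyl.Shadow

/-! T3: projections of the standard tetrahedron have area ≥ √2 (S0325 part 1).
The work is done in `Cyl/Shadow.lean`. -/

set_option autoImplicit false
open MeasureTheory
open scoped ENNReal

namespace Crest.Agent.Cyl

theorem proj_area_ge (v : E3) (hv : ‖v‖ = 1) :
    ENNReal.ofReal (Real.sqrt 2) ≤ μHE[2] ((fun y => y - inner ℝ y v • v) '' Kstd) :=
  shadow_K0_ge v hv

theorem isBounded_Kstd : Bornology.IsBounded Kstd :=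
  ((Set.toFinite _).isCompact_convexHull (𝕜 := ℝ)).isBounded

theorem proj_area_lt_top (v : E3) (hv : ‖v‖ = 1) :
    μHE[2] ((fun y => y - inner ℝ y v • v) '' Kstd) < ⊤ :=
  shadow_lt_top v hv Kstd isBounded_Kstd

theorem proj_area_eq : ∃ v : E3, ‖v‖ = 1 ∧
    μHE[2] ((fun y => y - inner ℝ y v • v) '' Kstd) = ENNReal.ofReal (Real.sqrt 2) :=
  minProjection_K0.2

end Crest.Agent.Cyl
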